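import Vale.Agent.Lib.P147H.Defs4

/-! P147, fourth version, module AVG: average over the level of the tip, from the block estimate. -/

open MeasureTheory ProbabilityTheory Filter
open scoped ENNReal

namespace Vale.Agent.Lib.P147H

open Vale.Agent.Lib.P147 Vale.Agent.Lib.P147G

variable {d : ℕ}

theorem Avg_zero (ν : Measure (ℕ → Step d)) (i : Fin d) {M κ : ℝ} {D L : ℕ} (hLD : L < D) :
    Vt ν i M κ D L = 0 := by
  unfold Vt
  rw [ENNReal.tsum_eq_zero]
  intro γ
  by_cases hγ : Tip i L M κ γ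
  · rw [if_pos hγ]
    have h0 : Vn i L D γ = 0 := by
      unfold Vn
      rw [Finset.card_eq_zero, Finset.filter_eq_empty_iff]
      intro k hk hk2
      rw [Finset.mem_range] at hk
      have h1 := hγ.1.2 k (by omega)
      rw [hk2] at h1
      omega
    rw [h0, Nat.cast_zero, mul_zero]
  · rw [if_neg hγ]

theorem Avg_blocks (f : ℕ → ℝ≥0∞) (D : ℕ) (c : ℝ≥0∞)
    (hf : ∀ a, ∑ L ∈ Finset.Ico a (a + D), f L ≤ c) (B : ℕ) :
    ∑ L ∈ Finset.range (B * D), f L ≤ B * c := by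
  induction B with
  | zero => simp
  | succ B ih =>
    have h1 : B * D ≤ B * D + D := Nat.le_add_right _ _
    rw [Nat.succ_mul, ← Finset.sum_range_add_sum_Ico _ h1]
    push_cast
    rw [add_mul, one_mul]
    exact add_le_add ih (hf _)

theorem avg_of {ν : Measure (ℕ → Step d)} (i : Fin d) {M κ : ℝ} (hM : 0 ≤ M)
    (hblock : ∀ a D : ℕ, 1 ≤ D → ∑ L ∈ Finset.Ico a (a + D), Vt ν i M κ D L ≤
      ENNReal.ofReal (M * (2 * (D : ℝ)) ^ κ)) (N D : ℕ) (hD : 1 ≤ D) :
    ∑ L ∈ Finset.range N, Vt ν i M κ D L ≤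
      ENNReal.ofReal (2 ^ (κ + 1) * M * N * (D : ℝ) ^ (κ - 1)) := by
  rcases Nat.lt_or_ge N D with hND | hDN
  · rw [Finset.sum_eq_zero]
    · exact zero_le
    · intro L hL
      rw [Finset.mem_range] at hL
      exact Avg_zero ν i (hL.trans hND)
  · have hD0 : (0 : ℝ) < D := by exact_mod_cast hD
    have h1 : ∑ L ∈ Finset.range N, Vt ν i M κ D L ≤
        ∑ L ∈ Finset.range ((N / D + 1) * D), Vt ν i M κ D L := by
      refine Finset.sum_le_sum_of_subset ?_
      intro x hx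
      rw [Finset.mem_range] at hx ⊢
      have h2 : N < (N / D + 1) * D := by
        rw [Nat.add_mul, one_mul]
        exact Nat.lt_div_mul_add (by omega)
      omega
    refine h1.trans ((Avg_blocks _ D _ (fun a => hblock a D hD) _).trans ?_)
    rw [← ENNReal.ofReal_natCast, ← ENNReal.ofReal_mul (by positivity)]
    apply ENNReal.ofReal_le_ofReal
    have h3 : ((N / D : ℕ) : ℝ) ≤ (N : ℝ) / D := Nat.cast_div_le
    have h4 : (1 : ℝ) ≤ (N : ℝ) / D := by
      rw [le_div_iff₀ hD0, one_mul]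
      exact_mod_cast hDN
    have h5 : (((N / D + 1 : ℕ) : ℕ) : ℝ) ≤ 2 * ((N : ℝ) / D) := by
      push_cast
      linarith
    have h6 : (2 : ℝ) ^ (κ + 1) = 2 ^ κ * 2 := by
      rw [Real.rpow_add (by norm_num), Real.rpow_one]
    have h7 : (D : ℝ) ^ (κ - 1) = (D : ℝ) ^ κ / D := by
      rw [Real.rpow_sub hD0, Real.rpow_one]
    calc (((N / D + 1 : ℕ) : ℕ) : ℝ) * (M * (2 * (D : ℝ)) ^ κ)
        ≤ 2 * ((N : ℝ) / D) * (M * (2 * (D : ℝ)) ^ κ) :=
          mul_le_mul_of_nonneg_right h5 (by positivity)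
      _ = 2 ^ (κ + 1) * M * N * (D : ℝ) ^ (κ - 1) := by
          rw [h6, h7, Real.mul_rpow (by norm_num) hD0.le]
          ring

end Vale.Agent.Lib.P147H
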