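import Vale.Agent.Lib.P147H.Block
import Vale.Agent.Lib.P147H.AvgOf

/-! P147, fourth version, module AVG. -/

open MeasureTheory ProbabilityTheory Filter
open scoped ENNReal

namespace Vale.Agent.Lib.P147H

open Vale.Agent.Lib.P147 Vale.Agent.Lib.P147G

variable {d : ℕ}

theorem avg {ν : Measure (ℕ → Step d)} (h : Law ν) (i : Fin d) {M κ : ℝ} (hM : 0 ≤ M)
    (hκ : 1 ≤ κ) (N D : ℕ) (hD : 1 ≤ D) :
    ∑ L ∈ Finset.range N, Vt ν i M κ D L ≤
      ENNReal.ofReal (2 ^ (κ + 1) * M * N * (D : ℝ) ^ (κ - 1)) :=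
  avg_of i hM (fun a D hD => block h i hM (zero_le_one.trans hκ) a D hD) N D hD

end Vale.Agent.Lib.P147H
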