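import Vale.Agent.Lib.P147H.Defs4

/-! P147, fourth version, module BLOCK: the visits counted for the good tips of a block of `D`
consecutive levels are all close to the last tip of the block. -/

open MeasureTheory ProbabilityTheory Filter
open scoped ENNReal

namespace Vale.Agent.Lib.P147H

open Vale.Agent.Lib.P147 Vale.Agent.Lib.P147G

variable {d : ℕ}

theorem Block_hit_le {i : Fin d} {s : ℕ → Step d} {L L' t t' : ℕ} (hL : L ≤ L')
    (h : Hit i (L : ℤ) (pre s t)) (h' : Hit i (L' : ℤ) (pre s t')) : t ≤ t' := by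
  by_contra hcon
  push Not at hcon
  have h1 := h.2 t' (by rw [pre_length]; exact hcon)
  rw [pre_take s hcon.le, h'.1] at h1
  omega

theorem Block_point {i : Fin d} {M κ : ℝ} (hM : 0 ≤ M) (s : ℕ → Step d) (a D : ℕ) (hD : 1 ≤ D)
    (S : Finset ℕ) (hS : S ⊆ Finset.Ico a (a + D)) (t : ℕ → ℕ)
    (ht : ∀ L ∈ S, Tip i L M κ (pre s (t L))) :
    ((∑ L ∈ S, Vn i L D (pre s (t L)) : ℕ) : ℝ) ≤ M * (2 * (D : ℝ)) ^ κ := by
  rcases S.eq_empty_or_nonempty with h0 | hne
  · rw [h0, Finset.sum_empty, Nat.cast_zero]
    positivity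
  · set K := S.max' hne with hK
    have hKS : K ∈ S := S.max'_mem hne
    have hle : ∀ L ∈ S, L ≤ K := fun L hL => S.le_max' L hL
    have htle : ∀ L ∈ S, t L ≤ t K := fun L hL =>
      Block_hit_le (hle L hL) (ht L hL).1.1 (ht K hKS).1.1
    set F : ℕ → Finset ℕ := fun L => (Finset.range ((pre s (t L)).length + 1)).filter
      (fun k => endp ((pre s (t L)).take k) i = (L : ℤ) - (D : ℤ)) with hF
    have hmem : ∀ L k, k ∈ F L → k ≤ t L ∧ pos s k i = (L : ℤ) - (D : ℤ) := by
      intro L k hk
      rw [hF, Finset.mem_filter, Finset.mem_range, pre_length] at hk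
      have h1 : k ≤ t L := by omega
      refine ⟨h1, ?_⟩
      have h2 := hk.2
      rw [pre_take s h1] at h2
      exact h2
    have hsum : ∑ L ∈ S, Vn i L D (pre s (t L)) = (S.biUnion F).card := by
      rw [Finset.card_biUnion]
      · rfl
      · intro x _ y _ hxy
        show Disjoint (F x) (F y)
        rw [Finset.disjoint_left]
        intro k hkx hky
        have h1 := (hmem x k hkx).2
        have h2 := (hmem y k hky).2
        apply hxy
        have h3 : ((x : ℤ)) = y := by linarith
        exact_mod_cast h3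
    have hsub : S.biUnion F ⊆ (Finset.range ((pre s (t K)).length + 1)).filter
        (fun k => (K : ℤ) - ((2 * D : ℕ) : ℤ) ≤ endp ((pre s (t K)).take k) i) := by
      intro k hk
      rw [Finset.mem_biUnion] at hk
      obtain ⟨L, hL, hkL⟩ := hk
      obtain ⟨h1, h2⟩ := hmem L k hkL
      have h3 := htle L hL
      have h4 := Finset.mem_Ico.1 (hS hL)
      have h5 := Finset.mem_Ico.1 (hS hKS)
      rw [Finset.mem_filter, Finset.mem_range, pre_length]
      refine ⟨by omega, ?_⟩
      rw [pre_take s (h1.trans h3)]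
      show (K : ℤ) - ((2 * D : ℕ) : ℤ) ≤ pos s k i
      rw [h2]
      push_cast
      omega
    have h6 := (ht K hKS).2 (2 * D) (by omega)
    rw [hsum]
    have h7 : ((S.biUnion F).card : ℝ) ≤ ((((Finset.range ((pre s (t K)).length + 1)).filter
        (fun k => (K : ℤ) - ((2 * D : ℕ) : ℤ) ≤ endp ((pre s (t K)).take k) i)).card : ℕ) : ℝ) := by
      exact_mod_cast Finset.card_le_card hsub
    refine h7.trans (h6.trans (le_of_eq ?_))
    push_cast
    ring

open Classical in
theorem Block_term (i : Fin d) (M κ : ℝ) (s : ℕ → Step d) (D L : ℕ) :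
    (∑' γ : List (Step d), (cyl γ).indicator
      (fun _ => if Tip i L M κ γ then (Vn i L D γ : ℝ≥0∞) else 0) s) ≤
    if h : ∃ n, Tip i L M κ (pre s n) then (Vn i L D (pre s h.choose) : ℝ≥0∞) else 0 := by
  split_ifs with h
  · rw [tsum_eq_single (pre s h.choose)]
    · rw [Set.indicator_of_mem (pre_mem_cyl s _), if_pos h.choose_spec]
    · intro γ hγ
      by_cases hs : s ∈ cyl γ
      · rw [Set.indicator_of_mem hs]
        rw [if_neg]
        intro hT
        apply hγ
        have h1 : pre s γ.length = γ := hs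
        have h2 : Hit i (L : ℤ) (pre s γ.length) := by rw [h1]; exact hT.1.1
        have h3 := Block_hit_le le_rfl h2 h.choose_spec.1.1
        have h4 := Block_hit_le le_rfl h.choose_spec.1.1 h2
        rw [← h1, le_antisymm h3 h4]
      · exact Set.indicator_of_notMem hs _
  · rw [nonpos_iff_eq_zero, ENNReal.tsum_eq_zero]
    intro γ
    by_cases hs : s ∈ cyl γ
    · rw [Set.indicator_of_mem hs, if_neg]
      intro hT
      apply h
      have h1 : pre s γ.length = γ := hs
      exact ⟨γ.length, by rw [h1]; exact hT⟩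
    · exact Set.indicator_of_notMem hs _

open Classical in
theorem block {ν : Measure (ℕ → Step d)} (h : Law ν) (i : Fin d) {M κ : ℝ} (hM : 0 ≤ M)
    (hκ : 0 ≤ κ) (a D : ℕ) (hD : 1 ≤ D) :
    ∑ L ∈ Finset.Ico a (a + D), Vt ν i M κ D L ≤
      ENNReal.ofReal (M * (2 * (D : ℝ)) ^ κ) := by
  have hterm : ∀ L, Vt ν i M κ D L = ∫⁻ s, (∑' γ : List (Step d), (cyl γ).indicator
      (fun _ => if Tip i L M κ γ then (Vn i L D γ : ℝ≥0∞) else 0) s) ∂ν := by
    intro L
    rw [lintegral_tsum]
    · unfold Vt
      refine tsum_congr fun γ => ?_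
      rw [lintegral_indicator_const (measurableSet_cyl γ)]
      split_ifs
      · rw [mul_comm]
      · rw [zero_mul]
    · intro γ
      exact (measurable_const.indicator (measurableSet_cyl γ)).aemeasurable
  have hmeas : ∀ L, Measurable (fun s : ℕ → Step d => ∑' γ : List (Step d), (cyl γ).indicator
      (fun _ => if Tip i L M κ γ then (Vn i L D γ : ℝ≥0∞) else 0) s) := by
    intro L
    exact Measurable.ennreal_tsum fun γ => measurable_const.indicator (measurableSet_cyl γ)
  rw [Finset.sum_congr rfl (fun L _ => hterm L),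
    ← lintegral_finsetSum _ (fun L _ => hmeas L)]
  calc ∫⁻ s, (∑ L ∈ Finset.Ico a (a + D), ∑' γ : List (Step d), (cyl γ).indicator
      (fun _ => if Tip i L M κ γ then (Vn i L D γ : ℝ≥0∞) else 0) s) ∂ν
      ≤ ∫⁻ _s, ENNReal.ofReal (M * (2 * (D : ℝ)) ^ κ) ∂ν := by
        refine lintegral_mono fun s => ?_
        refine (Finset.sum_le_sum fun L _ => Block_term i M κ s D L).trans ?_
        set S := (Finset.Ico a (a + D)).filter (fun L => ∃ n, Tip i L M κ (pre s n)) with hS
        set t : ℕ → ℕ := fun L => if h : ∃ n, Tip i L M κ (pre s n) then h.choose else 0 with ht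
        have h1 : ∑ L ∈ Finset.Ico a (a + D), (if h : ∃ n, Tip i L M κ (pre s n) then
            (Vn i L D (pre s h.choose) : ℝ≥0∞) else 0) =
            ((∑ L ∈ S, Vn i L D (pre s (t L)) : ℕ) : ℝ≥0∞) := by
          rw [Nat.cast_sum, hS, Finset.sum_filter]
          refine Finset.sum_congr rfl fun L _ => ?_
          by_cases hL : ∃ n, Tip i L M κ (pre s n)
          · rw [dif_pos hL, if_pos hL, ht]
            simp only [dif_pos hL]
          · rw [dif_neg hL, if_neg hL]
        rw [h1, ← ENNReal.ofReal_natCast]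
        apply ENNReal.ofReal_le_ofReal
        refine Block_point hM s a D hD S (Finset.filter_subset _ _) t ?_
        intro L hL
        have hL2 := (Finset.mem_filter.1 hL).2
        rw [ht]
        simp only [dif_pos hL2]
        exact hL2.choose_spec
    _ = ENNReal.ofReal (M * (2 * (D : ℝ)) ^ κ) := by
        rw [lintegral_const, h.prob, mul_one]

end Vale.Agent.Lib.P147H
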