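import Vale.Agent.Lib.P147H.Defs

/-! P147 v3, module CUTCAT (helper14): concatenation of crossings at a cut. -/

open MeasureTheory ProbabilityTheory Filter
open scoped ENNReal

namespace Vale.Agent.Lib.P147H

open Vale.Agent.Lib.P147 Vale.Agent.Lib.P147G

variable {d : ℕ}

namespace CutCat

theorem vec_i (i : Fin d) : vec (i, true) i = 1 := by
  simp [vec]

theorem take_lo {i : Fin d} (γ₁ γ₂ : List (Step d)) {k : ℕ} (hk : k ≤ γ₁.length) :
    (γ₁ ++ [(i, true)] ++ γ₂).take k = γ₁.take k := by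
  rw [List.append_assoc, List.take_append_of_le_length hk]

theorem take_hi {i : Fin d} (γ₁ γ₂ : List (Step d)) (k : ℕ) :
    (γ₁ ++ [(i, true)] ++ γ₂).take (γ₁.length + 1 + k) = γ₁ ++ [(i, true)] ++ γ₂.take k := by
  have h : γ₁.length + 1 + k = (γ₁ ++ [(i, true)]).length + k := by simp
  rw [h, List.take_length_add_append]

theorem endp_hi {i : Fin d} (γ₁ γ₂ : List (Step d)) (k : ℕ) :
    endp ((γ₁ ++ [(i, true)] ++ γ₂).take (γ₁.length + 1 + k)) i
      = endp γ₁ i + 1 + endp (γ₂.take k) i := by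
  rw [take_hi, endp_append, endp_append, endp_singleton]
  simp only [Pi.add_apply, vec_i]

theorem length_cat {i : Fin d} (γ₁ γ₂ : List (Step d)) :
    (γ₁ ++ [(i, true)] ++ γ₂).length = γ₁.length + 1 + γ₂.length := by
  rw [List.length_append, List.length_append, List.length_singleton]

theorem getElem?_lo {i : Fin d} (γ₁ γ₂ : List (Step d)) {k : ℕ} (hk : k < γ₁.length) :
    (γ₁ ++ [(i, true)] ++ γ₂)[k]? = γ₁[k]? := by
  rw [List.append_assoc, List.getElem?_append_left hk]

theorem getElem?_hi {i : Fin d} (γ₁ γ₂ : List (Step d)) (k : ℕ) :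
    (γ₁ ++ [(i, true)] ++ γ₂)[γ₁.length + 1 + k]? = γ₂[k]? := by
  rw [List.getElem?_append_right (by simp)]
  congr 1
  simp

theorem cases_k {i : Fin d} (γ₁ γ₂ : List (Step d)) {k : ℕ}
    (hk : k ≤ (γ₁ ++ [(i, true)] ++ γ₂).length) :
    k ≤ γ₁.length ∨ ∃ k', k' ≤ γ₂.length ∧ k = γ₁.length + 1 + k' := by
  rw [length_cat] at hk
  rcases Nat.lt_or_ge γ₁.length k with h | h
  · right
    exact ⟨k - (γ₁.length + 1), by omega, by omega⟩
  · exact Or.inl h

theorem hit_le {i : Fin d} {L : ℤ} {γ : List (Step d)} (h : Hit i L γ) {k : ℕ}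
    (hk : k ≤ γ.length) : endp (γ.take k) i ≤ L := by
  rcases Nat.lt_or_ge k γ.length with h1 | h1
  · exact (h.2 k h1).le
  · have : k = γ.length := le_antisymm hk h1
    rw [this, List.take_length, h.1]

/-- the time of the first visit is determined -/
theorem hit_time {i : Fin d} {L : ℤ} {γ : List (Step d)} {t t' : ℕ} (ht : t ≤ γ.length)
    (ht' : t' ≤ γ.length) (h : Hit i L (γ.take t)) (h' : Hit i L (γ.take t')) : t = t' := by
  have key : ∀ a b : ℕ, a ≤ γ.length → b ≤ γ.length → Hit i L (γ.take a) → Hit i L (γ.take b) →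
      ¬ a < b := by
    intro a b ha hb hA hB hab
    have h1 := hB.2 a (by rw [List.length_take]; omega)
    rw [List.take_take, min_eq_left hab.le, hA.1] at h1
    exact lt_irrefl _ h1
  have h1 := key t t' ht ht' h h'
  have h2 := key t' t ht' ht h' h
  omega

end CutCat

open CutCat

theorem cat_Cr {i : Fin d} {l m : ℕ} {γ₁ γ₂ : List (Step d)} (h1 : Cr i l γ₁) (h2 : Cr i m γ₂) :
    Cr i (l + m + 1) (γ₁ ++ [(i, true)] ++ γ₂) := by
  refine ⟨⟨?_, ?_⟩, ?_⟩
  · rw [endp_append, endp_append, endp_singleton]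
    simp only [Pi.add_apply, vec_i]
    rw [h1.1.1, h2.1.1]
    push_cast
    ring
  · intro k hk
    rcases cases_k γ₁ γ₂ hk.le with h | ⟨k', h, rfl⟩
    · rw [take_lo _ _ h]
      have := hit_le h1.1 h
      push_cast
      omega
    · rw [endp_hi, h1.1.1]
      rw [length_cat] at hk
      have := h2.1.2 k' (by omega)
      push_cast
      omega
  · intro k hk
    rcases cases_k γ₁ γ₂ hk with h | ⟨k', h, rfl⟩
    · rw [take_lo _ _ h]
      exact h1.2 k h
    · rw [endp_hi, h1.1.1]
      have := h2.2 k' h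
      omega

theorem cat_mid {i : Fin d} {l m : ℕ} {γ₁ γ₂ : List (Step d)} (h1 : Cr i l γ₁) (h2 : Cr i m γ₂) :
    CutAt i (γ₁ ++ [(i, true)] ++ γ₂) l γ₁.length := by
  refine ⟨by rw [length_cat]; omega, ?_, ?_, ?_⟩
  · rw [take_lo _ _ le_rfl, List.take_length]
    exact h1.1
  · simp
  · intro k hk hk2
    rcases cases_k γ₁ γ₂ hk2 with h | ⟨k', h, rfl⟩
    · omega
    · rw [endp_hi, h1.1.1]
      have := h2.2 k' h
      omega

theorem cat_lt {i : Fin d} {l m l' : ℕ} {γ₁ γ₂ : List (Step d)} (h1 : Cr i l γ₁)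
    (h2 : Cr i m γ₂) (hl : l' < l) : Cut i (γ₁ ++ [(i, true)] ++ γ₂) l' ↔ Cut i γ₁ l' := by
  constructor
  · rintro ⟨t, ht, hhit, hget, hup⟩
    have htlt : t < γ₁.length := by
      rcases cases_k γ₁ γ₂ ht.le with h | ⟨k', h, rfl⟩
      · rcases Nat.lt_or_ge t γ₁.length with h3 | h3
        · exact h3
        · exfalso
          have h4 : t = γ₁.length := le_antisymm h h3
          have h5 := hhit.1
          rw [h4, take_lo _ _ le_rfl, List.take_length, h1.1.1] at h5
          omega
      · exfalso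
        have h5 := hhit.1
        rw [endp_hi, h1.1.1] at h5
        have := h2.2 k' h
        omega
    refine ⟨t, htlt, ?_, ?_, ?_⟩
    · rw [take_lo _ _ htlt.le] at hhit
      exact hhit
    · rw [getElem?_lo _ _ htlt] at hget
      exact hget
    · intro k hk hk2
      have := hup k hk (by rw [length_cat]; omega)
      rw [take_lo _ _ hk2] at this
      exact this
  · rintro ⟨t, ht, hhit, hget, hup⟩
    refine ⟨t, by rw [length_cat]; omega, ?_, ?_, ?_⟩
    · rw [take_lo _ _ ht.le]
      exact hhit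
    · rw [getElem?_lo _ _ ht]
      exact hget
    · intro k hk hk2
      rcases cases_k γ₁ γ₂ hk2 with h | ⟨k', h, rfl⟩
      · rw [take_lo _ _ h]
        exact hup k hk h
      · rw [endp_hi, h1.1.1]
        have := h2.2 k' h
        omega

theorem cat_gt {i : Fin d} {l m l' : ℕ} {γ₁ γ₂ : List (Step d)} (h1 : Cr i l γ₁)
    (h2 : Cr i m γ₂) : Cut i (γ₁ ++ [(i, true)] ++ γ₂) (l + 1 + l') ↔ Cut i γ₂ l' := by
  constructor
  · rintro ⟨t, ht, hhit, hget, hup⟩
    rcases cases_k γ₁ γ₂ ht.le with h | ⟨t', h, rfl⟩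
    · exfalso
      have h5 := hhit.1
      rw [take_lo _ _ h] at h5
      have := hit_le h1.1 h
      push_cast at h5
      omega
    · rw [length_cat] at ht
      have hlen : t' < γ₂.length := by omega
      refine ⟨t', hlen, ⟨?_, ?_⟩, ?_, ?_⟩
      · have h5 := hhit.1
        rw [endp_hi, h1.1.1] at h5
        push_cast at h5
        omega
      · intro k hk
        rw [List.length_take] at hk
        have hk1 : k < t' := by omega
        have h5 := hhit.2 (γ₁.length + 1 + k) (by rw [List.length_take, length_cat]; omega)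
        rw [List.take_take, min_eq_left (by omega), endp_hi, h1.1.1] at h5
        rw [List.take_take, min_eq_left (by omega)]
        push_cast at h5
        omega
      · rw [getElem?_hi] at hget
        exact hget
      · intro k hk hk2
        have h5 := hup (γ₁.length + 1 + k) (by omega) (by rw [length_cat]; omega)
        rw [endp_hi, h1.1.1] at h5
        push_cast at h5
        omega
  · rintro ⟨t, ht, hhit, hget, hup⟩
    refine ⟨γ₁.length + 1 + t, by rw [length_cat]; omega, ⟨?_, ?_⟩, ?_, ?_⟩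
    · rw [endp_hi, h1.1.1, hhit.1]
      push_cast
      ring
    · intro k hk
      rw [List.length_take, length_cat] at hk
      have hk1 : k < γ₁.length + 1 + t := by omega
      rw [List.take_take, min_eq_left hk1.le]
      rcases cases_k (i := i) γ₁ γ₂ (k := k) (by rw [length_cat]; omega) with h | ⟨k', h, rfl⟩
      · rw [take_lo _ _ h]
        have := hit_le h1.1 h
        push_cast
        omega
      · rw [endp_hi, h1.1.1]
        have h5 := hhit.2 k' (by rw [List.length_take]; omega)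
        rw [List.take_take, min_eq_left (by omega)] at h5
        push_cast
        omega
    · rw [getElem?_hi]
      exact hget
    · intro k hk hk2
      rcases cases_k γ₁ γ₂ hk2 with h | ⟨k', h, rfl⟩
      · omega
      · rw [endp_hi, h1.1.1]
        have := hup k' (by omega) h
        push_cast
        omega

theorem cut_split {i : Fin d} {N l t : ℕ} {γ : List (Step d)} (h : Cr i N γ)
    (hc : CutAt i γ l t) : l < N ∧ Cr i l (γ.take t) ∧ Cr i (N - l - 1) (γ.drop (t + 1)) ∧
      γ = γ.take t ++ [(i, true)] ++ γ.drop (t + 1) := by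
  obtain ⟨ht, hhit, hget, hup⟩ := hc
  have hlen : (γ.take t).length = t := by rw [List.length_take]; omega
  have hdec : γ = γ.take t ++ [(i, true)] ++ γ.drop (t + 1) := by
    have h1 : γ[t] = (i, true) := by
      rw [List.getElem?_eq_getElem ht] at hget
      exact Option.some_injective _ hget
    have h2 : γ.drop t = γ[t] :: γ.drop (t + 1) := List.drop_eq_getElem_cons ht
    rw [h1] at h2
    conv_lhs => rw [← List.take_append_drop t γ, h2]
    simp
  have hlN : l < N := by
    have h1 := hup γ.length ht le_rfl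
    rw [List.take_length, h.1.1] at h1
    exact_mod_cast h1
  have hend : ∀ k, endp (γ.take (t + 1 + k)) i = l + 1 + endp ((γ.drop (t + 1)).take k) i := by
    intro k
    have h1 := endp_hi (i := i) (γ.take t) (γ.drop (t + 1)) k
    rw [← hdec, hlen, hhit.1] at h1
    exact h1
  have hlen2 : (γ.drop (t + 1)).length = γ.length - (t + 1) := List.length_drop
  refine ⟨hlN, ⟨hhit, ?_⟩, ⟨⟨?_, ?_⟩, ?_⟩, hdec⟩
  · intro k hk
    rw [hlen] at hk
    rw [List.take_take, min_eq_left hk]
    exact h.2 k (by omega)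
  · have h1 := hend (γ.drop (t + 1)).length
    rw [List.take_length, hlen2, show t + 1 + (γ.length - (t + 1)) = γ.length by omega,
      List.take_length, h.1.1] at h1
    push_cast [Nat.cast_sub (show 1 ≤ N - l by omega), Nat.cast_sub hlN.le]
    omega
  · intro k hk
    have h1 := hend k
    have h2 := h.1.2 (t + 1 + k) (by omega)
    push_cast [Nat.cast_sub (show 1 ≤ N - l by omega), Nat.cast_sub hlN.le]
    omega
  · intro k hk
    have h1 := hend k
    have h2 := hup (t + 1 + k) (by omega) (by omega)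
    omega

theorem Wt_mono (ν : Measure (ℕ → Step d)) {P Q : List (Step d) → Prop} (h : ∀ γ, P γ → Q γ) :
    Wt ν P ≤ Wt ν Q := by
  unfold Wt
  refine ENNReal.tsum_le_tsum fun γ => ?_
  by_cases hP : P γ
  · rw [if_pos hP, if_pos (h γ hP)]
  · rw [if_neg hP]
    exact zero_le

namespace CutCat

theorem Wt_eq (ν : Measure (ℕ → Step d)) (P : List (Step d) → Prop) :
    Wt ν P = ∑' γ : {γ : List (Step d) | P γ}, ν (cyl (γ : List (Step d))) := by
  unfold Wt
  rw [tsum_subtype {γ : List (Step d) | P γ} (fun γ => ν (cyl γ))]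
  refine tsum_congr fun γ => ?_
  by_cases h : P γ
  · rw [if_pos h, Set.indicator_of_mem (show γ ∈ {γ : List (Step d) | P γ} from h)]
  · rw [if_neg h, Set.indicator_of_notMem (show γ ∉ {γ : List (Step d) | P γ} from h)]

theorem sites_level {i : Fin d} {γ : List (Step d)} {x : Fin d → ℤ} (hx : x ∈ Sites γ) :
    ∃ k < γ.length, endp (γ.take k) i = x i := by
  obtain ⟨k, hk, rfl⟩ := hx
  exact ⟨k, hk, rfl⟩

theorem cyl_cat {ν : Measure (ℕ → Step d)} (h : Law ν) {i : Fin d} {l m : ℕ}
    {γ₁ γ₂ : List (Step d)} (h1 : Cr i l γ₁) (h2 : Cr i m γ₂) :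
    ν (cyl (γ₁ ++ [(i, true)] ++ γ₂)) = ν (cyl γ₁) * ν (cyl [(i, true)]) * ν (cyl γ₂) := by
  rw [List.append_assoc, h.mul γ₁ ([(i, true)] ++ γ₂), h.mul [(i, true)] γ₂, mul_assoc]
  · intro x hx y hy hxy
    obtain ⟨k, hk, hkx⟩ := sites_level (i := i) hx
    obtain ⟨k', hk', hky⟩ := sites_level (i := i) hy
    have h3 := congrFun hxy i
    rw [Pi.add_apply, ← hkx, ← hky, endp_singleton, vec_i] at h3
    have h4 : k = 0 := by simpa using hk
    rw [h4] at h3
    simp only [List.take_zero, endp_nil, Pi.zero_apply] at h3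
    have := h2.2 k' hk'.le
    omega
  · intro x hx y hy hxy
    obtain ⟨k, hk, hkx⟩ := sites_level (i := i) hx
    obtain ⟨k', hk', hky⟩ := sites_level (i := i) hy
    have h3 := congrFun hxy i
    rw [Pi.add_apply, ← hkx, ← hky, h1.1.1] at h3
    have h4 := h1.1.2 k hk
    have h5 : 0 ≤ endp (([(i, true)] ++ γ₂).take k') i := by
      rcases Nat.eq_zero_or_pos k' with h6 | h6
      · rw [h6]; simp
      · obtain ⟨k'', rfl⟩ : ∃ k'', k' = 1 + k'' := ⟨k' - 1, by omega⟩
        have h7 := endp_hi (i := i) ([] : List (Step d)) γ₂ k''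
        simp only [List.nil_append, List.length_nil, zero_add, endp_nil, Pi.zero_apply] at h7
        rw [h7]
        have := h2.2 k'' (by simp at hk'; omega)
        omega
    omega

end CutCat

/-- weights multiply -/
theorem cat_weight {ν : Measure (ℕ → Step d)} (h : Law ν) (i : Fin d) (l m : ℕ)
    (P Q : List (Step d) → Prop) :
    Wt ν (fun γ => Cr i l γ ∧ P γ) * ν (cyl [(i, true)]) * Wt ν (fun γ => Cr i m γ ∧ Q γ) =
      Wt ν (fun γ => Cr i (l + m + 1) γ ∧ ∃ γ₁ γ₂, γ = γ₁ ++ [(i, true)] ++ γ₂ ∧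
        Cr i l γ₁ ∧ P γ₁ ∧ Cr i m γ₂ ∧ Q γ₂) := by
  rw [Wt_eq, Wt_eq, Wt_eq, ← ENNReal.tsum_mul_right, ← ENNReal.tsum_mul_right]
  simp_rw [← ENNReal.tsum_mul_left]
  rw [← ENNReal.tsum_prod' (f := fun p : {γ : List (Step d) | Cr i l γ ∧ P γ} ×
    {γ : List (Step d) | Cr i m γ ∧ Q γ} =>
      ν (cyl (p.1 : List (Step d))) * ν (cyl [(i, true)]) * ν (cyl (p.2 : List (Step d))))]
  let e : {γ : List (Step d) | Cr i l γ ∧ P γ} × {γ : List (Step d) | Cr i m γ ∧ Q γ} →
      {γ : List (Step d) | Cr i (l + m + 1) γ ∧ ∃ γ₁ γ₂, γ = γ₁ ++ [(i, true)] ++ γ₂ ∧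
        Cr i l γ₁ ∧ P γ₁ ∧ Cr i m γ₂ ∧ Q γ₂} :=
    fun p => ⟨(p.1 : List (Step d)) ++ [(i, true)] ++ (p.2 : List (Step d)),
      cat_Cr p.1.2.1 p.2.2.1, p.1, p.2, rfl, p.1.2.1, p.1.2.2, p.2.2.1, p.2.2.2⟩
  have he : Function.Bijective e := by
    constructor
    · rintro ⟨⟨a, ha⟩, ⟨b, hb⟩⟩ ⟨⟨a', ha'⟩, ⟨b', hb'⟩⟩ hab
      have h1 : a ++ [(i, true)] ++ b = a' ++ [(i, true)] ++ b' := congrArg Subtype.val hab
      have c1 := cat_mid ha.1 hb.1
      have c2 := cat_mid ha'.1 hb'.1
      rw [← h1] at c2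
      have hlen : a.length = a'.length := hit_time c1.1.le c2.1.le c1.2.1 c2.2.1
      have h2 := List.append_inj h1 (by simp [hlen])
      have h3 := List.append_inj h2.1 hlen
      have h4 : a = a' := h3.1
      have h5 : b = b' := h2.2
      subst h4
      subst h5
      rfl
    · rintro ⟨γ, hγ, γ₁, γ₂, rfl, h1, h2, h3, h4⟩
      exact ⟨(⟨γ₁, h1, h2⟩, ⟨γ₂, h3, h4⟩), rfl⟩
  rw [← (Equiv.ofBijective e he).tsum_eq]
  refine tsum_congr fun p => ?_
  exact (cyl_cat h p.1.2.1 p.2.2.1).symm

/-- weights of crossings are probabilities -/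
theorem Wt_Cr_le {ν : Measure (ℕ → Step d)} (h : Law ν) (i : Fin d) (N : ℕ)
    (P : List (Step d) → Prop) : Wt ν (fun γ => Cr i N γ ∧ P γ) ≤ 1 := by
  rw [Wt_eq, ← measure_iUnion]
  · rw [← h.prob]
    exact measure_mono (Set.subset_univ _)
  · intro a b hab
    show Disjoint (cyl (a : List (Step d))) (cyl (b : List (Step d)))
    rw [Set.disjoint_left]
    intro s hs1 hs2
    apply hab
    apply Subtype.ext
    have key : ∀ x y : List (Step d), s ∈ cyl x → s ∈ cyl y → Hit i (N : ℤ) x →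
        Hit i (N : ℤ) y → ¬ x.length < y.length := by
      intro x y hx hy h1 h2 hlt
      have h3 := h2.2 x.length hlt
      rw [← pre_of_mem_cyl hy hlt.le, (mem_cyl_iff s x).1 hx, h1.1] at h3
      exact lt_irrefl _ h3
    have h1 := key a b hs1 hs2 a.2.1.1 b.2.1.1
    have h2 := key b a hs2 hs1 b.2.1.1 a.2.1.1
    have hlen : (a : List (Step d)).length = (b : List (Step d)).length := by omega
    rw [mem_cyl_iff] at hs1 hs2
    rw [← hs1, ← hs2, hlen]
  · intro a
    exact measurableSet_cyl _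

end Vale.Agent.Lib.P147H
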