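import Vale.Agent.Lib.P147H.Defs

/-! P147 v3: cuts of a concatenation (cat_lt, cat_gt). -/

namespace Vale.Agent.Lib.P147H

open Vale.Agent.Lib.P147 Vale.Agent.Lib.P147G

variable {d : ℕ}

theorem cc2_take_le {i : Fin d} (γ₁ γ₂ : List (Step d)) {k : ℕ} (hk : k ≤ γ₁.length) :
    (γ₁ ++ [(i, true)] ++ γ₂).take k = γ₁.take k := by
  rw [List.append_assoc, List.take_append_of_le_length hk]

theorem cc2_take_gt {i : Fin d} (γ₁ γ₂ : List (Step d)) (k : ℕ) :
    (γ₁ ++ [(i, true)] ++ γ₂).take (γ₁.length + 1 + k) = γ₁ ++ [(i, true)] ++ γ₂.take k := by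
  rw [List.take_append, List.take_of_length_le]
  · congr 2
    simp
  · simp

theorem cc2_endp {i : Fin d} {l : ℕ} {γ₁ : List (Step d)} (h1 : endp γ₁ i = (l : ℤ))
    (γ : List (Step d)) : endp (γ₁ ++ [(i, true)] ++ γ) i = (l : ℤ) + 1 + endp γ i := by
  rw [endp_append, endp_append, endp_singleton]
  simp [vec, h1]

theorem cc2_low {i : Fin d} {l m : ℕ} {γ₁ γ₂ : List (Step d)} (h1 : Cr i l γ₁) (h2 : Cr i m γ₂)
    {k : ℕ} (hk : γ₁.length < k) (hk2 : k ≤ (γ₁ ++ [(i, true)] ++ γ₂).length) :
    (l : ℤ) < endp ((γ₁ ++ [(i, true)] ++ γ₂).take k) i := by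
  obtain ⟨j, rfl⟩ : ∃ j, k = γ₁.length + 1 + j := ⟨k - (γ₁.length + 1), by omega⟩
  rw [cc2_take_gt, cc2_endp h1.1.1]
  have h3 : j ≤ γ₂.length := by
    simp only [List.length_append, List.length_singleton] at hk2
    omega
  have h4 := h2.2 j h3
  omega

theorem cat_lt {i : Fin d} {l m l' : ℕ} {γ₁ γ₂ : List (Step d)} (h1 : Cr i l γ₁)
    (h2 : Cr i m γ₂) (hl : l' < l) : Cut i (γ₁ ++ [(i, true)] ++ γ₂) l' ↔ Cut i γ₁ l' := by
  set γ := γ₁ ++ [(i, true)] ++ γ₂ with hγ
  have hlen : γ.length = γ₁.length + 1 + γ₂.length := by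
    simp [hγ]; omega
  constructor
  · rintro ⟨t, ht, ⟨he, hf⟩, hg, hs⟩
    have htl : t < γ₁.length := by
      by_contra hcon
      push Not at hcon
      rcases hcon.eq_or_lt with heq | hlt
      · rw [← heq, hγ, cc2_take_le _ _ le_rfl, List.take_length, h1.1.1] at he
        omega
      · have h3 := cc2_low h1 h2 hlt (by rw [← hγ]; omega)
        rw [← hγ, he] at h3
        omega
    refine ⟨t, htl, ⟨?_, ?_⟩, ?_, ?_⟩
    · rwa [hγ, cc2_take_le _ _ htl.le] at he
    · intro k hk
      have h3 := hf k (by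
        rw [List.length_take] at hk ⊢
        omega)
      rwa [hγ, cc2_take_le _ _ htl.le] at h3
    · rw [← hg, hγ, List.append_assoc, List.getElem?_append_left htl]
    · intro k hk hk2
      have h3 := hs k hk (by omega)
      rwa [hγ, cc2_take_le _ _ hk2] at h3
  · rintro ⟨t, ht, ⟨he, hf⟩, hg, hs⟩
    refine ⟨t, by omega, ⟨?_, ?_⟩, ?_, ?_⟩
    · rw [hγ, cc2_take_le _ _ ht.le]; exact he
    · intro k hk
      have hk' : k < (γ₁.take t).length := by
        rw [List.length_take] at hk ⊢
        omega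
      have h3 := hf k hk'
      rw [hγ, cc2_take_le _ _ ht.le]
      exact h3
    · rw [hγ, List.append_assoc, List.getElem?_append_left ht]; exact hg
    · intro k hk hk2
      rcases le_or_gt k γ₁.length with hc | hc
      · rw [hγ, cc2_take_le _ _ hc]; exact hs k hk hc
      · have h3 := cc2_low h1 h2 hc (by rw [← hγ]; exact hk2)
        rw [← hγ] at h3
        omega

theorem cat_gt {i : Fin d} {l m l' : ℕ} {γ₁ γ₂ : List (Step d)} (h1 : Cr i l γ₁)
    (h2 : Cr i m γ₂) : Cut i (γ₁ ++ [(i, true)] ++ γ₂) (l + 1 + l') ↔ Cut i γ₂ l' := by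
  set γ := γ₁ ++ [(i, true)] ++ γ₂ with hγ
  have hlen : γ.length = γ₁.length + 1 + γ₂.length := by
    simp [hγ]; omega
  -- levels of the first part are at most `l`
  have hup : ∀ k ≤ γ₁.length, endp (γ₁.take k) i ≤ (l : ℤ) := by
    intro k hk
    rcases hk.eq_or_lt with heq | hlt
    · rw [heq, List.take_length, h1.1.1]
    · exact (h1.1.2 k hlt).le
  constructor
  · rintro ⟨t, ht, ⟨he, hf⟩, hg, hs⟩
    have htl : γ₁.length < t := by
      by_contra hcon
      push Not at hcon
      rw [hγ, cc2_take_le _ _ hcon] at he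
      have h3 := hup t hcon
      rw [he] at h3
      push_cast at h3
      omega
    obtain ⟨j, rfl⟩ : ∃ j, t = γ₁.length + 1 + j := ⟨t - (γ₁.length + 1), by omega⟩
    have hj : j < γ₂.length := by omega
    refine ⟨j, hj, ⟨?_, ?_⟩, ?_, ?_⟩
    · rw [hγ, cc2_take_gt, cc2_endp h1.1.1] at he
      push_cast at he
      omega
    · intro k hk
      rw [List.length_take] at hk
      have hk3 : k < j := by omega
      have h3 := hf (γ₁.length + 1 + k) (by rw [List.length_take]; omega)
      rw [List.take_take, min_eq_left (by omega), hγ, cc2_take_gt, cc2_endp h1.1.1] at h3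
      rw [List.take_take, min_eq_left hk3.le]
      push_cast at h3
      omega
    · rw [hγ, List.getElem?_append_right (by simp)] at hg
      rw [← hg]
      congr 1
      simp
    · intro k hk hk2
      have h3 := hs (γ₁.length + 1 + k) (by omega) (by omega)
      rw [hγ, cc2_take_gt, cc2_endp h1.1.1] at h3
      push_cast at h3
      omega
  · rintro ⟨j, hj, ⟨he, hf⟩, hg, hs⟩
    refine ⟨γ₁.length + 1 + j, by omega, ⟨?_, ?_⟩, ?_, ?_⟩
    · rw [hγ, cc2_take_gt, cc2_endp h1.1.1, he]
      push_cast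
      ring
    · intro k hk
      rw [List.length_take] at hk
      rw [List.take_take, min_eq_left (by omega)]
      rcases le_or_gt k γ₁.length with hc | hc
      · rw [hγ, cc2_take_le _ _ hc]
        have h3 := hup k hc
        push_cast
        omega
      · obtain ⟨a, rfl⟩ : ∃ a, k = γ₁.length + 1 + a := ⟨k - (γ₁.length + 1), by omega⟩
        have ha : a < j := by omega
        rw [hγ, cc2_take_gt, cc2_endp h1.1.1]
        have h3 := hf a (by rw [List.length_take]; omega)
        rw [List.take_take, min_eq_left ha.le] at h3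
        push_cast
        omega
    · rw [hγ, List.getElem?_append_right (by simp)]
      rw [← hg]
      congr 1
      simp
    · intro k hk hk2
      obtain ⟨a, rfl⟩ : ∃ a, k = γ₁.length + 1 + a := ⟨k - (γ₁.length + 1), by omega⟩
      have h3 := hs a (by omega) (by omega)
      rw [hγ, cc2_take_gt, cc2_endp h1.1.1]
      push_cast
      omega

end Vale.Agent.Lib.P147H
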