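import Vale.Agent.Lib.P147H.CutCat

/-! P147 v3, module CUTSUM: the probabilities of having no cut in the first `m` levels are
summable. -/

open MeasureTheory ProbabilityTheory Filter
open scoped ENNReal

namespace Vale.Agent.Lib.P147H

open Vale.Agent.Lib.P147 Vale.Agent.Lib.P147G

variable {d : ℕ}


theorem cr_eq (ν : Measure (ℕ → Step d)) (i : Fin d) (m : ℕ) :
    cr ν i m = Wt ν (fun γ => Cr i m γ ∧ True) := by
  unfold cr
  congr 1
  funext γ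
  simp

theorem nc_horizon {ν : Measure (ℕ → Step d)} (h : Law ν) (i : Fin d) {N N' m : ℕ} (hm : m ≤ N)
    (hN : N < N') :
    nc ν i N m * ν (cyl [(i, true)]) * cr ν i (N' - N - 1) ≤ nc ν i N' m := by
  rw [cr_eq]
  unfold nc
  rw [cat_weight h i N (N' - N - 1) (fun γ => ∀ l < m, ¬ Cut i γ l) (fun _ => True)]
  have hN' : N + (N' - N - 1) + 1 = N' := by omega
  rw [hN']
  refine Wt_mono ν fun γ hγ => ?_
  obtain ⟨hc, γ₁, γ₂, rfl, h1, h2, h3, -⟩ := hγ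
  exact ⟨hc, fun l hl hcut => h2 l hl ((cat_lt h1 h3 (by omega)).1 hcut)⟩

/-- finite sums of weights of disjoint events -/
theorem sum_Wt_le (ν : Measure (ℕ → Step d)) (s : Finset ℕ) (E : ℕ → List (Step d) → Prop)
    (Q : List (Step d) → Prop) (hQ : ∀ μ ∈ s, ∀ γ, E μ γ → Q γ)
    (hd : ∀ μ ∈ s, ∀ μ' ∈ s, ∀ γ, E μ γ → E μ' γ → μ = μ') :
    ∑ μ ∈ s, Wt ν (E μ) ≤ Wt ν Q := by
  classical
  unfold Wt
  rw [← Summable.tsum_finsetSum (fun _ _ => ENNReal.summable)]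
  refine ENNReal.tsum_le_tsum fun γ => ?_
  by_cases hex : ∃ μ ∈ s, E μ γ
  · obtain ⟨μ, hμ, hE⟩ := hex
    rw [Finset.sum_eq_single μ]
    · rw [if_pos hE, if_pos (hQ μ hμ γ hE)]
    · intro μ' hμ' hne
      rw [if_neg]
      intro hE'
      exact hne (hd μ' hμ' μ hμ γ hE' hE)
    · intro hn; exact absurd hμ hn
  · rw [Finset.sum_eq_zero]
    · exact zero_le
    · intro μ hμ
      rw [if_neg]
      intro hE
      exact hex ⟨μ, hμ, hE⟩

theorem nc_renewal {ν : Measure (ℕ → Step d)} (h : Law ν) (i : Fin d) {N Λ : ℕ} (hΛ : Λ ≤ N) :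
    ∑ μ ∈ Finset.range Λ, cr ν i μ * ν (cyl [(i, true)]) * nc ν i (N - μ - 1) (Λ - μ - 1) ≤ 1 := by
  have h1 : ∀ μ ∈ Finset.range Λ,
      cr ν i μ * ν (cyl [(i, true)]) * nc ν i (N - μ - 1) (Λ - μ - 1) =
      Wt ν (fun γ => Cr i N γ ∧ ∃ γ₁ γ₂, γ = γ₁ ++ [(i, true)] ++ γ₂ ∧
        Cr i μ γ₁ ∧ True ∧ Cr i (N - μ - 1) γ₂ ∧ ∀ l < Λ - μ - 1, ¬ Cut i γ₂ l) := by
    intro μ hμ
    rw [Finset.mem_range] at hμ
    rw [cr_eq]
    unfold nc
    rw [cat_weight h i μ (N - μ - 1) (fun _ => True) (fun γ => ∀ l < Λ - μ - 1, ¬ Cut i γ l)]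
    have hN' : μ + (N - μ - 1) + 1 = N := by omega
    rw [hN']
  rw [Finset.sum_congr rfl h1]
  refine le_trans (sum_Wt_le ν _ _ (fun γ => Cr i N γ ∧ True) ?_ ?_) (Wt_Cr_le h i N _)
  · intro μ _ γ hγ; exact ⟨hγ.1, trivial⟩
  · have key : ∀ μ μ' γ, μ < μ' → μ' < Λ →
        (Cr i N γ ∧ ∃ γ₁ γ₂, γ = γ₁ ++ [(i, true)] ++ γ₂ ∧
          Cr i μ γ₁ ∧ True ∧ Cr i (N - μ - 1) γ₂ ∧ ∀ l < Λ - μ - 1, ¬ Cut i γ₂ l) →
        (Cr i N γ ∧ ∃ γ₁ γ₂, γ = γ₁ ++ [(i, true)] ++ γ₂ ∧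
          Cr i μ' γ₁ ∧ True ∧ Cr i (N - μ' - 1) γ₂ ∧ ∀ l < Λ - μ' - 1, ¬ Cut i γ₂ l) → False := by
      intro μ μ' γ hlt hμ' hE hE'
      obtain ⟨-, γ₁, γ₂, rfl, a1, -, a3, a4⟩ := hE
      obtain ⟨-, δ₁, δ₂, he, b1, -, b3, -⟩ := hE'
      have hcut : Cut i (γ₁ ++ [(i, true)] ++ γ₂) μ' := by
        rw [he]
        exact ⟨_, cat_mid b1 b3⟩
      have h2 : μ' = μ + 1 + (μ' - μ - 1) := by omega
      rw [h2] at hcut
      exact a4 (μ' - μ - 1) (by omega) ((cat_gt a1 a3).1 hcut)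
    intro μ hμ μ' hμ' γ hE hE'
    rw [Finset.mem_range] at hμ hμ'
    rcases lt_trichotomy μ μ' with hlt | heq | hgt
    · exact (key μ μ' γ hlt hμ' hE hE').elim
    · exact heq
    · exact (key μ' μ γ hgt hμ hE' hE).elim

theorem nc_anti (ν : Measure (ℕ → Step d)) (i : Fin d) (N : ℕ) {m m' : ℕ} (hm : m ≤ m') :
    nc ν i N m' ≤ nc ν i N m := by
  unfold nc
  exact Wt_mono ν fun γ hγ => ⟨hγ.1, fun l hl => hγ.2 l (lt_of_lt_of_le hl hm)⟩

theorem nc_sum {ν : Measure (ℕ → Step d)} (h : Law ν) (i : Fin d) {δ : ℝ≥0∞} (hδ : 0 < δ)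
    (hcr : ∀ m, δ ≤ cr ν i m) :
    ∃ A : ℕ → ℝ≥0∞, Antitone A ∧ (∀ N m, m ≤ N → nc ν i N m ≤ A m) ∧ ∑' m, A m ≠ ⊤ := by
  set w := ν (cyl [(i, true)]) with hw
  have hw0 : w ≠ 0 := (h.pos (i, true)).ne'
  have hw1 : w ≠ ⊤ := by
    have : w ≤ 1 := by rw [hw, ← h.prob]; exact measure_mono (Set.subset_univ _)
    exact ne_top_of_le_ne_top ENNReal.one_ne_top this
  have hδ1 : δ ≠ ⊤ := by
    have : δ ≤ 1 := (hcr 0).trans (by rw [cr_eq]; exact Wt_Cr_le h i 0 _)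
    exact ne_top_of_le_ne_top ENNReal.one_ne_top this
  set c := w * δ with hc
  have hc0 : c ≠ 0 := mul_ne_zero hw0 hδ.ne'
  have hc1 : c ≠ ⊤ := ENNReal.mul_ne_top hw1 hδ1
  set B : ℕ → ℕ → ℝ≥0∞ := fun N m => ⨆ (k : ℕ) (_ : m ≤ k ∧ k ≤ N), nc ν i k m with hB
  have hBmono : ∀ m, Monotone fun N => B N m := by
    intro m N N' hNN
    simp only [hB]
    refine iSup_le fun k => iSup_le fun hk => ?_
    exact le_iSup₂_of_le k ⟨hk.1, hk.2.trans hNN⟩ le_rfl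
  have hBle : ∀ N m N', N < N' → B N m * c ≤ nc ν i N' m := by
    intro N m N' hN
    simp only [hB, ENNReal.iSup_mul]
    refine iSup_le fun k => iSup_le fun hk => ?_
    have h1 := nc_horizon h i hk.1 (lt_of_le_of_lt hk.2 hN)
    refine le_trans ?_ h1
    rw [hc, ← mul_assoc]
    exact mul_le_mul_right (hcr _) _
  refine ⟨fun m => ⨆ N, B N m, ?_, ?_, ?_⟩
  · intro m m' hm
    refine iSup_mono fun N => ?_
    simp only [hB]
    refine iSup_le fun k => iSup_le fun hk => ?_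
    exact le_iSup₂_of_le k ⟨hm.trans hk.1, hk.2⟩ (nc_anti ν i k hm)
  · intro N m hm
    refine le_iSup_of_le N ?_
    simp only [hB]
    exact le_iSup₂_of_le N ⟨hm, le_rfl⟩ le_rfl
  · have hbound : ∀ Λ, ∑ m ∈ Finset.range Λ, (⨆ N, B N m) ≤ c⁻¹ * c⁻¹ := by
      intro Λ
      rw [ENNReal.finsetSum_iSup_of_monotone fun m => hBmono m]
      refine iSup_le fun N => ?_
      have h1 : ∀ m ∈ Finset.range Λ, B N m ≤ c⁻¹ * nc ν i (N + 1 + m) m := by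
        intro m _
        have h2 := hBle N m (N + 1 + m) (by omega)
        rw [mul_comm c⁻¹, ← div_eq_mul_inv]
        exact (ENNReal.le_div_iff_mul_le (Or.inl hc0) (Or.inl hc1)).2 h2
      refine (Finset.sum_le_sum h1).trans ?_
      rw [← Finset.mul_sum]
      refine mul_le_mul_right ?_ _
      have h3 := nc_renewal h i (N := N + Λ + 1) (Λ := Λ) (by omega)
      have h4 : ∑ m ∈ Finset.range Λ, nc ν i (N + 1 + m) m * c ≤ 1 := by
        refine le_trans ?_ h3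
        rw [← Finset.sum_range_reflect]
        refine Finset.sum_le_sum fun μ hμ => ?_
        rw [Finset.mem_range] at hμ
        have e1 : N + 1 + (Λ - 1 - μ) = N + Λ + 1 - μ - 1 := by omega
        have e2 : Λ - 1 - μ = Λ - μ - 1 := by omega
        rw [e1, e2, hc, mul_comm (nc _ _ _ _), mul_comm w δ]
        exact mul_le_mul_left (mul_le_mul_left (hcr μ) _) _
      rw [← Finset.sum_mul] at h4
      rw [← one_div]
      exact (ENNReal.le_div_iff_mul_le (Or.inl hc0) (Or.inl hc1)).2 h4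
    have : ∑' m, (⨆ N, B N m) ≤ c⁻¹ * c⁻¹ := by
      rw [ENNReal.tsum_eq_iSup_nat]
      exact iSup_le hbound
    refine ne_top_of_le_ne_top ?_ this
    exact ENNReal.mul_ne_top (ENNReal.inv_ne_top.2 hc0) (ENNReal.inv_ne_top.2 hc0)

end Vale.Agent.Lib.P147H
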