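import Vale.Agent.Lib.P147H.Defs

/-! P147, third version: summability of the probability of no cut. -/

open MeasureTheory ProbabilityTheory Filter
open scoped ENNReal

namespace Vale.Agent.Lib.P147H

open Vale.Agent.Lib.P147 Vale.Agent.Lib.P147G

variable {d : ℕ}

theorem CutSumB_mono (ν : Measure (ℕ → Step d)) (i : Fin d) {N m m' : ℕ} (hm : m ≤ m') :
    nc ν i N m' ≤ nc ν i N m := by
  classical
  unfold nc Wt
  refine ENNReal.tsum_le_tsum fun γ => ?_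
  by_cases h1 : Cr i N γ ∧ ∀ l < m', ¬ Cut i γ l
  · have h2 : Cr i N γ ∧ ∀ l < m, ¬ Cut i γ l := ⟨h1.1, fun l hl => h1.2 l (by omega)⟩
    rw [if_pos h1, if_pos h2]
  · rw [if_neg h1]
    exact zero_le

/-- from the horizon comparison and the renewal inequality to summability -/
theorem CutSumB_of {ν : Measure (ℕ → Step d)} (h : Law ν) (i : Fin d) {δ : ℝ≥0∞} (hδ : 0 < δ)
    (hcr : ∀ m, δ ≤ cr ν i m)
    (hhor : ∀ {N N' m : ℕ}, m ≤ N → N < N' →
      nc ν i N m * ν (cyl [(i, true)]) * cr ν i (N' - N - 1) ≤ nc ν i N' m)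
    (hren : ∀ {N Λ : ℕ}, Λ ≤ N →
      ∑ μ ∈ Finset.range Λ, cr ν i μ * ν (cyl [(i, true)]) * nc ν i (N - μ - 1) (Λ - μ - 1) ≤ 1) :
    ∃ A : ℕ → ℝ≥0∞, Antitone A ∧ (∀ N m, m ≤ N → nc ν i N m ≤ A m) ∧ ∑' m, A m ≠ ⊤ := by
  -- `δ ≤ 1`-like finiteness is not needed: work with `c = min δ 1 * p`
  set p : ℝ≥0∞ := ν (cyl [(i, true)]) with hp
  have hp0 : p ≠ 0 := (h.pos (i, true)).ne'
  have hpt : p ≠ ⊤ := h.ne_top _
  set δ' : ℝ≥0∞ := min δ 1 with hδ'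
  have hδ0 : δ' ≠ 0 := (lt_min hδ one_pos).ne'
  have hδt : δ' ≠ ⊤ := (lt_of_le_of_lt (min_le_right _ _) ENNReal.one_lt_top).ne
  have hcr' : ∀ m, δ' ≤ cr ν i m := fun m => (min_le_left _ _).trans (hcr m)
  set c : ℝ≥0∞ := p * δ' with hc
  have hc0 : c ≠ 0 := mul_ne_zero hp0 hδ0
  have hct : c ≠ ⊤ := ENNReal.mul_ne_top hpt hδt
  -- horizon comparison
  have h1 : ∀ N N' m : ℕ, m ≤ N → N < N' → nc ν i N m ≤ c⁻¹ * nc ν i N' m := by
    intro N N' m hm hN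
    have h2 : nc ν i N m * c ≤ nc ν i N' m := by
      calc nc ν i N m * c = nc ν i N m * p * δ' := by rw [hc, mul_assoc]
        _ ≤ nc ν i N m * p * cr ν i (N' - N - 1) := by gcongr; exact hcr' _
        _ ≤ nc ν i N' m := hhor hm hN
    calc nc ν i N m = nc ν i N m * c * c⁻¹ := by
          rw [mul_assoc, ENNReal.mul_inv_cancel hc0 hct, mul_one]
      _ ≤ nc ν i N' m * c⁻¹ := by gcongr
      _ = c⁻¹ * nc ν i N' m := mul_comm _ _
  -- renewal inequality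
  have h3 : ∀ K Λ : ℕ, ∑ m ∈ Finset.range Λ, nc ν i (K + m) m ≤ c⁻¹ := by
    intro K Λ
    have h4 := hren (N := K + Λ) (Λ := Λ) (by omega)
    have h5 : c * ∑ m ∈ Finset.range Λ, nc ν i (K + m) m ≤ 1 := by
      refine le_trans ?_ h4
      rw [← Finset.sum_range_reflect, Finset.mul_sum]
      refine Finset.sum_le_sum fun μ hμ => ?_
      have hμ' := Finset.mem_range.1 hμ
      rw [show K + (Λ - 1 - μ) = K + Λ - μ - 1 by omega, show Λ - 1 - μ = Λ - μ - 1 by omega]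
      gcongr
      rw [hc, mul_comm]
      gcongr
      exact hcr' μ
    calc ∑ m ∈ Finset.range Λ, nc ν i (K + m) m
        = c⁻¹ * (c * ∑ m ∈ Finset.range Λ, nc ν i (K + m) m) := by
          rw [← mul_assoc, ENNReal.inv_mul_cancel hc0 hct, one_mul]
      _ ≤ c⁻¹ * 1 := by gcongr
      _ = c⁻¹ := mul_one _
  -- the sequence `A`
  set f : ℕ → ℕ → ℝ≥0∞ := fun m K => ⨆ N ∈ Finset.Icc m K, nc ν i N m with hf
  have hfmono : ∀ m, Monotone (f m) := by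
    intro m K K' hK
    refine iSup₂_le fun N hN => ?_
    rw [Finset.mem_Icc] at hN
    exact le_iSup₂_of_le N (Finset.mem_Icc.2 ⟨hN.1, hN.2.trans hK⟩) le_rfl
  refine ⟨fun m => ⨆ K, f m K, ?_, ?_, ?_⟩
  · intro m m' hm
    refine iSup_le fun K => iSup₂_le fun N hN => ?_
    rw [Finset.mem_Icc] at hN
    refine le_iSup_of_le K (le_iSup₂_of_le N (Finset.mem_Icc.2 ⟨hm.trans hN.1, hN.2⟩) ?_)
    exact CutSumB_mono ν i hm
  · intro N m hm
    exact le_iSup_of_le N (le_iSup₂_of_le N (Finset.mem_Icc.2 ⟨hm, le_rfl⟩) le_rfl)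
  · have h6 : ∀ Λ : ℕ, ∑ m ∈ Finset.range Λ, ⨆ K, f m K ≤ c⁻¹ * c⁻¹ := by
      intro Λ
      rw [ENNReal.finsetSum_iSup_of_monotone (fun m => hfmono m)]
      refine iSup_le fun K => ?_
      calc ∑ m ∈ Finset.range Λ, f m K
          ≤ ∑ m ∈ Finset.range Λ, c⁻¹ * nc ν i (K + 1 + m) m := by
            refine Finset.sum_le_sum fun m _ => iSup₂_le fun N hN => ?_
            rw [Finset.mem_Icc] at hN
            exact h1 N (K + 1 + m) m hN.1 (by omega)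
        _ = c⁻¹ * ∑ m ∈ Finset.range Λ, nc ν i (K + 1 + m) m := by rw [Finset.mul_sum]
        _ ≤ c⁻¹ * c⁻¹ := by gcongr; exact h3 _ _
    have h7 : ∑' m, (⨆ K, f m K) ≤ c⁻¹ * c⁻¹ := by
      rw [ENNReal.tsum_eq_iSup_nat]
      exact iSup_le h6
    refine ne_top_of_le_ne_top ?_ h7
    exact ENNReal.mul_ne_top (ENNReal.inv_ne_top.2 hc0) (ENNReal.inv_ne_top.2 hc0)

end Vale.Agent.Lib.P147H
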