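import Vale.Agent.Lib.P147H.CutCat

/-! P147, third version, module CUTWIN (helper3): decomposition at the last cut below the
window. -/

open MeasureTheory
open scoped ENNReal

namespace Vale.Agent.Lib.P147H

open Vale.Agent.Lib.P147 Vale.Agent.Lib.P147G

variable {d : ℕ}

/-- union bound for weights -/
theorem Wt_union (ν : Measure (ℕ → Step d)) (s : Finset ℕ) (Q : ℕ → List (Step d) → Prop)
    (P : List (Step d) → Prop) (h : ∀ γ, P γ → ∃ l ∈ s, Q l γ) :
    Wt ν P ≤ ∑ l ∈ s, Wt ν (Q l) := by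
  classical
  unfold Wt
  rw [← Summable.tsum_finsetSum (fun _ _ => ENNReal.summable)]
  refine ENNReal.tsum_le_tsum fun γ => ?_
  by_cases hP : P γ
  · obtain ⟨l, hl, hQ⟩ := h γ hP
    rw [if_pos hP]
    refine le_trans ?_ (Finset.single_le_sum (f := fun l => if Q l γ then ν (cyl γ) else 0)
      (fun _ _ => bot_le) hl)
    rw [if_pos hQ]
  · rw [if_neg hP]; exact bot_le

/-- bounded overlap -/
theorem Wt_count (ν : Measure (ℕ → Step d)) (s : Finset ℕ) (R : ℕ → List (Step d) → Prop)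
    (P : List (Step d) → Prop) (K : ℕ) (hRP : ∀ l ∈ s, ∀ γ, R l γ → P γ)
    (hcard : ∀ γ, ∃ T : Finset ℕ, T.card ≤ K ∧ ∀ l ∈ s, R l γ → l ∈ T) :
    ∑ l ∈ s, Wt ν (R l) ≤ K * Wt ν P := by
  classical
  unfold Wt
  rw [← Summable.tsum_finsetSum (fun _ _ => ENNReal.summable), ← ENNReal.tsum_mul_left]
  refine ENNReal.tsum_le_tsum fun γ => ?_
  by_cases hP : P γ
  · rw [if_pos hP, ← Finset.sum_filter, Finset.sum_const, nsmul_eq_mul]
    obtain ⟨T, hT, hsub⟩ := hcard γ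
    have h1 : (s.filter (fun l => R l γ)).card ≤ K := by
      refine (Finset.card_le_card fun l hl => ?_).trans hT
      rw [Finset.mem_filter] at hl
      exact hsub l hl.1 hl.2
    exact mul_le_mul_left (by exact_mod_cast h1) _
  · rw [if_neg hP, mul_zero]
    refine le_of_eq (Finset.sum_eq_zero fun l hl => ?_)
    rw [if_neg fun hR => hP (hRP l hl γ hR)]

/-- decomposition at the last cut below the window -/
theorem win_split {ν : Measure (ℕ → Step d)} (h : Law ν) (i : Fin d) (L lam : ℕ)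
    (hlam : 1 ≤ lam) (hL : 2 * lam ≤ L) :
    Wt ν (fun γ => Cr i L γ ∧ ∀ l, L - 2 * lam ≤ l → l < L - lam → ¬ Cut i γ l) ≤
      ∑ j ∈ Finset.range (L - 2 * lam + 1), nc ν i (L - j) (L - j - lam) := by
  classical
  set a := L - 2 * lam with ha
  set Q : ℕ → List (Step d) → Prop := fun j γ =>
    (j = 0 ∧ Cr i L γ ∧ ∀ l < L - lam, ¬ Cut i γ l) ∨
    (0 < j ∧ Cr i ((j - 1) + (L - j) + 1) γ ∧ ∃ γ₁ γ₂, γ = γ₁ ++ [(i, true)] ++ γ₂ ∧
        Cr i (j - 1) γ₁ ∧ True ∧ Cr i (L - j) γ₂ ∧ ∀ l < L - j - lam, ¬ Cut i γ₂ l) with hQ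
  refine (Wt_union ν (Finset.range (a + 1)) Q _ ?_).trans (Finset.sum_le_sum fun j hj => ?_)
  · rintro γ ⟨hγ, hw⟩
    by_cases hc : ∃ l, l < a ∧ Cut i γ l
    · -- the last cut
      obtain ⟨l, hla, hcl, hmax⟩ : ∃ l, l < a ∧ Cut i γ l ∧ ∀ l', l < l' → l' < a →
          ¬ Cut i γ l' := by
        set S := (Finset.range a).filter (fun l => Cut i γ l) with hS
        have hne : S.Nonempty := by
          obtain ⟨l, h1, h2⟩ := hc
          exact ⟨l, Finset.mem_filter.2 ⟨Finset.mem_range.2 h1, h2⟩⟩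
        have hm := S.max'_mem hne
        refine ⟨S.max' hne, Finset.mem_range.1 (Finset.mem_filter.1 hm).1,
          (Finset.mem_filter.1 hm).2, fun l' h1 h2 h3 => ?_⟩
        have := S.le_max' l' (Finset.mem_filter.2 ⟨Finset.mem_range.2 h2, h3⟩)
        omega
      obtain ⟨t, ht⟩ := hcl
      obtain ⟨h1, h2, h3, h4⟩ := cut_split hγ ht
      refine ⟨l + 1, Finset.mem_range.2 (by omega), Or.inr ⟨by omega, ?_, γ.take t,
        γ.drop (t + 1), h4, ?_, trivial, ?_, ?_⟩⟩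
      · have e : (l + 1 - 1) + (L - (l + 1)) + 1 = L := by omega
        rw [e]; exact hγ
      · simpa using h2
      · have e : L - (l + 1) = L - l - 1 := by omega
        rw [e]; exact h3
      · intro l' hl' hcut
        have h5 := (cat_gt (l' := l') h2 h3).2 hcut
        rw [← h4] at h5
        by_cases h6 : l + 1 + l' < a
        · exact hmax _ (by omega) h6 h5
        · exact hw _ (by omega) (by omega) h5
    · push Not at hc
      refine ⟨0, Finset.mem_range.2 (by omega), Or.inl ⟨rfl, hγ, fun l hl hcut => ?_⟩⟩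
      by_cases h6 : l < a
      · exact hc l h6 hcut
      · exact hw l (by omega) hl hcut
  · rcases Nat.eq_zero_or_pos j with h0 | h0
    · subst h0
      unfold nc
      refine Wt_mono ν fun γ hγ => ?_
      rcases hγ with h1 | h1
      · exact ⟨h1.2.1, h1.2.2⟩
      · exact absurd h1.1 (lt_irrefl 0)
    · have h1 : Wt ν (Q j) ≤ Wt ν (fun γ => Cr i ((j - 1) + (L - j) + 1) γ ∧
          ∃ γ₁ γ₂, γ = γ₁ ++ [(i, true)] ++ γ₂ ∧
          Cr i (j - 1) γ₁ ∧ True ∧ Cr i (L - j) γ₂ ∧ ∀ l < L - j - lam, ¬ Cut i γ₂ l) := by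
        refine Wt_mono ν fun γ hγ => ?_
        rcases hγ with h1 | h1
        · omega
        · exact h1.2
      refine h1.trans ?_
      rw [← cat_weight h i (j - 1) (L - j) (fun _ => True)
        (fun γ => ∀ l < L - j - lam, ¬ Cut i γ l)]
      have h2 := Wt_Cr_le h i (j - 1) (fun _ => True)
      have h3 : ν (cyl [(i, true)]) ≤ 1 := by
        rw [← h.prob]; exact measure_mono (Set.subset_univ _)
      calc Wt ν (fun γ => Cr i (j - 1) γ ∧ True) * ν (cyl [(i, true)]) *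
            Wt ν (fun γ => Cr i (L - j) γ ∧ ∀ l < L - j - lam, ¬ Cut i γ l)
          ≤ 1 * 1 * Wt ν (fun γ => Cr i (L - j) γ ∧ ∀ l < L - j - lam, ¬ Cut i γ l) := by
            gcongr
        _ = _ := by rw [one_mul, one_mul]; rfl

/-- upper bound of the sum -/
theorem win_sum {ν : Measure (ℕ → Step d)} (h : Law ν) (i : Fin d) (L lam : ℕ)
    (hL : 2 * lam ≤ L) :
    ∑ j ∈ Finset.range (L - 2 * lam + 1),
        nc ν i (L - j) (L - j - lam) * ν (cyl [(i, true)]) * cr ν i j ≤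
      ((lam + 1 : ℕ) : ℝ≥0∞) * nc ν i (L + 1) lam := by
  classical
  set R : ℕ → List (Step d) → Prop := fun j γ =>
    Cr i (L + 1) γ ∧ Cut i γ (L - j) ∧ j ≤ L - 2 * lam ∧ ∀ l < L - j - lam, ¬ Cut i γ l with hR
  have h1 : ∀ j ∈ Finset.range (L - 2 * lam + 1),
      nc ν i (L - j) (L - j - lam) * ν (cyl [(i, true)]) * cr ν i j ≤ Wt ν (R j) := by
    intro j hj
    rw [Finset.mem_range] at hj
    have e1 : cr ν i j = Wt ν (fun γ => Cr i j γ ∧ True) := by
      unfold cr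
      congr 1
      funext γ
      exact (and_true _).symm
    unfold nc
    rw [e1, cat_weight h i (L - j) j (fun γ => ∀ l < L - j - lam, ¬ Cut i γ l) (fun _ => True)]
    refine Wt_mono ν fun γ hγ => ?_
    obtain ⟨h2, γ₁, γ₂, h3, h4, h5, h6, _⟩ := hγ
    have e2 : L - j + j + 1 = L + 1 := by omega
    rw [e2] at h2
    refine ⟨h2, ?_, by omega, ?_⟩
    · rw [h3]; exact ⟨_, cat_mid h4 h6⟩
    · intro l hl hc
      rw [h3] at hc
      exact h5 l hl ((cat_lt h4 h6 (by omega)).1 hc)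
  refine (Finset.sum_le_sum h1).trans ?_
  unfold nc
  refine Wt_count ν _ R _ (lam + 1) ?_ ?_
  · rintro j hj γ ⟨h2, _, h3, h4⟩
    exact ⟨h2, fun l hl => h4 l (by omega)⟩
  · intro γ
    by_cases hne : ∃ j ∈ Finset.range (L - 2 * lam + 1), R j γ
    · obtain ⟨j0, hj0, hm2, hmax⟩ : ∃ j0 ∈ Finset.range (L - 2 * lam + 1), R j0 γ ∧
          ∀ j ∈ Finset.range (L - 2 * lam + 1), R j γ → j ≤ j0 := by
        set S := (Finset.range (L - 2 * lam + 1)).filter (fun j => R j γ) with hS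
        have hS0 : S.Nonempty := by
          obtain ⟨j, h1, h2⟩ := hne
          exact ⟨j, Finset.mem_filter.2 ⟨h1, h2⟩⟩
        have hm := S.max'_mem hS0
        exact ⟨S.max' hS0, (Finset.mem_filter.1 hm).1, (Finset.mem_filter.1 hm).2,
          fun j h1 h2 => S.le_max' j (Finset.mem_filter.2 ⟨h1, h2⟩)⟩
      refine ⟨Finset.Icc (j0 - lam) j0, by rw [Nat.card_Icc]; omega, fun j hj hRj => ?_⟩
      have h5 := hmax j hj hRj
      rw [Finset.mem_Icc]
      refine ⟨?_, h5⟩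
      by_contra hcon
      push Not at hcon
      have h7 : j0 ≤ L - 2 * lam := hm2.2.2.1
      exact hRj.2.2.2 (L - j0) (by omega) hm2.2.1
    · push Not at hne
      exact ⟨∅, by simp, fun j hj hRj => absurd hRj (hne j hj)⟩

theorem cut_window {ν : Measure (ℕ → Step d)} (h : Law ν) (i : Fin d) {δ : ℝ≥0∞} (hδ : 0 < δ)
    (hcr : ∀ m, δ ≤ cr ν i m) :
    ∃ C : ℝ≥0∞, C ≠ ⊤ ∧ ∀ L lam : ℕ, 1 ≤ lam → 2 * lam ≤ L →
      Wt ν (fun γ => Cr i L γ ∧ ∀ l, L - 2 * lam ≤ l → l < L - lam → ¬ Cut i γ l) ≤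
        C * (lam + 1) * nc ν i (L + 1) lam := by
  set w := ν (cyl [(i, true)]) with hw
  have hw0 : w ≠ 0 := (h.pos (i, true)).ne'
  have hwT : w ≠ ⊤ := h.ne_top _
  have hδT : δ ≠ ⊤ := by
    have h1 := hcr 0
    have h2 : cr ν i 0 ≤ 1 := by
      have := Wt_Cr_le h i 0 (fun _ => True)
      unfold cr
      refine le_trans (Wt_mono ν fun γ hγ => ?_) this
      exact ⟨hγ, trivial⟩
    exact ne_top_of_le_ne_top ENNReal.one_ne_top (h1.trans h2)
  set c := w * δ with hc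
  have hc0 : c ≠ 0 := mul_ne_zero hw0 hδ.ne'
  have hcT : c ≠ ⊤ := ENNReal.mul_ne_top hwT hδT
  refine ⟨c⁻¹, ENNReal.inv_ne_top.2 hc0, fun L lam hlam hL => ?_⟩
  have h1 := win_split h i L lam hlam hL
  have h2 := win_sum h i L lam hL
  set X := Wt ν (fun γ => Cr i L γ ∧ ∀ l, L - 2 * lam ≤ l → l < L - lam → ¬ Cut i γ l) with hX
  have h3 : c * X ≤ ((lam + 1 : ℕ) : ℝ≥0∞) * nc ν i (L + 1) lam := by
    refine le_trans ?_ h2
    refine (mul_le_mul_right h1 c).trans ?_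
    rw [Finset.mul_sum]
    refine Finset.sum_le_sum fun j _ => ?_
    calc c * nc ν i (L - j) (L - j - lam) = nc ν i (L - j) (L - j - lam) * w * δ := by
          rw [hc]; ring
      _ ≤ nc ν i (L - j) (L - j - lam) * w * cr ν i j := mul_le_mul_right (hcr j) _
  calc X = c⁻¹ * (c * X) := by rw [← mul_assoc, ENNReal.inv_mul_cancel hc0 hcT, one_mul]
    _ ≤ c⁻¹ * (((lam + 1 : ℕ) : ℝ≥0∞) * nc ν i (L + 1) lam) := mul_le_mul_right h3 _
    _ = c⁻¹ * (lam + 1) * nc ν i (L + 1) lam := by push_cast; ring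

end Vale.Agent.Lib.P147H
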