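import Vale.Agent.Lib.P147.Ext
import Vale.Agent.Lib.P147G.Defs

/-! P147, third version: both sides polynomial.  Cuts, slabs, good tips. -/

open MeasureTheory
open scoped ENNReal

namespace Vale.Agent.Lib.P147H

open Vale.Agent.Lib.P147 Vale.Agent.Lib.P147G

variable {d : ℕ}

/-- never below the starting level, growth at least `ψ` -/
def UpP (i : Fin d) (ψ : ℕ → ℝ) : Set (ℕ → Step d) :=
  {s | ∀ n : ℕ, 0 ≤ pos s n i ∧ ψ n ≤ (pos s n i : ℝ)}

/-- the level stays in `[0, m)` up to time `t` -/
def Slab (i : Fin d) (m t : ℕ) : Set (ℕ → Step d) :=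
  {s | ∀ k ≤ t, 0 ≤ pos s k i ∧ pos s k i < (m : ℤ)}

/-- finite paths from level `0` to their first visit of level `m`, never below level `0` -/
def Cr (i : Fin d) (m : ℕ) (γ : List (Step d)) : Prop :=
  Hit i (m : ℤ) γ ∧ ∀ k ≤ γ.length, 0 ≤ endp (γ.take k) i

/-- time `t` is a cut at level `l` of the finite path `γ`: first visit of level `l` at time `t`,
step up, and then strictly above level `l` until the end -/
def CutAt (i : Fin d) (γ : List (Step d)) (l t : ℕ) : Prop :=
  t < γ.length ∧ Hit i (l : ℤ) (γ.take t) ∧ γ[t]? = some (i, true) ∧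
    ∀ k, t < k → k ≤ γ.length → (l : ℤ) < endp (γ.take k) i

/-- `l` is a cut level of `γ` -/
def Cut (i : Fin d) (γ : List (Step d)) (l : ℕ) : Prop := ∃ t, CutAt i γ l t

open Classical in
/-- weight of a set of finite paths -/
noncomputable def Wt (ν : Measure (ℕ → Step d)) (P : List (Step d) → Prop) : ℝ≥0∞ :=
  ∑' γ : List (Step d), if P γ then ν (cyl γ) else 0

/-- weight of the crossings of `m` levels -/
noncomputable def cr (ν : Measure (ℕ → Step d)) (i : Fin d) (m : ℕ) : ℝ≥0∞ := Wt ν (Cr i m)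

/-- weight of the crossings of `N` levels without a cut in the first `m` levels -/
noncomputable def nc (ν : Measure (ℕ → Step d)) (i : Fin d) (N m : ℕ) : ℝ≥0∞ :=
  Wt ν (fun γ => Cr i N γ ∧ ∀ l < m, ¬ Cut i γ l)

/-- good tips: crossings of `L` levels whose past is thin: for every `lam ≥ 1` the number of times
with level at least `L - lam` is at most `M * lam ^ κ` -/
def Tip (i : Fin d) (L : ℕ) (M κ : ℝ) (γ : List (Step d)) : Prop :=
  Cr i L γ ∧ ∀ lam : ℕ, 1 ≤ lam →
    ((((Finset.range (γ.length + 1)).filter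
      (fun k => (L : ℤ) - lam ≤ endp (γ.take k) i)).card : ℕ) : ℝ) ≤ M * (lam : ℝ) ^ κ

end Vale.Agent.Lib.P147H
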