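import Vale.Agent.Lib.P147H.Defs

/-! P147, fourth version: averaged collisions behind the good tips. -/

open MeasureTheory
open scoped ENNReal

namespace Vale.Agent.Lib.P147H

open Vale.Agent.Lib.P147 Vale.Agent.Lib.P147G

variable {d : ℕ}

/-- number of visits of level `L - D` -/
noncomputable def Vn (i : Fin d) (L D : ℕ) (γ : List (Step d)) : ℕ :=
  ((Finset.range (γ.length + 1)).filter
    (fun k => endp (γ.take k) i = (L : ℤ) - (D : ℤ))).card

open Classical in
/-- expected number of visits of level `L - D` on the good tips of level `L` -/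
noncomputable def Vt (ν : Measure (ℕ → Step d)) (i : Fin d) (M κ : ℝ) (D L : ℕ) : ℝ≥0∞ :=
  ∑' γ : List (Step d), if Tip i L M κ γ then ν (cyl γ) * (Vn i L D γ : ℝ≥0∞) else 0

end Vale.Agent.Lib.P147H
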