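import Vale.Agent.Lib.P147H.Final4

/-! P147, fourth version: opposite asymptotic directions. -/

open MeasureTheory ProbabilityTheory Filter
open scoped ENNReal Topology

namespace Vale.Agent.Lib.P147H

open Vale.Agent.Lib.P147 Vale.Agent.Lib.P147G

variable {d : ℕ}

/-- a coordinate of a path with `x n ~ r n * u`, `r n ≥ c n ^ β`, `u > 0` -/
theorem dir_up {x r : ℕ → ℝ} {β u : ℝ} (hu : 0 < u)
    (hr : ∃ c : ℝ, 0 < c ∧ ∀ᶠ n : ℕ in atTop, c * (n : ℝ) ^ β ≤ r n)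
    (hx : Tendsto (fun n => x n / r n) atTop (𝓝 u)) :
    ∃ c : ℝ, 0 < c ∧ ∀ᶠ n : ℕ in atTop, c * (n : ℝ) ^ β ≤ x n := by
  obtain ⟨c, hc, hr⟩ := hr
  refine ⟨u / 2 * c, by positivity, ?_⟩
  filter_upwards [hr, hx.eventually (lt_mem_nhds (show u / 2 < u by linarith)),
    eventually_ge_atTop 1] with n h1 h2 h3
  have hn : (0 : ℝ) < n := by exact_mod_cast h3
  have h4 : 0 < r n := lt_of_lt_of_le (by positivity) h1
  rw [lt_div_iff₀ h4] at h2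
  have h5 : u / 2 * (c * (n : ℝ) ^ β) ≤ u / 2 * r n :=
    mul_le_mul_of_nonneg_left h1 (by positivity)
  linarith

/-- the same for `u < 0` -/
theorem dir_down {x r : ℕ → ℝ} {β u : ℝ} (hu : u < 0)
    (hr : ∃ c : ℝ, 0 < c ∧ ∀ᶠ n : ℕ in atTop, c * (n : ℝ) ^ β ≤ r n)
    (hx : Tendsto (fun n => x n / r n) atTop (𝓝 u)) :
    ∃ c : ℝ, 0 < c ∧ ∀ᶠ n : ℕ in atTop, x n ≤ -(c * (n : ℝ) ^ β) := by
  have h1 : Tendsto (fun n => -x n / r n) atTop (𝓝 (-u)) := by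
    have := hx.neg
    simpa only [neg_div] using this
  obtain ⟨c, hc, h2⟩ := dir_up (x := fun n => -x n) (by linarith) hr h1
  refine ⟨c, hc, h2.mono fun n hn => ?_⟩
  linarith

theorem final5 (hd : 4 ≤ d) {Ω : Type*} [MeasurableSpace Ω] (P : Measure Ω)
    (μ : Measure (Step d → ℝ))
    (env : (Fin d → ℤ) → Ω → Step d → ℝ) (X : ℕ → Ω → Fin d → ℤ) (hX : IsRWRE P μ env X)
    (hμ : ∀ᵐ p ∂μ, (∀ e, 0 ≤ p e) ∧ ∑ e, p e = 1)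
    (hpos : ∀ e, 0 < ∫ p, p e ∂μ) {u w : Fin d → ℝ} (hu : ∃ i, u i * w i < 0) {β₁ β₂ : ℝ}
    (hβ₁ : 0 < β₁) (hβ₁1 : β₁ ≤ 1) (hβ₂ : 0 < β₂) (hβ₂1 : β₂ ≤ 1)
    (hq : 1 / β₁ + 1 / β₂ < ((d : ℝ) + 1) / 2) :
    P {ω | ∃ r : ℕ → ℝ, (∃ c : ℝ, 0 < c ∧ ∀ᶠ n : ℕ in atTop, c * (n : ℝ) ^ β₁ ≤ r n) ∧
      ∀ j, Tendsto (fun n => (X n ω j : ℝ) / r n) atTop (𝓝 (u j))} = 0 ∨
    P {ω | ∃ r : ℕ → ℝ, (∃ c : ℝ, 0 < c ∧ ∀ᶠ n : ℕ in atTop, c * (n : ℝ) ^ β₂ ≤ r n) ∧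
      ∀ j, Tendsto (fun n => (X n ω j : ℝ) / r n) atTop (𝓝 (w j))} = 0 := by
  obtain ⟨i, hi⟩ := hu
  rcases mul_neg_iff.1 hi with ⟨h1, h2⟩ | ⟨h1, h2⟩
  · rcases final4c hd P μ env X hX hμ hpos i hβ₁ hβ₁1 hβ₂ hβ₂1 hq with h | h
    · left
      refine measure_mono_null ?_ h
      rintro ω ⟨r, hr, hx⟩
      exact dir_up h1 hr (hx i)
    · right
      refine measure_mono_null ?_ h
      rintro ω ⟨r, hr, hx⟩
      exact dir_down h2 hr (hx i)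
  · rcases final4c hd P μ env X hX hμ hpos i hβ₂ hβ₂1 hβ₁ hβ₁1 (by linarith) with h | h
    · right
      refine measure_mono_null ?_ h
      rintro ω ⟨r, hr, hx⟩
      exact dir_up h2 hr (hx i)
    · left
      refine measure_mono_null ?_ h
      rintro ω ⟨r, hr, hx⟩
      exact dir_down h1 hr (hx i)

end Vale.Agent.Lib.P147H
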