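import Vale.Agent.Lib.P147H.Defs
import Vale.Agent.Lib.P147G.GreenG

/-! P147, third version, module GREEN3. -/

open MeasureTheory
open scoped ENNReal

namespace Vale.Agent.Lib.P147H

open Vale.Agent.Lib.P147 Vale.Agent.Lib.P147G

variable {d : ℕ}

theorem green3_vis {ν : Measure (ℕ → Step d)} (h : Law ν) (i : Fin d) {b β : ℝ}
    (hb : 0 ≤ b) (hβ : 0 < β) {lam Λ : ℕ} (hl : lam < Λ) :
    VisG ν i (fun n => 1 * (n : ℝ) ^ β - b) lam ≤
      ENNReal.ofReal (((Λ : ℝ) + b) ^ (1 / β) + 1) := by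
  have h1 := sum_VisG h i (c := 1) (b := b) (β := β) one_pos hb hβ Λ
  rw [div_one] at h1
  refine le_trans ?_ h1
  exact Finset.single_le_sum (f := fun lam => VisG ν i (fun n => 1 * (n : ℝ) ^ β - b) lam)
    (fun _ _ => bot_le) (Finset.mem_range.mpr hl)

theorem green3 {ν : Measure (ℕ → Step d)} (h : Law ν) (i : Fin d) {q : ℕ} (j : Fin q → Fin d)
    (hij : ∀ a, j a ≠ i) {C : ℝ} (hC : 0 ≤ C) (hS : SpreadG ν i j C)
    {b β τ : ℝ} (hb : 0 ≤ b) (hβ : 0 < β) (p l₀ : ℕ) (hτ : 0 < τ)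
    (hexp : τ ≤ (p : ℝ) * q / (2 * ((p : ℝ) + 1)) - 1 / β) :
    ∃ (C' : ℝ) (lam₀ : ℕ), 0 ≤ C' ∧ 1 ≤ lam₀ ∧
      (∀ (R : ℕ) (v : Fin d → ℤ) (lam : ℕ), lam₀ ≤ lam → v i = -(lam : ℤ) →
        ∑ z ∈ BoxG j R, ν (GoodG i j (fun n => 1 * (n : ℝ) ^ β - b) p l₀ ∩
          {s | ∃ n, pos s n = v - z}) ≤
            ENNReal.ofReal ((R : ℝ) ^ q * (C' * ((lam : ℝ) ^ τ)⁻¹))) ∧
      (∀ Λ : ℕ, ∃ B : ℝ, 0 ≤ B ∧ ∀ (R : ℕ) (v : Fin d → ℤ) (lam : ℕ), lam < Λ →
        v i = -(lam : ℤ) →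
        ∑ z ∈ BoxG j R, ν (GoodG i j (fun n => 1 * (n : ℝ) ^ β - b) p l₀ ∩
          {s | ∃ n, pos s n = v - z}) ≤ ENNReal.ofReal B) := by
  set ψ : ℕ → ℝ := fun n => 1 * (n : ℝ) ^ β - b with hψ
  set e : ℝ := (p : ℝ) * q / (2 * ((p : ℝ) + 1)) with he
  have he0 : 0 ≤ e := by positivity
  set A : ℝ := ((2 : ℝ) ^ (p + 1)) with hA
  have hA1 : 1 ≤ A := one_le_pow₀ (by norm_num)
  have hA0 : 0 < A := by linarith
  set E : ℝ := (2 + b) ^ (1 / β) + 1 with hE
  have hE0 : 0 ≤ E := by positivity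
  refine ⟨C * A ^ e * E, 2 ^ ((p + 1) * l₀), by positivity, Nat.one_le_two_pow, ?_, ?_⟩
  · intro R v lam hlam hv
    have hlam1 : 1 ≤ lam := le_trans Nat.one_le_two_pow hlam
    have hx1 : (1 : ℝ) ≤ lam := by exact_mod_cast hlam1
    have hx0 : (0 : ℝ) < lam := by linarith
    set B : ℕ := 2 ^ (p + 1) with hB
    have hB2 : 1 < B := Nat.one_lt_two_pow (Nat.succ_ne_zero p)
    set l : ℕ := Nat.log B lam with hl
    have hl0 : l₀ ≤ l := by
      refine Nat.le_log_of_pow_le hB2 ?_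
      rw [hB, ← pow_mul]
      exact hlam
    have hl1 : 2 ^ ((p + 1) * l) ≤ lam := by
      rw [pow_mul]
      exact Nat.pow_log_le_self B (by omega)
    have hl2 : lam < B ^ (l + 1) := Nat.lt_pow_succ_log_self hB2 lam
    have h1 := boxG_bound2 i j hij hS ψ p l₀ R v lam hv l hl0 hl1
    refine h1.trans ?_
    have h2 := green3_vis h i hb hβ (lam := lam) (Λ := lam + 1) (Nat.lt_succ_self _)
    refine (mul_le_mul_right h2 _).trans ?_
    have h3 : (R : ℝ≥0∞) ^ q = ENNReal.ofReal ((R : ℝ) ^ q) := by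
      rw [ENNReal.ofReal_pow (by positivity), ENNReal.ofReal_natCast]
    rw [h3, ← ENNReal.ofReal_mul (by positivity), ← ENNReal.ofReal_mul (by positivity)]
    apply ENNReal.ofReal_le_ofReal
    rw [mul_assoc]
    refine mul_le_mul_of_nonneg_left ?_ (by positivity)
    -- the power of the number of marks
    have h4 : ((lam : ℝ) / A) ^ e ≤ (Real.sqrt ((2 ^ (p * l) : ℕ) : ℝ)) ^ q := by
      have h5 : (lam : ℝ) / A ≤ A ^ l := by
        rw [div_le_iff₀ hA0, ← pow_succ]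
        have : (lam : ℝ) < (B : ℝ) ^ (l + 1) := by exact_mod_cast hl2
        have h6 : (B : ℝ) = A := by rw [hB, hA]; push_cast; ring
        rw [h6] at this
        exact this.le
      have hL : (Real.sqrt ((2 : ℝ) ^ (p * l))) ^ q = (2 : ℝ) ^ ((p : ℝ) * l * q / 2) := by
        rw [Real.sqrt_eq_rpow, ← Real.rpow_natCast (2 : ℝ) (p * l), ← Real.rpow_mul (by norm_num),
          ← Real.rpow_natCast, ← Real.rpow_mul (by norm_num)]
        congr 1
        push_cast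
        ring
      have hR : (A ^ l) ^ e = (2 : ℝ) ^ ((p : ℝ) * l * q / 2) := by
        rw [hA, ← pow_mul, ← Real.rpow_natCast (2 : ℝ) ((p + 1) * l),
          ← Real.rpow_mul (by norm_num)]
        congr 1
        push_cast
        rw [he]
        field_simp
      have h7 : (Real.sqrt ((2 ^ (p * l) : ℕ) : ℝ)) ^ q = (A ^ l) ^ e := by
        push_cast
        rw [hL, hR]
      rw [h7]
      exact Real.rpow_le_rpow (by positivity) h5 he0
    have h8 : 0 < ((lam : ℝ) / A) ^ e := by positivity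
    have h9 : C / (Real.sqrt ((2 ^ (p * l) : ℕ) : ℝ)) ^ q ≤ C / ((lam : ℝ) / A) ^ e :=
      div_le_div_of_nonneg_left hC h8 h4
    have h10 : ((((lam + 1 : ℕ) : ℝ)) + b) ^ (1 / β) + 1 ≤ E * (lam : ℝ) ^ (1 / β) := by
      have h11 : (((lam + 1 : ℕ) : ℝ)) + b ≤ (2 + b) * lam := by
        push_cast
        nlinarith
      have h12 := Real.rpow_le_rpow (by positivity) h11 (show (0 : ℝ) ≤ 1 / β by positivity)
      rw [Real.mul_rpow (by positivity) (by positivity)] at h12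
      have h13 : (1 : ℝ) ≤ (lam : ℝ) ^ (1 / β) := Real.one_le_rpow hx1 (by positivity)
      rw [hE]
      linarith
    calc C / (Real.sqrt ((2 ^ (p * l) : ℕ) : ℝ)) ^ q *
          (((((lam + 1 : ℕ) : ℝ)) + b) ^ (1 / β) + 1)
        ≤ C / ((lam : ℝ) / A) ^ e * (E * (lam : ℝ) ^ (1 / β)) :=
          mul_le_mul h9 h10 (by positivity) (by positivity)
      _ = C * A ^ e * E * ((lam : ℝ) ^ (e - 1 / β))⁻¹ := by
          rw [Real.div_rpow hx0.le hA0.le, Real.rpow_sub hx0]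
          have hne1 : (lam : ℝ) ^ e ≠ 0 := by positivity
          have hne2 : A ^ e ≠ 0 := by positivity
          have hne3 : (lam : ℝ) ^ (1 / β) ≠ 0 := by positivity
          field_simp
      _ ≤ C * A ^ e * E * ((lam : ℝ) ^ τ)⁻¹ := by
          refine mul_le_mul_of_nonneg_left ?_ (by positivity)
          apply inv_anti₀ (by positivity)
          exact Real.rpow_le_rpow_of_exponent_le hx1 hexp
  · intro Λ
    refine ⟨((Λ : ℝ) + b) ^ (1 / β) + 1, by positivity, fun R v lam hlam hv => ?_⟩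
    exact (boxG_bound i j hij ψ p l₀ R v lam hv).trans (green3_vis h i hb hβ hlam)

end Vale.Agent.Lib.P147H
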