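import Mathlib

/-! P147, third version, module TIPSUM (helper3): pure real analysis. -/

namespace Vale.Agent.Lib.P147H

theorem tipsum {M κ τ ε : ℝ} (hκ : 0 < κ) (hκτ : κ < τ) (hε : 0 < ε) :
    ∃ Λ : ℕ, 1 ≤ Λ ∧ ∀ (s : Finset ℕ) (D : ℕ → ℕ),
      (∀ n : ℕ, 1 ≤ n → (((s.filter (fun k => D k ≤ n)).card : ℕ) : ℝ) ≤ M * (n : ℝ) ^ κ) →
      ∑ k ∈ s.filter (fun k => Λ ≤ D k), ((D k : ℝ) ^ τ)⁻¹ ≤ ε := by
  set q : ℝ := (2:ℝ) ^ (κ - τ) with hq
  have hq0 : 0 < q := by positivity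
  have hq1 : q < 1 := Real.rpow_lt_one_of_one_lt_of_neg (by norm_num) (by linarith)
  have h1q : 0 < 1 - q := by linarith
  obtain ⟨J, hJ⟩ : ∃ J : ℕ, |M| * 2 ^ κ * (q ^ J / (1 - q)) ≤ ε := by
    have hA : 0 ≤ |M| * (2:ℝ) ^ κ / (1 - q) := by positivity
    obtain ⟨J, hJ⟩ := exists_pow_lt_of_lt_one
      (show 0 < ε / (|M| * 2 ^ κ / (1 - q) + 1) by positivity) hq1
    refine ⟨J, ?_⟩
    rw [lt_div_iff₀ (by positivity)] at hJ
    have hp := pow_pos hq0 J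
    calc |M| * 2 ^ κ * (q ^ J / (1 - q)) = q ^ J * (|M| * 2 ^ κ / (1 - q)) := by ring
      _ ≤ q ^ J * (|M| * 2 ^ κ / (1 - q) + 1) :=
          mul_le_mul_of_nonneg_left (by linarith) hp.le
      _ ≤ ε := hJ.le
  refine ⟨2 ^ J, Nat.one_le_two_pow, fun s D h => ?_⟩
  have hM : 0 ≤ M := by
    have h1 := h 1 le_rfl
    rw [Nat.cast_one, Real.one_rpow, mul_one] at h1
    exact le_trans (Nat.cast_nonneg _) h1
  rw [abs_of_nonneg hM] at hJ
  set F := s.filter (fun k => 2 ^ J ≤ D k) with hF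
  set N := F.sup (fun k => Nat.log 2 (D k)) + 1 with hN
  have hmaps : ∀ k ∈ F, Nat.log 2 (D k) ∈ Finset.Ico J N := by
    intro k hk
    have hk2 : 2 ^ J ≤ D k := (Finset.mem_filter.1 hk).2
    rw [Finset.mem_Ico]
    refine ⟨Nat.le_log_of_pow_le (by norm_num) hk2, ?_⟩
    have := Finset.le_sup (f := fun k => Nat.log 2 (D k)) hk
    exact Nat.lt_succ_of_le this
  rw [← Finset.sum_fiberwise_of_maps_to hmaps]
  have hfib : ∀ j ∈ Finset.Ico J N,
      ∑ k ∈ F.filter (fun k => Nat.log 2 (D k) = j), ((D k : ℝ) ^ τ)⁻¹ ≤ M * 2 ^ κ * q ^ j := by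
    intro j hj
    have hcard : ((F.filter (fun k => Nat.log 2 (D k) = j)).card : ℝ)
        ≤ M * ((2:ℝ) ^ (j + 1)) ^ κ := by
      have h2 := h (2 ^ (j + 1)) Nat.one_le_two_pow
      push_cast at h2
      refine le_trans ?_ h2
      have hsub : F.filter (fun k => Nat.log 2 (D k) = j)
          ⊆ s.filter (fun k => D k ≤ 2 ^ (j + 1)) := by
        intro k hk
        rw [Finset.mem_filter] at hk
        rw [Finset.mem_filter]
        refine ⟨(Finset.mem_filter.1 hk.1).1, ?_⟩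
        have := Nat.lt_pow_succ_log_self (b := 2) (by norm_num) (D k)
        rw [hk.2] at this
        exact this.le
      exact_mod_cast Finset.card_le_card hsub
    have hterm : ∀ k ∈ F.filter (fun k => Nat.log 2 (D k) = j),
        ((D k : ℝ) ^ τ)⁻¹ ≤ (((2:ℝ) ^ j) ^ τ)⁻¹ := by
      intro k hk
      rw [Finset.mem_filter] at hk
      have hk2 : 2 ^ J ≤ D k := (Finset.mem_filter.1 hk.1).2
      have hD0 : D k ≠ 0 := by
        have : 0 < 2 ^ J := by positivity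
        omega
      have h3 : 2 ^ j ≤ D k := by
        rw [← hk.2]; exact Nat.pow_log_le_self 2 hD0
      have h4 : ((2:ℝ) ^ j) ≤ (D k : ℝ) := by exact_mod_cast h3
      have h5 : ((2:ℝ) ^ j) ^ τ ≤ (D k : ℝ) ^ τ :=
        Real.rpow_le_rpow (by positivity) h4 (by linarith)
      exact inv_anti₀ (by positivity) h5
    calc ∑ k ∈ F.filter (fun k => Nat.log 2 (D k) = j), ((D k : ℝ) ^ τ)⁻¹
        ≤ ∑ _k ∈ F.filter (fun k => Nat.log 2 (D k) = j), (((2:ℝ) ^ j) ^ τ)⁻¹ :=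
          Finset.sum_le_sum hterm
      _ = ((F.filter (fun k => Nat.log 2 (D k) = j)).card : ℝ) * (((2:ℝ) ^ j) ^ τ)⁻¹ := by
          rw [Finset.sum_const, nsmul_eq_mul]
      _ ≤ M * ((2:ℝ) ^ (j + 1)) ^ κ * (((2:ℝ) ^ j) ^ τ)⁻¹ :=
          mul_le_mul_of_nonneg_right hcard (by positivity)
      _ = M * 2 ^ κ * q ^ j := by
          have e1 : ((2:ℝ) ^ (j + 1)) ^ κ = 2 ^ κ * (2:ℝ) ^ (κ * j) := by
            rw [← Real.rpow_natCast, ← Real.rpow_mul (by norm_num), ← Real.rpow_add (by norm_num)]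
            congr 1; push_cast; ring
          have e2 : (((2:ℝ) ^ j) ^ τ)⁻¹ = (2:ℝ) ^ (-(τ * j)) := by
            rw [← Real.rpow_natCast, ← Real.rpow_mul (by norm_num), ← Real.rpow_neg (by norm_num)]
            congr 1; ring
          have e3 : q ^ j = (2:ℝ) ^ (κ * j) * (2:ℝ) ^ (-(τ * j)) := by
            rw [hq, ← Real.rpow_natCast, ← Real.rpow_mul (by norm_num),
              ← Real.rpow_add (by norm_num)]
            congr 1; ring
          rw [e1, e2, e3]; ring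
  calc ∑ j ∈ Finset.Ico J N, ∑ k ∈ F.filter (fun k => Nat.log 2 (D k) = j), ((D k : ℝ) ^ τ)⁻¹
      ≤ ∑ j ∈ Finset.Ico J N, M * 2 ^ κ * q ^ j := Finset.sum_le_sum hfib
    _ = M * 2 ^ κ * ∑ j ∈ Finset.Ico J N, q ^ j := by rw [Finset.mul_sum]
    _ ≤ M * 2 ^ κ * (q ^ J / (1 - q)) :=
        mul_le_mul_of_nonneg_left (geom_sum_Ico_le_of_lt_one hq0.le hq1) (by positivity)
    _ ≤ ε := hJ

end Vale.Agent.Lib.P147H
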