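import Vale.Agent.Lib.P147H.Long0
import Vale.Agent.Lib.P147H.CutW

/-! P147 version 3, module LONG: paths which stay long in a slab are unlikely. -/

open MeasureTheory ProbabilityTheory Filter
open scoped ENNReal

namespace Vale.Agent.Lib.P147H

open Vale.Agent.Lib.P147 Vale.Agent.Lib.P147G

variable {d : ℕ}

/-- one cut level -/
theorem LONG_one {ν : Measure (ℕ → Step d)} (h : Law ν) (i : Fin d) (L lam t l : ℕ)
    (hl : L - 2 * lam ≤ l) (hl2 : l < L) :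
    Wt ν (fun γ => Cr i L γ ∧ ∃ t₀, CutAt i γ l t₀ ∧ t₀ + t + 1 < γ.length) ≤
      ν (Slab i (2 * lam) t) := by
  obtain ⟨m, hm⟩ : ∃ m, l + m + 1 = L := ⟨L - l - 1, by omega⟩
  have h1 : Wt ν (fun γ => Cr i L γ ∧ ∃ t₀, CutAt i γ l t₀ ∧ t₀ + t + 1 < γ.length) ≤
      Wt ν (fun γ => Cr i (l + m + 1) γ ∧ ∃ γ₁ γ₂, γ = γ₁ ++ [(i, true)] ++ γ₂ ∧
        Cr i l γ₁ ∧ True ∧ Cr i m γ₂ ∧ t < γ₂.length) := by
    refine Wt_mono ν ?_
    rintro γ ⟨hcr, t₀, hcut, hlen⟩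
    refine ⟨by rw [hm]; exact hcr, γ.take t₀, γ.drop (t₀ + 1), ?_⟩
    obtain ⟨_, a2, a3, a4⟩ := cut_split hcr hcut
    have hm' : L - l - 1 = m := by omega
    rw [hm'] at a3
    refine ⟨a4, a2, trivial, a3, ?_⟩
    rw [List.length_drop]
    omega
  rw [← cat_weight h i l m (fun _ => True) (fun γ => t < γ.length)] at h1
  have h2 : Wt ν (fun γ => Cr i l γ ∧ (fun _ => True) γ) ≤ 1 := Wt_Cr_le h i l _
  have h3 : ν (cyl [(i, true)]) ≤ 1 := by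
    rw [← h.prob]
    exact measure_mono (Set.subset_univ _)
  have h4 : Wt ν (fun γ => Cr i m γ ∧ t < γ.length) ≤ ν (Slab i (2 * lam) t) :=
    le_trans (long0 h i m t) (measure_mono (LONG_slab_mono i (by omega) t))
  calc _ ≤ _ := h1
    _ ≤ 1 * 1 * ν (Slab i (2 * lam) t) := mul_le_mul' (mul_le_mul' h2 h3) h4
    _ = _ := by rw [one_mul, one_mul]

theorem long {ν : Measure (ℕ → Step d)} (h : Law ν) (i : Fin d) (L lam t : ℕ) (hlam : 1 ≤ lam)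
    (hL : 2 * lam ≤ L) :
    Wt ν (fun γ => Cr i L γ ∧ ∃ l t₀, L - 2 * lam ≤ l ∧ l < L - lam ∧ CutAt i γ l t₀ ∧
      t₀ + t + 1 < γ.length) ≤ lam * ν (Slab i (2 * lam) t) := by
  calc Wt ν (fun γ => Cr i L γ ∧ ∃ l t₀, L - 2 * lam ≤ l ∧ l < L - lam ∧ CutAt i γ l t₀ ∧
        t₀ + t + 1 < γ.length)
      ≤ Wt ν (fun γ => ∃ l ∈ Finset.Ico (L - 2 * lam) (L - lam), Cr i L γ ∧
          ∃ t₀, CutAt i γ l t₀ ∧ t₀ + t + 1 < γ.length) := by
        refine Wt_mono ν ?_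
        rintro γ ⟨hcr, l, t₀, h1, h2, h3, h4⟩
        exact ⟨l, Finset.mem_Ico.mpr ⟨h1, h2⟩, hcr, t₀, h3, h4⟩
    _ ≤ ∑ l ∈ Finset.Ico (L - 2 * lam) (L - lam),
          Wt ν (fun γ => Cr i L γ ∧ ∃ t₀, CutAt i γ l t₀ ∧ t₀ + t + 1 < γ.length) :=
        LONG_Wt_union ν _ (fun l γ => Cr i L γ ∧ ∃ t₀, CutAt i γ l t₀ ∧ t₀ + t + 1 < γ.length)
    _ ≤ ∑ l ∈ Finset.Ico (L - 2 * lam) (L - lam), ν (Slab i (2 * lam) t) := by
        refine Finset.sum_le_sum fun l hl => ?_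
        rw [Finset.mem_Ico] at hl
        exact LONG_one h i L lam t l hl.1 (by omega)
    _ = lam * ν (Slab i (2 * lam) t) := by
        rw [Finset.sum_const, Nat.card_Ico, nsmul_eq_mul]
        congr 2
        omega

end Vale.Agent.Lib.P147H
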