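import Vale.Agent.Lib.P147H.Defs
import Vale.Agent.Lib.P147.Turn
import Vale.Agent.Lib.P147.Coll

/-! P147 v3, module SLAB. -/

open MeasureTheory ProbabilityTheory Filter
open scoped ENNReal

namespace Vale.Agent.Lib.P147H

open Vale.Agent.Lib.P147 Vale.Agent.Lib.P147G

variable {d : ℕ}

/-- the predicate of the slab -/
def slabQ (i : Fin d) (m : ℕ) (l : List (Step d)) : Prop := 0 ≤ endp l i ∧ endp l i < (m : ℤ)

theorem slab_eq (i : Fin d) (m t : ℕ) : Slab i m t = EvN (slabQ i m) t := rfl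

theorem measurableSet_slab (i : Fin d) (m t : ℕ) : MeasurableSet (Slab i m t) := by
  rw [slab_eq]; exact measurableSet_EvN _ _

/-- after the first visit of a level, a slab event is independent of the past -/
theorem slab_mul {ν : Measure (ℕ → Step d)} (h : Law ν) {i : Fin d} {L : ℤ} (m t : ℕ)
    {γ : List (Step d)} (hγ : Hit i L γ) :
    ν (cyl γ ∩ shift γ.length ⁻¹' (Slab i m t)) = ν (cyl γ) * ν (Slab i m t) := by
  rw [slab_eq, EvN_eq, measure_EvS_shift ν γ (n := t) (fun m hm => hm.1),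
    measure_EvS ν (n := t) (fun m hm => hm.1), ← ENNReal.tsum_mul_left]
  refine tsum_congr fun η => ?_
  obtain ⟨η, hη, hη'⟩ := η
  refine h.mul γ η ?_
  rintro x ⟨k, hk, rfl⟩ y ⟨k', hk', rfl⟩ he
  have h1 := congrFun he i
  rw [Pi.add_apply, hγ.1] at h1
  have h2 := hγ.2 k hk
  have h3 : 0 ≤ endp (η.take k') i := (hη' k' (by rw [← hη]; exact hk'.le)).1
  omega

theorem slab_compl {ν : Measure (ℕ → Step d)} (h : Law ν) {i : Fin d} {L : ℤ} (m t : ℕ)
    {γ : List (Step d)} (hγ : Hit i L γ) :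
    ν (cyl γ ∩ shift γ.length ⁻¹' (Slab i m t)ᶜ) = ν (cyl γ) * (1 - ν (Slab i m t)) := by
  have h1 := measure_inter_add_diff (μ := ν) (cyl γ)
    (measurable_shift γ.length (measurableSet_slab i m t))
  rw [slab_mul h m t hγ] at h1
  have h2 : cyl γ ∩ shift γ.length ⁻¹' (Slab i m t)ᶜ = cyl γ \ shift γ.length ⁻¹' (Slab i m t) := by
    rw [Set.preimage_compl, Set.diff_eq]
  rw [h2]
  have h3 : ν (Slab i m t) ≤ 1 := by rw [← h.prob]; exact measure_mono (Set.subset_univ _)
  have h4 : ν (cyl γ) * ν (Slab i m t) + ν (cyl γ) * (1 - ν (Slab i m t)) = ν (cyl γ) := by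
    rw [← mul_add, add_tsub_cancel_of_le h3, mul_one]
  have h5 : ν (cyl γ) * ν (Slab i m t) ≠ ⊤ := ENNReal.mul_ne_top (h.ne_top _) (h.ne_top _)
  exact (ENNReal.add_right_inj h5).1 (h1.trans h4.symm)

/-- in none of the first `J` windows the walk stays `t` steps after its first visit -/
def slabA (i : Fin d) (m t J : ℕ) : Set (ℕ → Step d) :=
  {s | ∀ j < J, ∃ τ, Hit i ((j * m : ℕ) : ℤ) (pre s τ) ∧ shift τ s ∉ Slab i m t}

theorem slabA_eq (i : Fin d) (m t J : ℕ) :
    slabA i m t J = ⋂ j ∈ Set.Iio J, ⋃ γ : List (Step d), ⋃ _ : Hit i ((j * m : ℕ) : ℤ) γ,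
      (cyl γ ∩ shift γ.length ⁻¹' (Slab i m t)ᶜ) := by
  ext s
  simp only [slabA, Set.mem_setOf_eq, Set.mem_iInter, Set.mem_Iio, Set.mem_iUnion,
    Set.mem_inter_iff, Set.mem_preimage, Set.mem_compl_iff, exists_prop]
  refine forall_congr' fun j => imp_congr_right fun _ => ?_
  constructor
  · rintro ⟨τ, h1, h2⟩
    exact ⟨pre s τ, h1, pre_mem_cyl s τ, by rw [pre_length]; exact h2⟩
  · rintro ⟨γ, h1, h2, h3⟩
    refine ⟨γ.length, ?_, h3⟩
    rw [(mem_cyl_iff s γ).1 h2]
    exact h1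

theorem measurableSet_slabA (i : Fin d) (m t J : ℕ) : MeasurableSet (slabA i m t J) := by
  rw [slabA_eq]
  refine MeasurableSet.biInter (Set.to_countable _) fun j _ => ?_
  refine MeasurableSet.iUnion fun γ => MeasurableSet.iUnion fun _ => ?_
  exact (measurableSet_cyl γ).inter (measurable_shift _ (measurableSet_slab i m t).compl)

/-- the event is determined at the first visit of level `J m` -/
theorem slabA_det {i : Fin d} {m t J : ℕ} {γ : List (Step d)}
    (hγ : Hit i ((J * m : ℕ) : ℤ) γ) {s s' : ℕ → Step d} (hs : s ∈ cyl γ) (hs' : s' ∈ cyl γ)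
    (hA : s ∈ slabA i m t J) : s' ∈ slabA i m t J := by
  intro j hj
  obtain ⟨τ, h1, h2⟩ := hA j hj
  have hjm : ((j * m : ℕ) : ℤ) + m ≤ ((J * m : ℕ) : ℤ) := by
    have : j * m + m ≤ J * m := by
      calc j * m + m = (j + 1) * m := by ring
        _ ≤ J * m := Nat.mul_le_mul_right m hj
    exact_mod_cast this
  have hτ : τ ≤ γ.length := by
    by_contra hc
    have h3 := h1.2 γ.length (by rw [pre_length]; omega)
    rw [pre_take s (by omega), (mem_cyl_iff s γ).1 hs, hγ.1] at h3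
    have : (0 : ℤ) ≤ m := Int.natCast_nonneg m
    omega
  have hpre : ∀ k ≤ γ.length, pre s' k = pre s k := fun k hk => by
    rw [pre_of_mem_cyl hs hk, pre_of_mem_cyl hs' hk]
  refine ⟨τ, by rw [hpre τ hτ]; exact h1, ?_⟩
  intro hin
  apply h2
  intro k hk
  by_cases hkt : τ + k ≤ γ.length
  · have h3 := hin k hk
    have e1 := pos_add s τ k
    have e2 := pos_add s' τ k
    have e3 : pos s (τ + k) = pos s' (τ + k) := by rw [pos, pos, hpre _ hkt]
    have e4 : pos s τ = pos s' τ := by rw [pos, pos, hpre _ hτ]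
    have e5 : pos (shift τ s) k = pos (shift τ s') k := by
      rw [e1, e2, e4] at e3
      exact add_left_cancel e3
    rw [e5]
    exact h3
  · exfalso
    have h3 := (hin (γ.length - τ) (by omega)).2
    have e2 := congrFun (pos_add s' τ (γ.length - τ)) i
    rw [Pi.add_apply, show τ + (γ.length - τ) = γ.length by omega, pos_of_mem_cyl_length hs',
      hγ.1] at e2
    have e3 : pos s' τ i = ((j * m : ℕ) : ℤ) := by
      rw [pos, hpre τ hτ]
      exact h1.1
    omega

theorem hit_disjoint {i : Fin d} {L : ℤ} {γ γ' : List (Step d)} (hγ : Hit i L γ)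
    (hγ' : Hit i L γ') (hne : γ ≠ γ') : Disjoint (cyl γ) (cyl γ') := by
  rw [Set.disjoint_left]
  intro s h1 h2
  have e1 := (mem_cyl_iff s γ).1 h1
  have e2 := (mem_cyl_iff s γ').1 h2
  have h3 := hit_unique (s := s) (m := γ.length) (n := γ'.length) (by rw [e1]; exact hγ)
    (by rw [e2]; exact hγ')
  apply hne
  rw [← e1, ← e2, h3]

theorem slabA_succ {ν : Measure (ℕ → Step d)} (h : Law ν) (i : Fin d) (m t J : ℕ) :
    ν (slabA i m t (J + 1)) ≤ (1 - ν (Slab i m t)) * ν (slabA i m t J) := by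
  classical
  set S : Set (List (Step d)) := {γ | Hit i ((J * m : ℕ) : ℤ) γ} with hS
  have hsub : slabA i m t (J + 1) ⊆
      ⋃ γ ∈ S, (slabA i m t J ∩ (cyl γ ∩ shift γ.length ⁻¹' (Slab i m t)ᶜ)) := by
    intro s hs
    obtain ⟨τ, h1, h2⟩ := hs J (Nat.lt_succ_self J)
    refine Set.mem_biUnion (x := pre s τ) h1 ⟨fun j hj => hs j (by omega), pre_mem_cyl s τ, ?_⟩
    rw [pre_length]
    exact h2
  have hterm : ∀ γ ∈ S, ν (slabA i m t J ∩ (cyl γ ∩ shift γ.length ⁻¹' (Slab i m t)ᶜ)) ≤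
      (1 - ν (Slab i m t)) * ν (slabA i m t J ∩ cyl γ) := by
    intro γ hγ
    by_cases hex : ∃ s, s ∈ slabA i m t J ∩ cyl γ
    · obtain ⟨s, hsA, hsc⟩ := hex
      have h1 : slabA i m t J ∩ cyl γ = cyl γ :=
        Set.inter_eq_right.2 fun s' hs' => slabA_det hγ hsc hs' hsA
      rw [h1, mul_comm, ← slab_compl h m t hγ]
      exact measure_mono Set.inter_subset_right
    · have h1 : slabA i m t J ∩ (cyl γ ∩ shift γ.length ⁻¹' (Slab i m t)ᶜ) = ∅ := by
        rw [Set.eq_empty_iff_forall_notMem]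
        rintro s ⟨h1, h2, _⟩
        exact hex ⟨s, h1, h2⟩
      rw [h1, measure_empty]
      exact zero_le
  calc ν (slabA i m t (J + 1))
      ≤ ν (⋃ γ ∈ S, (slabA i m t J ∩ (cyl γ ∩ shift γ.length ⁻¹' (Slab i m t)ᶜ))) :=
        measure_mono hsub
    _ ≤ ∑' γ : S, ν (slabA i m t J ∩ (cyl (γ : List (Step d)) ∩
          shift (γ : List (Step d)).length ⁻¹' (Slab i m t)ᶜ)) :=
        measure_biUnion_le ν (Set.to_countable S) _
    _ ≤ ∑' γ : S, (1 - ν (Slab i m t)) * ν (slabA i m t J ∩ cyl (γ : List (Step d))) :=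
        ENNReal.tsum_le_tsum fun γ => hterm γ γ.2
    _ = (1 - ν (Slab i m t)) * ∑' γ : S, ν (slabA i m t J ∩ cyl (γ : List (Step d))) :=
        ENNReal.tsum_mul_left
    _ = (1 - ν (Slab i m t)) * ν (⋃ γ ∈ S, (slabA i m t J ∩ cyl γ)) := by
        rw [measure_biUnion (Set.to_countable S)]
        · intro a ha b hb hab
          exact (hit_disjoint ha hb hab).mono Set.inter_subset_right Set.inter_subset_right
        · intro γ _
          exact (measurableSet_slabA i m t J).inter (measurableSet_cyl γ)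
    _ ≤ (1 - ν (Slab i m t)) * ν (slabA i m t J) := by
        refine mul_le_mul_right (measure_mono ?_) _
        exact Set.iUnion₂_subset fun γ _ => Set.inter_subset_left

theorem slabA_pow {ν : Measure (ℕ → Step d)} (h : Law ν) (i : Fin d) (m t J : ℕ) :
    ν (slabA i m t J) ≤ (1 - ν (Slab i m t)) ^ J := by
  induction J with
  | zero =>
    rw [pow_zero, ← h.prob]
    exact measure_mono (Set.subset_univ _)
  | succ J ih =>
    refine (slabA_succ h i m t J).trans ?_
    rw [pow_succ, mul_comm]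
    exact mul_le_mul_left ih _

theorem slab_hit {i : Fin d} {s : ℕ → Step d} (L : ℕ) (hex : ∃ n, (L : ℤ) ≤ pos s n i) :
    ∃ n, Hit i (L : ℤ) (pre s n) := by
  classical
  refine ⟨Nat.find hex, ?_, ?_⟩
  · have h1 := Nat.find_spec hex
    refine le_antisymm ?_ h1
    rcases h : Nat.find hex with _ | m
    · simp only [pre_zero, endp_nil, Pi.zero_apply]; positivity
    · have h2 := Nat.find_min hex (show m < Nat.find hex by omega)
      have h3 : endp (pre s (m + 1)) = pos s m + vec (s m) := pos_succ s m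
      rw [h3, Pi.add_apply]
      have h4 := vec_le_one (s m) i
      push Not at h2
      linarith
  · intro k hk
    rw [pre_length] at hk
    have h2 := Nat.find_min hex hk
    push Not at h2
    rw [pre_take s hk.le]
    exact h2

theorem upP_sub {i : Fin d} {β b : ℝ} (hβ : 0 < β) {m t J : ℕ}
    (hJ : ((J * m : ℕ) : ℝ) ≤ (t : ℝ) ^ β - b) :
    UpP i (fun n => (n : ℝ) ^ β - b) ⊆ slabA i m t J := by
  intro s hs j hj
  have hex : ∃ n, ((j * m : ℕ) : ℤ) ≤ pos s n i := by
    have h1 : Tendsto (fun n : ℕ => (n : ℝ) ^ β - b) atTop atTop :=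
      tendsto_atTop_add_const_right _ _ ((tendsto_rpow_atTop hβ).comp tendsto_natCast_atTop_atTop)
    obtain ⟨n, hn⟩ := (h1.eventually_ge_atTop (((j * m : ℕ) : ℝ))).exists
    refine ⟨n, ?_⟩
    have h2 := (hs n).2
    have h3 : (((j * m : ℕ) : ℤ) : ℝ) ≤ (pos s n i : ℝ) := by
      push_cast
      push_cast at hn
      exact hn.trans h2
    exact_mod_cast h3
  obtain ⟨τ, hτ⟩ := slab_hit (j * m) hex
  refine ⟨τ, hτ, ?_⟩
  intro hin
  have h1 := (hin t le_rfl).2
  have h2 := (hs (τ + t)).2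
  have h3 : pos s (τ + t) i = pos s τ i + pos (shift τ s) t i := by
    rw [pos_add, Pi.add_apply]
  have h4 : pos s τ i = ((j * m : ℕ) : ℤ) := hτ.1
  have h5 : pos s (τ + t) i < ((J * m : ℕ) : ℤ) := by
    have : ((j * m : ℕ) : ℤ) + m ≤ ((J * m : ℕ) : ℤ) := by
      have : j * m + m ≤ J * m := by
        calc j * m + m = (j + 1) * m := by ring
          _ ≤ J * m := Nat.mul_le_mul_right m hj
      exact_mod_cast this
    rw [h3, h4]
    omega
  have h6 : (t : ℝ) ^ β ≤ ((τ + t : ℕ) : ℝ) ^ β := by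
    refine Real.rpow_le_rpow (Nat.cast_nonneg t) ?_ hβ.le
    push_cast
    have : (0 : ℝ) ≤ τ := Nat.cast_nonneg τ
    linarith
  have h7 : (pos s (τ + t) i : ℝ) < ((J * m : ℕ) : ℝ) := by
    have : ((pos s (τ + t) i : ℤ) : ℝ) < (((J * m : ℕ) : ℤ) : ℝ) := by exact_mod_cast h5
    simpa using this
  simp only at h2
  linarith

theorem slab {ν : Measure (ℕ → Step d)} (h : Law ν) (i : Fin d) {β b : ℝ} (hβ : 0 < β)
    (hb : 0 ≤ b) (hU : 0 < ν (UpP i (fun n => (n : ℝ) ^ β - b))) :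
    ∃ C : ℝ, 0 ≤ C ∧ ∀ m t : ℕ, 1 ≤ m → 1 ≤ t →
      ν (Slab i m t) ≤ ENNReal.ofReal (C * m / (t : ℝ) ^ β) := by
  set α : ℝ := (ν (UpP i (fun n => (n : ℝ) ^ β - b))).toReal with hα
  have hα0 : 0 < α := ENNReal.toReal_pos hU.ne' (h.ne_top _)
  have hα1 : α ≤ 1 := by
    have : ν (UpP i (fun n => (n : ℝ) ^ β - b)) ≤ 1 := by
      rw [← h.prob]; exact measure_mono (Set.subset_univ _)
    exact ENNReal.toReal_le_of_le_ofReal zero_le_one (by simpa using this)
  have hlog : 0 ≤ -Real.log α := by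
    have := Real.log_nonpos hα0.le hα1
    linarith
  refine ⟨2 * b + 2 + 4 * (-Real.log α), by positivity, ?_⟩
  intro m t hm ht
  have hm1 : (1 : ℝ) ≤ m := by exact_mod_cast hm
  have ht0 : (0 : ℝ) < t := by exact_mod_cast ht
  have htβ : 0 < (t : ℝ) ^ β := Real.rpow_pos_of_pos ht0 β
  have hh1 : ν (Slab i m t) ≤ 1 := by rw [← h.prob]; exact measure_mono (Set.subset_univ _)
  rcases lt_or_ge ((t : ℝ) ^ β) (2 * b + 2 * m) with hcase | hcase
  · refine hh1.trans ?_
    rw [← ENNReal.ofReal_one]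
    refine ENNReal.ofReal_le_ofReal ?_
    rw [le_div_iff₀ htβ, one_mul]
    nlinarith
  · set J : ℕ := ⌊((t : ℝ) ^ β - b) / m⌋₊ with hJ
    have hx : (1 : ℝ) ≤ ((t : ℝ) ^ β - b) / m := by
      rw [le_div_iff₀ (by linarith)]
      nlinarith
    have hJ1 : 1 ≤ J := by
      rw [hJ]
      exact Nat.le_floor (by simpa using hx)
    have hJle : ((J * m : ℕ) : ℝ) ≤ (t : ℝ) ^ β - b := by
      have h1 := Nat.floor_le (show (0 : ℝ) ≤ ((t : ℝ) ^ β - b) / m by linarith)
      rw [le_div_iff₀ (by linarith)] at h1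
      push_cast
      exact h1
    have hJge : (t : ℝ) ^ β / (4 * m) ≤ J := by
      have h1 := Nat.lt_floor_add_one (((t : ℝ) ^ β - b) / m)
      rw [← hJ] at h1
      have h2 : ((t : ℝ) ^ β) / (2 * m) ≤ ((t : ℝ) ^ β - b) / m := by
        rw [div_le_div_iff₀ (by linarith) (by linarith)]
        nlinarith
      have h3 : (1 : ℝ) ≤ J := by exact_mod_cast hJ1
      have h4 : (t : ℝ) ^ β / (4 * m) = (t : ℝ) ^ β / (2 * m) / 2 := by
        rw [div_div]
        ring_nf
      rw [h4]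
      linarith
    have h1 : ν (UpP i (fun n => (n : ℝ) ^ β - b)) ≤ (1 - ν (Slab i m t)) ^ J :=
      (measure_mono (upP_sub hβ hJle)).trans (slabA_pow h i m t J)
    set hr : ℝ := (ν (Slab i m t)).toReal with hhr
    have hhr1 : hr ≤ 1 := ENNReal.toReal_le_of_le_ofReal zero_le_one (by simpa using hh1)
    have hhr0 : 0 ≤ hr := ENNReal.toReal_nonneg
    have h2 : α ≤ (1 - hr) ^ J := by
      have h3 := ENNReal.toReal_mono (ENNReal.pow_ne_top
        (ne_top_of_le_ne_top ENNReal.one_ne_top tsub_le_self)) h1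
      rw [ENNReal.toReal_pow, ENNReal.toReal_sub_of_le hh1 ENNReal.one_ne_top,
        ENNReal.toReal_one] at h3
      exact h3
    have h3 : α ≤ Real.exp (-(hr * J)) := by
      refine h2.trans ?_
      have h4 : 1 - hr ≤ Real.exp (-hr) := by
        have := Real.add_one_le_exp (-hr)
        linarith
      calc (1 - hr) ^ J ≤ (Real.exp (-hr)) ^ J := pow_le_pow_left₀ (by linarith) h4 J
        _ = Real.exp (-(hr * J)) := by rw [← Real.exp_nat_mul]; ring_nf
    have h4 : hr * J ≤ -Real.log α := by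
      have := (Real.log_le_iff_le_exp hα0).2 h3
      linarith
    have h5 : hr ≤ 4 * (-Real.log α) * m / (t : ℝ) ^ β := by
      rw [le_div_iff₀ htβ]
      have h6 : hr * ((t : ℝ) ^ β / (4 * m)) ≤ -Real.log α :=
        (mul_le_mul_of_nonneg_left hJge hhr0).trans h4
      rw [← mul_div_assoc, div_le_iff₀ (by linarith)] at h6
      linarith
    have h6 : ν (Slab i m t) = ENNReal.ofReal hr := (ENNReal.ofReal_toReal (h.ne_top _)).symm
    rw [h6]
    refine ENNReal.ofReal_le_ofReal (h5.trans ?_)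
    gcongr
    linarith

end Vale.Agent.Lib.P147H
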