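import Vale.Agent.Lib.P147H.Defs

open MeasureTheory ProbabilityTheory Filter
open scoped ENNReal

namespace Vale.Agent.Lib.P147H

open Vale.Agent.Lib.P147 Vale.Agent.Lib.P147G

variable {d : ℕ}

/-! ### TIP: many good tips, from the statements of the other modules as hypotheses -/

theorem tip_Wt_mono (ν : Measure (ℕ → Step d)) {P Q : List (Step d) → Prop}
    (h : ∀ γ, P γ → Q γ) : Wt ν P ≤ Wt ν Q := by
  unfold Wt
  refine ENNReal.tsum_le_tsum fun γ => ?_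
  by_cases h1 : P γ
  · simp [h1, h γ h1]
  · simp [h1]

/-- finite subadditivity of `Wt` -/
theorem tip_Wt_or (ν : Measure (ℕ → Step d)) (P Q : List (Step d) → Prop) :
    Wt ν (fun γ => P γ ∨ Q γ) ≤ Wt ν P + Wt ν Q := by
  unfold Wt
  rw [← ENNReal.tsum_add]
  refine ENNReal.tsum_le_tsum fun γ => ?_
  by_cases h1 : P γ
  · by_cases h2 : Q γ
    · simp [h1, h2]
    · simp [h1, h2]
  · by_cases h2 : Q γ
    · simp [h1, h2]
    · simp [h1, h2]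

theorem tip_Wt_exists (ν : Measure (ℕ → Step d)) (s : Finset ℕ) (P : ℕ → List (Step d) → Prop) :
    Wt ν (fun γ => ∃ j ∈ s, P j γ) ≤ ∑ j ∈ s, Wt ν (P j) := by
  induction s using Finset.induction_on with
  | empty => simp [Wt]
  | insert a s ha ih =>
    rw [Finset.sum_insert ha]
    refine le_trans (tip_Wt_mono ν (Q := fun γ => P a γ ∨ ∃ j ∈ s, P j γ) ?_) ?_
    · rintro γ ⟨j, hj, hP⟩
      rcases Finset.mem_insert.1 hj with rfl | hj
      · exact Or.inl hP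
      · exact Or.inr ⟨j, hj, hP⟩
    · exact le_trans (tip_Wt_or ν _ _) (add_le_add le_rfl ih)

/-- tail sums over finite sets -/
theorem tip_tail (f : ℕ → ℝ≥0∞) (j0 : ℕ) (s : Finset ℕ) (hs : ∀ j ∈ s, j0 ≤ j) :
    ∑ j ∈ s, f j ≤ ∑' k, f (k + j0) := by
  have h1 : ∑ j ∈ s, f j = ∑ k ∈ s.image (fun j => j - j0), f (k + j0) := by
    rw [Finset.sum_image]
    · refine Finset.sum_congr rfl fun j hj => ?_
      rw [Nat.sub_add_cancel (hs j hj)]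
    · intro a ha b hb hab
      have h1 := hs a ha
      have h2 := hs b hb
      simp only at hab
      omega
  rw [h1]
  exact ENNReal.sum_le_tsum _

/-- the number of late times after a cut -/
theorem tip_count {i : Fin d} {L l t₀ lam T : ℕ} {γ : List (Step d)} (hc : CutAt i γ l t₀)
    (hl : (l : ℤ) < (L : ℤ) - lam) (hT : γ.length ≤ t₀ + T) :
    ((Finset.range (γ.length + 1)).filter
      (fun k => (L : ℤ) - lam ≤ endp (γ.take k) i)).card ≤ T := by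
  have hsub : (Finset.range (γ.length + 1)).filter
      (fun k => (L : ℤ) - lam ≤ endp (γ.take k) i) ⊆ Finset.Ioc t₀ γ.length := by
    intro k hk
    rw [Finset.mem_filter, Finset.mem_range] at hk
    rw [Finset.mem_Ioc]
    refine ⟨?_, by omega⟩
    by_contra hlt
    push Not at hlt
    obtain ⟨ht0, hhit, -, -⟩ := hc
    have h1 : endp (γ.take k) i ≤ (l : ℤ) := by
      rcases Nat.lt_or_ge k t₀ with h | h
      · have h2 := hhit.2 k (by rw [List.length_take]; omega)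
        rw [List.take_take, Nat.min_eq_left h.le] at h2
        exact h2.le
      · have h3 : k = t₀ := le_antisymm hlt h
        rw [h3]; exact hhit.1.le
    linarith [hk.2]
  refine le_trans (Finset.card_le_card hsub) ?_
  rw [Nat.card_Ioc]; omega

/-- good paths are tips -/
theorem tip_good {i : Fin d} {L : ℕ} {M1 κ : ℝ} {j0 : ℕ} {γ : List (Step d)} (hL : 1 ≤ L)
    (hM1 : 0 < M1) (hκ : 0 < κ) (hcr : Cr i L γ) (hlen : γ.length ≤ ⌈M1 * (L : ℝ) ^ κ⌉₊)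
    (hcut : ∀ j, j0 ≤ j → 2 * 2 ^ j ≤ L → ∃ l t₀, l < L - 2 ^ j ∧ CutAt i γ l t₀ ∧
      γ.length ≤ t₀ + ⌈M1 * ((2 : ℝ) ^ j) ^ κ⌉₊ + 1) :
    Tip i L (M1 * ((2 : ℝ) ^ (j0 + 2)) ^ κ + 2) κ γ := by
  refine ⟨hcr, fun lam hlam => ?_⟩
  have hlam' : (1 : ℝ) ≤ lam := by exact_mod_cast hlam
  -- choose j
  obtain ⟨j, hj0, hj1, hj2⟩ : ∃ j, j0 ≤ j ∧ lam ≤ 2 ^ j ∧ (2 : ℝ) ^ j ≤ 2 ^ (j0 + 1) * lam := by
    refine ⟨max j0 (Nat.clog 2 lam), le_max_left _ _, ?_, ?_⟩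
    · exact le_trans (Nat.le_pow_clog (by norm_num) lam)
        (Nat.pow_le_pow_right (by norm_num) (le_max_right _ _))
    · rcases le_total (Nat.clog 2 lam) j0 with h | h
      · rw [max_eq_left h]
        have h1 : (2 : ℝ) ^ j0 ≤ 2 ^ (j0 + 1) := pow_le_pow_right₀ (by norm_num) (by omega)
        have h2 : (2 : ℝ) ^ (j0 + 1) * 1 ≤ 2 ^ (j0 + 1) * lam :=
          mul_le_mul_of_nonneg_left hlam' (by positivity)
        linarith
      · rw [max_eq_right h]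
        have h1 : (2 : ℝ) ^ (Nat.clog 2 lam) ≤ 2 * lam := by
          rcases Nat.lt_or_ge 1 lam with h2 | h2
          · have h3 := Nat.pow_pred_clog_lt_self (b := 2) (by norm_num) h2
            have h4 : 1 ≤ Nat.clog 2 lam := Nat.clog_pos (by norm_num) h2
            have h5 : (2 : ℕ) ^ (Nat.clog 2 lam) = 2 * 2 ^ (Nat.clog 2 lam).pred := by
              rw [← pow_succ']
              congr 1
              have : (Nat.clog 2 lam).pred = Nat.clog 2 lam - 1 := rfl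
              omega
            have h6 : (2 : ℕ) ^ (Nat.clog 2 lam) ≤ 2 * lam := by rw [h5]; omega
            exact_mod_cast h6
          · have h3 : lam = 1 := le_antisymm h2 hlam
            rw [h3]; norm_num
        have h2 : (2 : ℝ) * lam ≤ 2 ^ (j0 + 1) * lam := by
          refine mul_le_mul_of_nonneg_right ?_ (by linarith)
          calc (2 : ℝ) = 2 ^ 1 := by norm_num
            _ ≤ 2 ^ (j0 + 1) := pow_le_pow_right₀ (by norm_num) (by omega)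
        linarith
  have hlk : (1 : ℝ) ≤ (lam : ℝ) ^ κ := Real.one_le_rpow hlam' hκ.le
  -- the crude bound
  have hX : ∀ x : ℝ, 0 ≤ x → x ≤ 2 ^ (j0 + 2) * lam → M1 * x ^ κ + 2 ≤
      (M1 * ((2 : ℝ) ^ (j0 + 2)) ^ κ + 2) * (lam : ℝ) ^ κ := by
    intro x hx0 hx
    have h1 : x ^ κ ≤ ((2 : ℝ) ^ (j0 + 2) * lam) ^ κ := Real.rpow_le_rpow hx0 hx hκ.le
    rw [Real.mul_rpow (by positivity) (by positivity)] at h1
    have h2 : M1 * x ^ κ ≤ M1 * (((2 : ℝ) ^ (j0 + 2)) ^ κ * (lam : ℝ) ^ κ) :=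
      mul_le_mul_of_nonneg_left h1 hM1.le
    nlinarith
  rcases le_or_gt (2 * 2 ^ j) L with hjL | hjL
  · obtain ⟨l, t₀, hl, hc, ht⟩ := hcut j hj0 hjL
    have h1 := tip_count (L := L) (lam := lam) (T := ⌈M1 * ((2 : ℝ) ^ j) ^ κ⌉₊ + 1) hc
      (by
        have h2 : (l : ℤ) < (L : ℤ) - (2 : ℕ) ^ j := by
          have h3 : (2 : ℕ) ^ j ≤ L := by omega
          push_cast
          have : l + 2 ^ j < L := by omega
          exact_mod_cast (by omega : (l : ℤ) < (L : ℤ) - ((2 ^ j : ℕ) : ℤ))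
        have h3 : (lam : ℤ) ≤ ((2 ^ j : ℕ) : ℤ) := by exact_mod_cast hj1
        push_cast at h2 h3 ⊢
        linarith) (by omega)
    have h2 : ((⌈M1 * ((2 : ℝ) ^ j) ^ κ⌉₊ + 1 : ℕ) : ℝ) ≤ M1 * ((2 : ℝ) ^ j) ^ κ + 2 := by
      push_cast
      have := (Nat.ceil_lt_add_one (a := M1 * ((2 : ℝ) ^ j) ^ κ) (by positivity)).le
      linarith
    have h3 := hX ((2 : ℝ) ^ j) (by positivity) (by
      have h4 : (2 : ℝ) ^ (j0 + 2) = 2 * 2 ^ (j0 + 1) := by ring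
      have h5 : (0 : ℝ) < 2 ^ (j0 + 1) := by positivity
      rw [h4]; nlinarith)
    calc _ ≤ ((⌈M1 * ((2 : ℝ) ^ j) ^ κ⌉₊ + 1 : ℕ) : ℝ) := by exact_mod_cast h1
      _ ≤ _ := by linarith
  · have h1 : ((Finset.range (γ.length + 1)).filter
        (fun k => (L : ℤ) - lam ≤ endp (γ.take k) i)).card ≤ ⌈M1 * (L : ℝ) ^ κ⌉₊ + 1 := by
      refine le_trans (Finset.card_filter_le _ _) ?_
      rw [Finset.card_range]; omega
    have h2 : ((⌈M1 * (L : ℝ) ^ κ⌉₊ + 1 : ℕ) : ℝ) ≤ M1 * (L : ℝ) ^ κ + 2 := by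
      push_cast
      have := (Nat.ceil_lt_add_one (a := M1 * (L : ℝ) ^ κ) (by positivity)).le
      linarith
    have h3 := hX (L : ℝ) (by positivity) (by
      have h4 : (2 : ℝ) ^ (j0 + 2) = 2 * 2 ^ (j0 + 1) := by ring
      have h5 : (L : ℝ) ≤ 2 * 2 ^ j := by
        have : (L : ℝ) < ((2 * 2 ^ j : ℕ) : ℝ) := by exact_mod_cast hjL
        push_cast at this
        linarith
      rw [h4]; nlinarith)
    calc _ ≤ ((⌈M1 * (L : ℝ) ^ κ⌉₊ + 1 : ℕ) : ℝ) := by exact_mod_cast h1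
      _ ≤ _ := by linarith

theorem tips_of {ν : Measure (ℕ → Step d)} (i : Fin d) {β b κ : ℝ} (hβ : 0 < β)
    (hU : 0 < ν (UpP i (fun n => (n : ℝ) ^ β - b))) (hκ : 2 / β < κ)
    (hcr : ∀ m, ν (UpP i (fun n => (n : ℝ) ^ β - b)) ≤ cr ν i m) (hcr1 : ∀ m, cr ν i m ≤ 1)
    (hslab : ∃ C : ℝ, 0 ≤ C ∧ ∀ m t : ℕ, 1 ≤ m → 1 ≤ t →
      ν (Slab i m t) ≤ ENNReal.ofReal (C * m / (t : ℝ) ^ β))
    (hnc : ∃ A : ℕ → ℝ≥0∞, Antitone A ∧ (∀ N m, m ≤ N → nc ν i N m ≤ A m) ∧ ∑' m, A m ≠ ⊤)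
    (hwin : ∃ C : ℝ≥0∞, C ≠ ⊤ ∧ ∀ L lam : ℕ, 1 ≤ lam → 2 * lam ≤ L →
      Wt ν (fun γ => Cr i L γ ∧ ∀ l, L - 2 * lam ≤ l → l < L - lam → ¬ Cut i γ l) ≤
        C * (lam + 1) * nc ν i (L + 1) lam)
    (hlong0 : ∀ L t : ℕ, Wt ν (fun γ => Cr i L γ ∧ t < γ.length) ≤ ν (Slab i L t))
    (hlong : ∀ L lam t : ℕ, 1 ≤ lam → 2 * lam ≤ L →
      Wt ν (fun γ => Cr i L γ ∧ ∃ l t₀, L - 2 * lam ≤ l ∧ l < L - lam ∧ CutAt i γ l t₀ ∧
        t₀ + t + 1 < γ.length) ≤ lam * ν (Slab i (2 * lam) t)) :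
    ∃ (M : ℝ) (δ : ℝ≥0∞), 0 < M ∧ 0 < δ ∧ ∀ L : ℕ, 1 ≤ L → δ ≤ Wt ν (Tip i L M κ) := by
  have hκ2 : 2 < κ * β := by rwa [div_lt_iff₀ hβ] at hκ
  have hκ0 : 0 < κ := lt_trans (by positivity) hκ
  set δ0 := ν (UpP i (fun n => (n : ℝ) ^ β - b)) with hδ0
  have hδtop : δ0 ≠ ⊤ := ne_top_of_le_ne_top ENNReal.one_ne_top (le_trans (hcr 0) (hcr1 0))
  obtain ⟨C1, hC1, hslab⟩ := hslab
  obtain ⟨A, hAanti, hAnc, hAsum⟩ := hnc
  obtain ⟨C2, hC2, hwin⟩ := hwin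
  -- the tail of no-cuts
  set f : ℕ → ℝ≥0∞ := fun j => C2 * ((2 : ℝ≥0∞) ^ j + 1) * A (2 ^ j) with hf
  have hfsum : ∑' j, f j ≠ ⊤ := by
    have h1 : ∑' k : ℕ, (2 : ℝ≥0∞) ^ k * A (2 ^ k) ≤ A 1 + 2 * ∑' k, A k := by
      have := ENNReal.tsum_condensed_le (f := A) (fun m n _ hmn => hAanti hmn)
      exact_mod_cast this
    have h2 : A 1 + 2 * ∑' k, A k ≠ ⊤ := by
      refine ENNReal.add_ne_top.2 ⟨?_, ENNReal.mul_ne_top (by norm_num) hAsum⟩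
      exact ne_top_of_le_ne_top hAsum (ENNReal.le_tsum 1)
    have h3 : ∑' j, f j ≤ ∑' j : ℕ, (2 * C2) * ((2 : ℝ≥0∞) ^ j * A (2 ^ j)) := by
      refine ENNReal.tsum_le_tsum fun j => ?_
      have h4 : (2 : ℝ≥0∞) ^ j + 1 ≤ 2 * 2 ^ j := by
        rw [two_mul]
        exact add_le_add le_rfl (one_le_pow₀ (by norm_num))
      calc f j = C2 * ((2 : ℝ≥0∞) ^ j + 1) * A (2 ^ j) := rfl
        _ ≤ C2 * (2 * 2 ^ j) * A (2 ^ j) := by gcongr
        _ = (2 * C2) * ((2 : ℝ≥0∞) ^ j * A (2 ^ j)) := by ring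
    refine ne_top_of_le_ne_top ?_ h3
    rw [ENNReal.tsum_mul_left]
    exact ENNReal.mul_ne_top (ENNReal.mul_ne_top (by norm_num) hC2) (ne_top_of_le_ne_top h2 h1)
  have hδ8 : 0 < δ0 / 8 := ENNReal.div_pos hU.ne' (by norm_num)
  obtain ⟨j0, hj0⟩ : ∃ j0, ∑' k, f (k + j0) ≤ δ0 / 8 := by
    have h1 := ENNReal.tendsto_sum_nat_add f hfsum
    have h2 := (ENNReal.tendsto_nhds_zero.1 h1) (δ0 / 8) hδ8
    exact h2.exists
  -- the geometric part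
  set ρ : ℝ := (2 : ℝ) ^ (2 - κ * β) with hρ
  have hρ0 : 0 < ρ := Real.rpow_pos_of_pos (by norm_num) _
  have hρ1 : ρ < 1 := Real.rpow_lt_one_of_one_lt_of_neg (by norm_num) (by linarith)
  set δr := δ0.toReal with hδr
  have hδr0 : 0 < δr := ENNReal.toReal_pos hU.ne' hδtop
  have hδr8 : ENNReal.ofReal (δr / 8) = δ0 / 8 := by
    rw [ENNReal.ofReal_div_of_pos (by norm_num), hδr, ENNReal.ofReal_toReal hδtop]
    norm_num
  obtain ⟨M1, hM1, hM1a, hM1b⟩ : ∃ M1 : ℝ, 0 < M1 ∧ C1 / M1 ^ β ≤ δr / 8 ∧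
      2 * C1 / M1 ^ β / (1 - ρ) ≤ δr / 8 := by
    have h1 : Tendsto (fun x : ℝ => x ^ β) atTop atTop := tendsto_rpow_atTop hβ
    have h2 := h1.eventually_ge_atTop (8 * C1 / δr)
    have h3 := h1.eventually_ge_atTop (16 * C1 / (1 - ρ) / δr)
    obtain ⟨M1, ⟨h4, h5⟩, h6⟩ := ((h2.and h3).and (eventually_gt_atTop (0 : ℝ))).exists
    have h7 : 0 < M1 ^ β := Real.rpow_pos_of_pos h6 _
    refine ⟨M1, h6, ?_, ?_⟩
    · rw [div_le_iff₀ h7]
      rw [div_le_iff₀ hδr0] at h4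
      linarith
    · have h8 : 0 < 1 - ρ := by linarith
      rw [div_le_iff₀ h8, div_le_iff₀ h7]
      rw [div_le_iff₀ hδr0, div_le_iff₀ h8] at h5
      nlinarith
  have hM1β : 0 < M1 ^ β := Real.rpow_pos_of_pos hM1 _
  set T : ℝ → ℕ := fun x => ⌈M1 * x ^ κ⌉₊ with hT
  have hTpos : ∀ x : ℝ, 1 ≤ x → 1 ≤ T x := by
    intro x hx
    have : 0 < M1 * x ^ κ := by positivity
    exact Nat.one_le_ceil_iff.2 this
  have hTβ : ∀ x : ℝ, 1 ≤ x → M1 ^ β * x ^ (κ * β) ≤ (T x : ℝ) ^ β := by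
    intro x hx
    have h1 : M1 * x ^ κ ≤ T x := Nat.le_ceil _
    have h2 : (M1 * x ^ κ) ^ β ≤ (T x : ℝ) ^ β :=
      Real.rpow_le_rpow (by positivity) h1 hβ.le
    rwa [Real.mul_rpow hM1.le (by positivity), ← Real.rpow_mul (by linarith)] at h2
  refine ⟨M1 * ((2 : ℝ) ^ (j0 + 2)) ^ κ + 2, δ0 / 2, by positivity,
    ENNReal.div_pos hU.ne' (by norm_num), fun L hL => ?_⟩
  have hL' : (1 : ℝ) ≤ L := by exact_mod_cast hL
  set s : Finset ℕ := (Finset.range L).filter (fun j => j0 ≤ j ∧ 2 * 2 ^ j ≤ L) with hs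
  set E0 : List (Step d) → Prop := fun γ => Cr i L γ ∧ T L < γ.length with hE0
  set E1 : ℕ → List (Step d) → Prop := fun j γ =>
    Cr i L γ ∧ ∀ l, L - 2 * 2 ^ j ≤ l → l < L - 2 ^ j → ¬ Cut i γ l with hE1
  set E2 : ℕ → List (Step d) → Prop := fun j γ =>
    Cr i L γ ∧ ∃ l t₀, L - 2 * 2 ^ j ≤ l ∧ l < L - 2 ^ j ∧ CutAt i γ l t₀ ∧
      t₀ + T ((2 : ℝ) ^ j) + 1 < γ.length with hE2
  -- bounds
  have hb0 : Wt ν E0 ≤ δ0 / 8 := by
    refine le_trans (hlong0 L (T L)) (le_trans (hslab L (T L) hL (hTpos _ hL')) ?_)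
    rw [← hδr8]
    refine ENNReal.ofReal_le_ofReal (le_trans ?_ hM1a)
    have h1 := hTβ L hL'
    have h2 : (L : ℝ) ≤ (L : ℝ) ^ (κ * β) := by
      calc (L : ℝ) = (L : ℝ) ^ (1 : ℝ) := (Real.rpow_one _).symm
        _ ≤ (L : ℝ) ^ (κ * β) := Real.rpow_le_rpow_of_exponent_le hL' (by linarith)
    have h3 : 0 < (T L : ℝ) ^ β := lt_of_lt_of_le (by positivity) h1
    rw [div_le_div_iff₀ h3 hM1β]
    have h4 : M1 ^ β * (L : ℝ) ≤ (T L : ℝ) ^ β :=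
      le_trans (mul_le_mul_of_nonneg_left h2 hM1β.le) h1
    nlinarith
  have hb1 : ∑ j ∈ s, Wt ν (E1 j) ≤ δ0 / 8 := by
    refine le_trans (Finset.sum_le_sum (g := f) fun j hj => ?_)
      (le_trans (tip_tail f j0 s fun j hj => (Finset.mem_filter.1 hj).2.1) hj0)
    obtain ⟨-, -, hjL⟩ := Finset.mem_filter.1 hj
    have h1 := hwin L (2 ^ j) (Nat.one_le_two_pow) hjL
    refine le_trans h1 ?_
    have h2 : nc ν i (L + 1) (2 ^ j) ≤ A (2 ^ j) := hAnc _ _ (by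
      have : 1 ≤ 2 ^ j := Nat.one_le_two_pow
      omega)
    have h3 : (((2 ^ j : ℕ) : ℝ≥0∞)) = (2 : ℝ≥0∞) ^ j := by push_cast; rfl
    rw [h3]
    exact mul_le_mul_right h2 _
  have hb2 : ∑ j ∈ s, Wt ν (E2 j) ≤ δ0 / 8 := by
    have hK : 0 ≤ 2 * C1 / M1 ^ β := by positivity
    have h0 : ∀ j ∈ s, Wt ν (E2 j) ≤ ENNReal.ofReal (2 * C1 / M1 ^ β * ρ ^ j) := by
      intro j hj
      obtain ⟨-, -, hjL⟩ := Finset.mem_filter.1 hj
      have hx : (1 : ℝ) ≤ (2 : ℝ) ^ j := one_le_pow₀ (by norm_num)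
      have h1 := hlong L (2 ^ j) (T ((2 : ℝ) ^ j)) Nat.one_le_two_pow hjL
      refine le_trans h1 ?_
      have h2 := hslab (2 * 2 ^ j) (T ((2 : ℝ) ^ j))
        (by have : 1 ≤ 2 ^ j := Nat.one_le_two_pow
            omega) (hTpos _ hx)
      have h3 : (((2 ^ j : ℕ) : ℝ≥0∞)) = ENNReal.ofReal ((2 : ℝ) ^ j) := by
        rw [← ENNReal.ofReal_natCast]; push_cast; rfl
      rw [h3]
      refine le_trans (mul_le_mul_right h2 _) ?_
      rw [← ENNReal.ofReal_mul (by positivity)]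
      refine ENNReal.ofReal_le_ofReal ?_
      have h4 := hTβ _ hx
      have h5 : ρ ^ j = ((2 : ℝ) ^ j) ^ (2 : ℝ) / ((2 : ℝ) ^ j) ^ (κ * β) := by
        rw [← Real.rpow_sub (by positivity), hρ, ← Real.rpow_natCast, ← Real.rpow_mul (by norm_num),
          ← Real.rpow_natCast, ← Real.rpow_mul (by norm_num)]
        ring_nf
      rw [h5]
      have h6 : 0 < M1 ^ β * ((2 : ℝ) ^ j) ^ (κ * β) := by positivity
      have h7 : 0 < (T ((2 : ℝ) ^ j) : ℝ) ^ β := lt_of_lt_of_le h6 h4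
      have h8 : ((2 : ℝ) ^ j) ^ (2 : ℝ) = (2 : ℝ) ^ j * (2 : ℝ) ^ j := by
        rw [show (2 : ℝ) = ((2 : ℕ) : ℝ) by norm_num, Real.rpow_natCast]; ring
      rw [h8]
      push_cast
      rw [← mul_div_assoc]
      calc 2 ^ j * (C1 * (2 * 2 ^ j)) / (T ((2 : ℝ) ^ j) : ℝ) ^ β
          ≤ 2 ^ j * (C1 * (2 * 2 ^ j)) / (M1 ^ β * ((2 : ℝ) ^ j) ^ (κ * β)) :=
            div_le_div_of_nonneg_left (by positivity) h6 h4
        _ = 2 * C1 / M1 ^ β * ((2 : ℝ) ^ j * (2 : ℝ) ^ j / ((2 : ℝ) ^ j) ^ (κ * β)) := by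
            field_simp
    refine le_trans (Finset.sum_le_sum h0) ?_
    rw [← ENNReal.ofReal_sum_of_nonneg (fun j _ => by positivity), ← hδr8]
    refine ENNReal.ofReal_le_ofReal (le_trans ?_ hM1b)
    have h9 := (summable_geometric_of_lt_one hρ0.le hρ1).sum_le_tsum s
      (fun j _ => by positivity)
    rw [tsum_geometric_of_lt_one hρ0.le hρ1] at h9
    rw [← Finset.mul_sum, div_eq_mul_inv (2 * C1 / M1 ^ β)]
    exact mul_le_mul_of_nonneg_left h9 hK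
  -- assembly
  have hmain : cr ν i L ≤ Wt ν (Tip i L (M1 * ((2 : ℝ) ^ (j0 + 2)) ^ κ + 2) κ) +
      (δ0 / 8 + (δ0 / 8 + δ0 / 8)) := by
    have h1 : cr ν i L ≤ Wt ν (fun γ => Tip i L (M1 * ((2 : ℝ) ^ (j0 + 2)) ^ κ + 2) κ γ ∨
        (E0 γ ∨ ((∃ j ∈ s, E1 j γ) ∨ ∃ j ∈ s, E2 j γ))) := by
      refine tip_Wt_mono ν fun γ hγ => ?_
      by_contra hno
      push Not at hno
      obtain ⟨hn1, hn2, hn3, hn4⟩ := hno
      apply hn1
      refine tip_good hL hM1 hκ0 hγ ?_ ?_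
      · by_contra hlt
        push Not at hlt
        exact hn2 ⟨hγ, hlt⟩
      · intro j hj hjL
        have hjs : j ∈ s := by
          rw [hs, Finset.mem_filter, Finset.mem_range]
          refine ⟨?_, hj, hjL⟩
          have : j < 2 ^ j := Nat.lt_two_pow_self
          omega
        have h2 := hn3 j hjs
        have h3 : ∃ l, L - 2 * 2 ^ j ≤ l ∧ l < L - 2 ^ j ∧ Cut i γ l := by
          by_contra hno2
          push Not at hno2
          exact h2 ⟨hγ, fun l hl1 hl2 => hno2 l hl1 hl2⟩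
        obtain ⟨l, hl1, hl2, t₀, hc⟩ := h3
        refine ⟨l, t₀, hl2, hc, ?_⟩
        by_contra hlt
        push Not at hlt
        exact hn4 j hjs ⟨hγ, l, t₀, hl1, hl2, hc, hlt⟩
    refine le_trans h1 (le_trans (tip_Wt_or ν _ _) (add_le_add le_rfl ?_))
    refine le_trans (tip_Wt_or ν _ _) (add_le_add hb0 ?_)
    refine le_trans (tip_Wt_or ν _ _) (add_le_add ?_ ?_)
    · exact le_trans (tip_Wt_exists ν s E1) hb1
    · exact le_trans (tip_Wt_exists ν s E2) hb2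
  have h2 : δ0 ≤ Wt ν (Tip i L (M1 * ((2 : ℝ) ^ (j0 + 2)) ^ κ + 2) κ) +
      (δ0 / 8 + (δ0 / 8 + δ0 / 8)) := le_trans (hcr L) hmain
  have h3 : δ0 / 8 + (δ0 / 8 + δ0 / 8) ≤ δ0 / 2 := by
    have h4 : δ0 / 8 = ENNReal.ofReal (δr / 8) := hδr8.symm
    have h5 : δ0 / 2 = ENNReal.ofReal (δr / 2) := by
      rw [ENNReal.ofReal_div_of_pos (by norm_num), hδr, ENNReal.ofReal_toReal hδtop]
      norm_num
    rw [h4, h5, ← ENNReal.ofReal_add (by positivity) (by positivity),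
      ← ENNReal.ofReal_add (by positivity) (by positivity)]
    exact ENNReal.ofReal_le_ofReal (by linarith)
  have h6 : δ0 ≤ Wt ν (Tip i L (M1 * ((2 : ℝ) ^ (j0 + 2)) ^ κ + 2) κ) + δ0 / 2 :=
    le_trans h2 (add_le_add le_rfl h3)
  have h7 : δ0 / 2 + δ0 / 2 = δ0 := ENNReal.add_halves δ0
  have h8 : δ0 / 2 ≠ ⊤ := (ENNReal.div_lt_top hδtop (by norm_num)).ne
  by_contra hlt
  push Not at hlt
  have h9 := ENNReal.add_lt_add_right h8 hlt
  rw [h7] at h9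
  exact absurd h6 (not_le.2 h9)

end Vale.Agent.Lib.P147H
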