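import Vale.Agent.Lib.P147H.StartUp
import Vale.Agent.Lib.P147H.Slab
import Vale.Agent.Lib.P147H.CutCat
import Vale.Agent.Lib.P147H.Long
import Vale.Agent.Lib.P147H.CutWin
import Vale.Agent.Lib.P147H.CutSum
import Vale.Agent.Lib.P147H.Tip

/-! P147, third version: many good tips (assembly of the modules). -/

open MeasureTheory ProbabilityTheory Filter
open scoped ENNReal

namespace Vale.Agent.Lib.P147H

open Vale.Agent.Lib.P147 Vale.Agent.Lib.P147G

variable {d : ℕ}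

theorem tips {ν : Measure (ℕ → Step d)} (h : Law ν) (i : Fin d) {β b κ : ℝ} (hβ : 0 < β)
    (_hβ1 : β ≤ 1) (hb : 0 ≤ b) (hU : 0 < ν (UpP i (fun n => (n : ℝ) ^ β - b))) (hκ : 2 / β < κ) :
    ∃ (M : ℝ) (δ : ℝ≥0∞), 0 < M ∧ 0 < δ ∧ ∀ L : ℕ, 1 ≤ L → δ ≤ Wt ν (Tip i L M κ) := by
  have hψ : Tendsto (fun n : ℕ => (n : ℝ) ^ β - b) atTop atTop :=
    tendsto_atTop_add_const_right _ _
      ((tendsto_rpow_atTop hβ).comp tendsto_natCast_atTop_atTop)
  have hcr : ∀ m, ν (UpP i (fun n => (n : ℝ) ^ β - b)) ≤ cr ν i m := fun m => cr_lower h i hψ m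
  have hcr1 : ∀ m, cr ν i m ≤ 1 := fun m => by
    have := Wt_Cr_le h i m (fun _ => True)
    simpa [cr] using this
  exact tips_of i hβ hU hκ hcr hcr1 (slab h i hβ hb hU) (nc_sum h i hU hcr)
    (cut_window h i hU hcr) (fun L t => long0 h i L t) (fun L lam t h1 h2 => long h i L lam t h1 h2)

end Vale.Agent.Lib.P147H
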