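import Vale.Agent.Lib.P147G.MainG
import Vale.Agent.Lib.P147H.Tips
import Vale.Agent.Lib.P147H.TipSum
import Vale.Agent.Lib.P147H.Green3

/-! P147, third version: polynomial escape on both sides. -/

open MeasureTheory ProbabilityTheory Filter
open scoped ENNReal

namespace Vale.Agent.Lib.P147H

open Vale.Agent.Lib.P147 Vale.Agent.Lib.P147G

variable {d : ℕ}

open Classical in
/-- the collisions behind a good tip -/
theorem tip_coll {i : Fin d} {L : ℕ} {M κ τ B0 C' ε : ℝ} {Λ Λ1 q : ℕ} (hM : 0 < M)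
    (hκ : 0 < κ) (hB0 : 0 ≤ B0) (hC' : 0 ≤ C') (hΛ1 : 1 ≤ Λ1) (hΛΛ1 : Λ ≤ Λ1)
    (hΛ : ∀ (s : Finset ℕ) (D : ℕ → ℕ),
      (∀ n : ℕ, 1 ≤ n → (((s.filter (fun k => D k ≤ n)).card : ℕ) : ℝ) ≤ M * (n : ℝ) ^ κ) →
      ∑ k ∈ s.filter (fun k => Λ ≤ D k), ((D k : ℝ) ^ τ)⁻¹ ≤ ε)
    (R : ℕ) {γ : List (Step d)} (hγ : Tip i (L + 1) M κ γ) :
    (∑ k ∈ Finset.range (γ.length + 1),
      (if ((L : ℤ) + 2 - endp (γ.take k) i).toNat < Λ1 then ENNReal.ofReal B0 else
        ENNReal.ofReal ((R : ℝ) ^ q * (C' *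
          (((((L : ℤ) + 2 - endp (γ.take k) i).toNat : ℕ) : ℝ) ^ τ)⁻¹)))) ≤
      ENNReal.ofReal (B0 * (M * (Λ1 : ℝ) ^ κ) + (R : ℝ) ^ q * (C' * ε)) := by
  set D : ℕ → ℕ := fun k => ((L : ℤ) + 2 - endp (γ.take k) i).toNat with hD
  set s : Finset ℕ := Finset.range (γ.length + 1) with hs
  have hcount : ∀ n : ℕ, 1 ≤ n →
      (((s.filter (fun k => D k ≤ n)).card : ℕ) : ℝ) ≤ M * (n : ℝ) ^ κ := by
    intro n hn
    have h1 := hγ.2 (max 1 (n - 1)) (le_max_left _ _)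
    have h2 : (s.filter (fun k => D k ≤ n)).card ≤ ((Finset.range (γ.length + 1)).filter
        (fun k => (((L + 1 : ℕ) : ℤ)) - ((max 1 (n - 1) : ℕ) : ℤ) ≤ endp (γ.take k) i)).card := by
      refine Finset.card_le_card ?_
      intro k hk
      rw [Finset.mem_filter] at hk ⊢
      refine ⟨hk.1, ?_⟩
      have h3 := hk.2
      simp only [hD] at h3
      have h4 : ((L : ℤ) + 2 - endp (γ.take k) i) ≤ n := by
        have := Int.self_le_toNat ((L : ℤ) + 2 - endp (γ.take k) i)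
        have h5 : (((((L : ℤ) + 2 - endp (γ.take k) i).toNat : ℕ)) : ℤ) ≤ n := by exact_mod_cast h3
        linarith
      push_cast
      rcases le_total (n - 1) 1 with h6 | h6
      · rw [max_eq_left (by exact_mod_cast h6)]
        omega
      · rw [max_eq_right (by exact_mod_cast h6)]
        omega
    calc (((s.filter (fun k => D k ≤ n)).card : ℕ) : ℝ) ≤ _ := by exact_mod_cast h2
      _ ≤ M * ((max 1 (n - 1) : ℕ) : ℝ) ^ κ := h1
      _ ≤ M * (n : ℝ) ^ κ := by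
        refine mul_le_mul_of_nonneg_left ?_ hM.le
        refine Real.rpow_le_rpow (by positivity) ?_ hκ.le
        exact_mod_cast max_le hn (Nat.sub_le _ _)
  have hfar := hΛ s D hcount
  have hnear := hcount Λ1 hΛ1
  rw [← Finset.sum_filter_add_sum_filter_not s (fun k => D k < Λ1)]
  have e1 : ∑ k ∈ s.filter (fun k => D k < Λ1), (if D k < Λ1 then ENNReal.ofReal B0 else
        ENNReal.ofReal ((R : ℝ) ^ q * (C' * ((D k : ℝ) ^ τ)⁻¹))) ≤
      ENNReal.ofReal (B0 * (M * (Λ1 : ℝ) ^ κ)) := by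
    rw [Finset.sum_congr rfl (fun k hk => if_pos (Finset.mem_filter.1 hk).2), Finset.sum_const,
      nsmul_eq_mul, ← ENNReal.ofReal_natCast, ← ENNReal.ofReal_mul (by positivity)]
    apply ENNReal.ofReal_le_ofReal
    rw [mul_comm]
    refine mul_le_mul_of_nonneg_left (le_trans ?_ hnear) hB0
    have : (s.filter (fun k => D k < Λ1)).card ≤ (s.filter (fun k => D k ≤ Λ1)).card := by
      refine Finset.card_le_card ?_
      intro k hk
      rw [Finset.mem_filter] at hk ⊢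
      exact ⟨hk.1, hk.2.le⟩
    exact_mod_cast this
  have e2 : ∑ k ∈ s.filter (fun k => ¬ D k < Λ1), (if D k < Λ1 then ENNReal.ofReal B0 else
        ENNReal.ofReal ((R : ℝ) ^ q * (C' * ((D k : ℝ) ^ τ)⁻¹))) ≤
      ENNReal.ofReal ((R : ℝ) ^ q * (C' * ε)) := by
    rw [Finset.sum_congr rfl (fun k hk => if_neg (Finset.mem_filter.1 hk).2),
      ← ENNReal.ofReal_sum_of_nonneg]
    · apply ENNReal.ofReal_le_ofReal
      rw [← Finset.mul_sum, ← Finset.mul_sum]
      refine mul_le_mul_of_nonneg_left (mul_le_mul_of_nonneg_left (le_trans ?_ hfar) hC')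
        (by positivity)
      refine Finset.sum_le_sum_of_subset_of_nonneg ?_ ?_
      · intro k hk
        rw [Finset.mem_filter] at hk ⊢
        exact ⟨hk.1, hΛΛ1.trans (not_lt.1 hk.2)⟩
      · intro k _ _
        positivity
    · intro k _
      positivity
  refine (add_le_add e1 e2).trans ?_
  rw [← ENNReal.ofReal_add (by positivity)]
  by_cases hε : 0 ≤ ε
  · positivity
  · exfalso
    have h0 := hΛ ∅ (fun _ => 0) (by intro n _; simp; positivity)
    simp at h0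
    exact hε h0

open Classical in
theorem main3 {ν : Measure (ℕ → Step d)} (h : Law ν) (i : Fin d) {q : ℕ} (j : Fin q → Fin d)
    (hij : ∀ a, j a ≠ i) (hj : Function.Injective j) {β₁ β : ℝ} (hβ₁ : 0 < β₁) (hβ₁1 : β₁ ≤ 1)
    (hβ : 0 < β) (hβ1 : β ≤ 1) (hq3 : 2 / β₁ + 1 / β < (q : ℝ) / 2)
    (h1 : 0 < ν {s | ∀ᶠ n : ℕ in atTop, (n : ℝ) ^ β₁ ≤ (pos s n i : ℝ)})
    (h2 : 0 < ν {s | ∀ᶠ n : ℕ in atTop, (pos s n i : ℝ) ≤ -((n : ℝ) ^ β)}) :
    False := by
  -- parameters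
  set gap : ℝ := (q : ℝ) / 2 - (2 / β₁ + 1 / β) with hgap
  have hgap0 : 0 < gap := by rw [hgap]; linarith
  have hβinv : 0 < 1 / β := by positivity
  set κ : ℝ := 2 / β₁ + gap / 4 with hκ
  set τ : ℝ := 2 / β₁ + gap / 2 with hτ
  have hκ0 : 0 < κ := by rw [hκ]; positivity
  have hτ0 : 0 < τ := by rw [hτ]; positivity
  have hκτ : κ < τ := by rw [hκ, hτ]; linarith
  obtain ⟨p, hp⟩ : ∃ p : ℕ, (q : ℝ) / gap < p := exists_nat_gt _
  have hexp : τ ≤ (p : ℝ) * q / (2 * ((p : ℝ) + 1)) - 1 / β := by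
    have hp1 : (0 : ℝ) < (p : ℝ) + 1 := by positivity
    have e1 : (p : ℝ) * q / (2 * ((p : ℝ) + 1)) = (q : ℝ) / 2 - (q : ℝ) / (2 * ((p : ℝ) + 1)) := by
      field_simp
      ring
    have e2 : (q : ℝ) / (2 * ((p : ℝ) + 1)) ≤ gap / 2 := by
      rw [div_lt_iff₀ hgap0] at hp
      rw [div_le_div_iff₀ (by positivity) (by norm_num)]
      nlinarith
    rw [e1, hτ]
    rw [hgap] at e2 ⊢
    linarith
  -- upward walk: good tips
  obtain ⟨b, hb, hU⟩ := start_upH h i hβ₁ hβ₁1 h1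
  obtain ⟨M, δ, hM, hδ, htips⟩ := tips h i hβ₁ hβ₁1 hb hU (κ := κ) (by rw [hκ]; linarith)
  -- downward walk
  obtain ⟨b', hb', hD⟩ := start_downG h i hβ hβ1 h2
  have hhit : ∀ μ : ℕ, ν (DownP i (fun n => 1 * (n : ℝ) ^ β - b')) ≤
      ν {s | ∃ t, pos s t i = -(μ : ℤ)} := fun μ =>
    measure_mono fun s hs => DownP_hit (psi_tendsto hβ b') hs μ
  obtain ⟨l₀, hG⟩ := goodG_of h i j _ p hD (fun a => marksG h i (j a) (hij a) hD hhit)
  have hfin : ∀ S : Set (ℕ → Step d), ν S ≠ ⊤ := fun S =>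
    ne_top_of_le_ne_top (by rw [h.prob]; exact ENNReal.one_ne_top) (measure_mono (Set.subset_univ S))
  set GY := GoodG i j (fun n => 1 * (n : ℝ) ^ β - b') p l₀ with hGYdef
  set pY : ℝ := (ν GY).toReal with hpY
  have hpY0 : 0 < pY := ENNReal.toReal_pos hG.ne' (hfin _)
  obtain ⟨C, hC, hS⟩ := spreadG h i j hij hj
  obtain ⟨C', lam₀, hC', hlam₀, hfar, hnear⟩ := green3 h i j hij hC hS hb' hβ p l₀ hτ0 hexp
  obtain ⟨Λ, hΛ0, hΛ⟩ := tipsum (M := M) hκ0 hκτ (show 0 < pY / (4 * (C' + 1)) by positivity)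
  set Λ1 : ℕ := max Λ lam₀ with hΛ1
  obtain ⟨B0, hB0, hnearB⟩ := hnear Λ1
  have hq1 : 1 ≤ q := by
    rcases Nat.eq_zero_or_pos q with h0 | h0
    · subst h0
      simp only [Nat.cast_zero, zero_div] at hq3
      have : 0 < 2 / β₁ := by positivity
      linarith
    · exact h0
  -- choice of `R`
  obtain ⟨R, hR, hR0⟩ : ∃ R : ℕ, (B0 * (M * (Λ1 : ℝ) ^ κ) + B0) * (4 / pY) ≤ R ∧ 0 < R := by
    obtain ⟨R, hR⟩ := exists_nat_ge ((B0 * (M * (Λ1 : ℝ) ^ κ) + B0) * (4 / pY))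
    exact ⟨R + 1, hR.trans (by push_cast; linarith), Nat.succ_pos R⟩
  have hR1 : (1 : ℝ) ≤ R := by exact_mod_cast hR0
  have hRq : (R : ℝ) ≤ (R : ℝ) ^ q := by
    calc (R : ℝ) = (R : ℝ) ^ 1 := (pow_one _).symm
      _ ≤ (R : ℝ) ^ q := pow_le_pow_right₀ hR1 hq1
  have hBR : B0 * (M * (Λ1 : ℝ) ^ κ) + B0 ≤ (R : ℝ) ^ q * (pY / 4) := by
    have e1 : (B0 * (M * (Λ1 : ℝ) ^ κ) + B0) * (4 / pY) * (pY / 4) ≤ (R : ℝ) ^ q * (pY / 4) :=
      mul_le_mul_of_nonneg_right (hR.trans hRq) (by positivity)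
    have e2 : (B0 * (M * (Λ1 : ℝ) ^ κ) + B0) * (4 / pY) * (pY / 4) =
        B0 * (M * (Λ1 : ℝ) ^ κ) + B0 := by
      field_simp
    rwa [e2] at e1
  have hB := boxG_lat hij R
  have hcard := boxG_cardEq hj R
  set g : ℕ → ℝ≥0∞ := fun lam => if lam < Λ1 then ENNReal.ofReal B0 else
    ENNReal.ofReal ((R : ℝ) ^ q * (C' * ((lam : ℝ) ^ τ)⁻¹)) with hg
  have hgB : ∀ (v : Fin d → ℤ) (lam : ℕ), v i = -(lam : ℤ) →
      ∑ z ∈ BoxG j R, ν (GY ∩ {s | ∃ n, pos s n = v - z}) ≤ g lam := by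
    intro v lam hv
    simp only [hg]
    split_ifs with hlam
    · exact hnearB R v lam hlam hv
    · exact hfar R v lam ((le_max_right _ _).trans (not_lt.1 hlam)) hv
  set B := BoxG j R with hBdef
  -- constant from the turn inequality
  have hturn : ∀ z ∈ B, ∃ K : ℝ≥0∞, K ≠ ⊤ ∧ (∑' L : ℕ, ∑' γ : List (Step d),
      if Hit i ((L : ℤ) + 1) γ then ν (cyl γ) * ν (Ev (AvQ i γ z)) else 0) ≤ K := by
    intro z hz
    obtain ⟨ζ, hζ, hlat, hpos⟩ := lat h i z (hB z hz)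
    have ht := turn h i z (hB z hz) ζ hζ hlat
    refine ⟨(ν (cyl ([(i, true), (i, true)] ++ ζ ++ [(i, false)])))⁻¹, ?_, ?_⟩
    · exact ENNReal.inv_ne_top.2 hpos.ne'
    · exact ENNReal.le_inv_iff_mul_le.2 ht
  choose! K hK hKle using hturn
  have hle : ∀ N : ℕ, (∑ L ∈ Finset.range N, ∑' γ : List (Step d),
      if Hit i ((L : ℤ) + 1) γ then ν (cyl γ) * (∑ z ∈ B, ν (Ev (AvQ i γ z))) else 0)
      ≤ ∑ z ∈ B, K z := by
    intro N
    calc (∑ L ∈ Finset.range N, ∑' γ : List (Step d),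
      if Hit i ((L : ℤ) + 1) γ then ν (cyl γ) * (∑ z ∈ B, ν (Ev (AvQ i γ z))) else 0)
        = ∑ L ∈ Finset.range N, ∑' γ : List (Step d), ∑ z ∈ B,
          (if Hit i ((L : ℤ) + 1) γ then ν (cyl γ) * ν (Ev (AvQ i γ z)) else 0) := by
          refine Finset.sum_congr rfl fun L _ => tsum_congr fun γ => ?_
          split_ifs
          · rw [Finset.mul_sum]
          · simp
      _ = ∑ L ∈ Finset.range N, ∑ z ∈ B, ∑' γ : List (Step d), 
          (if Hit i ((L : ℤ) + 1) γ then ν (cyl γ) * ν (Ev (AvQ i γ z)) else 0) := by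
          refine Finset.sum_congr rfl fun L _ => ?_
          rw [Summable.tsum_finsetSum]
          intro z _
          exact ENNReal.summable
      _ = ∑ z ∈ B, ∑ L ∈ Finset.range N, ∑' γ : List (Step d), 
          (if Hit i ((L : ℤ) + 1) γ then ν (cyl γ) * ν (Ev (AvQ i γ z)) else 0) :=
          Finset.sum_comm
      _ ≤ ∑ z ∈ B, K z := by
          refine Finset.sum_le_sum fun z hz => le_trans ?_ (hKle z hz)
          exact ENNReal.sum_le_tsum _
  set KK : ℝ≥0∞ := ∑ z ∈ B, K z with hKK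
  have hKKfin : KK ≠ ⊤ := by
    rw [hKK]
    exact (ENNReal.sum_ne_top).2 fun z hz => hK z hz
  -- every good tip leaves room
  set c0 : ℝ := (R : ℝ) ^ q * (pY / 2) with hc0
  have hc00 : 0 < c0 := by positivity
  have htip : ∀ (L : ℕ) (γ : List (Step d)), Tip i (L + 1) M κ γ →
      ENNReal.ofReal c0 ≤ ∑ z ∈ B, ν (Ev (AvQ i γ z)) := by
    intro L γ hγ
    have hhitγ : Hit i ((L : ℤ) + 1) γ := by
      have := hγ.1.1
      push_cast at this
      exact this
    have e1 := coll ν i B GY (fun s hs n => (hs.1 n).1) g hgB L γ hhitγ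
    have e2 := tip_coll (B0 := B0) (C' := C') (q := q) (Λ1 := Λ1) hM hκ0 hB0 hC'
      (hlam₀.trans (le_max_right _ _)) (le_max_left _ _) hΛ R hγ
    have e3 : g 0 = ENNReal.ofReal B0 := by
      simp only [hg]
      rw [if_pos]
      exact lt_of_lt_of_le (by omega) (hlam₀.trans (le_max_right _ _))
    have e4 : (∑ k ∈ Finset.range (γ.length + 1), g ((L : ℤ) + 2 - endp (γ.take k) i).toNat + g 0)
        ≤ ENNReal.ofReal c0 := by
      rw [e3]
      refine (add_le_add e2 le_rfl).trans ?_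
      rw [← ENNReal.ofReal_add (by positivity) hB0]
      apply ENNReal.ofReal_le_ofReal
      have e5 : C' * (pY / (4 * (C' + 1))) ≤ pY / 4 := by
        rw [mul_div_assoc', div_le_div_iff₀ (by positivity) (by norm_num)]
        nlinarith
      have e6 : (R : ℝ) ^ q * (C' * (pY / (4 * (C' + 1)))) ≤ (R : ℝ) ^ q * (pY / 4) :=
        mul_le_mul_of_nonneg_left e5 (by positivity)
      rw [hc0]
      linarith
    have e7 : (B.card : ℝ≥0∞) * ν GY = ENNReal.ofReal c0 + ENNReal.ofReal c0 := by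
      rw [← ENNReal.ofReal_add hc00.le hc00.le, hcard]
      have e8 : ν GY = ENNReal.ofReal pY := (ENNReal.ofReal_toReal (hfin _)).symm
      rw [e8, ← ENNReal.ofReal_natCast, ← ENNReal.ofReal_mul (by positivity)]
      congr 1
      rw [hc0]
      push_cast
      ring
    rw [e7] at e1
    have e9 := e1.trans (add_le_add le_rfl e4)
    exact (ENNReal.add_le_add_iff_right ENNReal.ofReal_ne_top).1 e9
  have hlevel : ∀ L : ℕ, δ * ENNReal.ofReal c0 ≤ ∑' γ : List (Step d),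
      (if Hit i ((L : ℤ) + 1) γ then ν (cyl γ) * (∑ z ∈ B, ν (Ev (AvQ i γ z))) else 0) := by
    intro L
    calc δ * ENNReal.ofReal c0 ≤ Wt ν (Tip i (L + 1) M κ) * ENNReal.ofReal c0 := by
          gcongr
          exact htips (L + 1) (by omega)
      _ = ∑' γ : List (Step d), (if Tip i (L + 1) M κ γ then ν (cyl γ) else 0) *
          ENNReal.ofReal c0 := ENNReal.tsum_mul_right.symm
      _ ≤ _ := by
          refine ENNReal.tsum_le_tsum fun γ => ?_
          by_cases hγ : Tip i (L + 1) M κ γ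
          · have hhitγ : Hit i ((L : ℤ) + 1) γ := by
              have := hγ.1.1
              push_cast at this
              exact this
            rw [if_pos hγ, if_pos hhitγ]
            gcongr
            exact htip L γ hγ
          · rw [if_neg hγ, zero_mul]
            exact zero_le
  have hx : δ * ENNReal.ofReal c0 ≠ 0 :=
    mul_ne_zero hδ.ne' (by simpa using hc00)
  obtain ⟨N, hN⟩ := ENNReal.exists_nat_mul_gt hx hKKfin
  have hcontra : (N : ℝ≥0∞) * (δ * ENNReal.ofReal c0) ≤ KK := by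
    calc (N : ℝ≥0∞) * (δ * ENNReal.ofReal c0)
        = ∑ _L ∈ Finset.range N, δ * ENNReal.ofReal c0 := by
          rw [Finset.sum_const, Finset.card_range, nsmul_eq_mul]
      _ ≤ _ := Finset.sum_le_sum fun L _ => hlevel L
      _ ≤ KK := hle N
  exact absurd hcontra (not_le.2 hN)

end Vale.Agent.Lib.P147H
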