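import Vale.Agent.Lib.P147.Ext

/-! P147: reflection of one coordinate. -/

open MeasureTheory ProbabilityTheory Filter
open scoped ENNReal

namespace Vale.Agent.Lib.P147H

open Vale.Agent.Lib.P147

variable {d : ℕ}

/-- reflection of a step in coordinate `i` -/
def rho (i : Fin d) (e : Step d) : Step d := if e.1 = i then (e.1, !e.2) else e

/-- reflection of a point in coordinate `i` -/
def Rf (i : Fin d) (x : Fin d → ℤ) : Fin d → ℤ := fun k => if k = i then -x k else x k

theorem rho_rho (i : Fin d) (e : Step d) : rho i (rho i e) = e := by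
  unfold rho
  by_cases h : e.1 = i
  · simp [h]
    exact Prod.ext h.symm rfl
  · simp [h]

theorem Rf_Rf (i : Fin d) (x : Fin d → ℤ) : Rf i (Rf i x) = x := by
  funext k
  unfold Rf
  by_cases h : k = i <;> simp [h]

theorem Rf_add (i : Fin d) (x y : Fin d → ℤ) : Rf i (x + y) = Rf i x + Rf i y := by
  funext k
  unfold Rf
  by_cases h : k = i
  · simp [h]; ring
  · simp [h]

theorem vec_rho (i : Fin d) (e : Step d) : vec (rho i e) = Rf i (vec e) := by
  funext k
  obtain ⟨a, b⟩ := e
  unfold rho vec Rf
  by_cases h : a = i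
  · subst h
    by_cases hk : k = a
    · subst hk
      cases b <;> simp
    · cases b <;> simp [hk]
  · by_cases hk : k = i
    · subst hk
      simp [h, Ne.symm h]
    · simp [h, hk]

theorem endp_rho (i : Fin d) (l : List (Step d)) : endp (l.map (rho i)) = Rf i (endp l) := by
  induction l with
  | nil => funext k; simp [endp, Rf]
  | cons e l ih =>
    have h1 : endp ((e :: l).map (rho i)) = vec (rho i e) + endp (l.map (rho i)) := by
      simp [endp]
    have h2 : endp (e :: l) = vec e + endp l := by simp [endp]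
    rw [h1, h2, Rf_add, vec_rho, ih]

theorem Sites_rho (i : Fin d) (l : List (Step d)) {x : Fin d → ℤ}
    (hx : x ∈ Sites (l.map (rho i))) : Rf i x ∈ Sites l := by
  obtain ⟨k, hk, rfl⟩ := hx
  rw [List.length_map] at hk
  refine ⟨k, hk, ?_⟩
  rw [← List.map_take, endp_rho, Rf_Rf]

/-- reflected step sequence -/
def rhoS (i : Fin d) (s : ℕ → Step d) : ℕ → Step d := fun k => rho i (s k)

theorem measurable_rhoS (i : Fin d) : Measurable (rhoS (d := d) i) :=
  measurable_pi_lambda _ fun k => (Measurable.of_discrete (f := rho i)).comp (measurable_pi_apply k)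

theorem pre_rhoS (i : Fin d) (s : ℕ → Step d) (n : ℕ) :
    pre (rhoS i s) n = (pre s n).map (rho i) := by
  simp [pre, rhoS]

theorem pos_rhoS (i : Fin d) (s : ℕ → Step d) (n : ℕ) : pos (rhoS i s) n = Rf i (pos s n) := by
  rw [pos, pre_rhoS, endp_rho, pos]

theorem pos_rhoS_apply (i : Fin d) (s : ℕ → Step d) (n : ℕ) :
    pos (rhoS i s) n i = - pos s n i := by
  rw [pos_rhoS]; simp [Rf]

theorem preimage_cyl (i : Fin d) (l : List (Step d)) :
    rhoS i ⁻¹' (cyl l) = cyl (l.map (rho i)) := by
  ext s
  rw [Set.mem_preimage, mem_cyl_iff, mem_cyl_iff, pre_rhoS, List.length_map]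
  constructor
  · intro h
    have := congrArg (List.map (rho i)) h
    rw [List.map_map] at this
    have h2 : (rho i ∘ rho i) = (id : Step d → Step d) := by funext e; exact rho_rho i e
    rw [h2, List.map_id] at this
    exact this
  · intro h
    rw [h, List.map_map]
    have h2 : (rho i ∘ rho i) = (id : Step d → Step d) := by funext e; exact rho_rho i e
    rw [h2, List.map_id]

/-- the reflected law -/
theorem Law.reflect {ν : Measure (ℕ → Step d)} (h : Law ν) (i : Fin d) :
    Law (ν.map (rhoS i)) := by
  have hc : ∀ l : List (Step d), (ν.map (rhoS i)) (cyl l) = ν (cyl (l.map (rho i))) := by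
    intro l
    rw [Measure.map_apply (measurable_rhoS i) (measurableSet_cyl l), preimage_cyl]
  refine ⟨?_, ?_, ?_, ?_⟩
  · rw [Measure.map_apply (measurable_rhoS i) MeasurableSet.univ, Set.preimage_univ, h.prob]
  · intro l m hlm
    rw [hc, hc, hc, List.map_append]
    refine h.mul _ _ ?_
    intro x hx y hy heq
    refine hlm _ (Sites_rho i l hx) _ (Sites_rho i m hy) ?_
    rw [heq, Rf_add, endp_rho, Rf_Rf]
  · intro l m
    rw [hc, hc, List.map_append]
    exact h.le _ _
  · intro e
    rw [hc]
    exact h.pos (rho i e)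

end Vale.Agent.Lib.P147H
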