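import Vale.Agent.Lib.P147G.FinalG
import Vale.Agent.Lib.P147H.Reflect
import Vale.Agent.Lib.P147H.Main3

/-! P147, third version: final statement. -/

open MeasureTheory ProbabilityTheory Filter
open scoped ENNReal

namespace Vale.Agent.Lib.P147H

open Vale.Agent.Lib.P147 Vale.Agent.Lib.P147G

variable {d : ℕ}

theorem measurable_pos3 (n : ℕ) (i : Fin d) : Measurable (fun s : ℕ → Step d => pos s n i) :=
  green_measurable_posi i n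

theorem meas_pathset {α : Type*} [MeasurableSpace α] (f : ℕ → α → ℤ) (hf : ∀ n, Measurable (f n))
    (g : ℕ → ℝ) (σ : ℝ) : MeasurableSet {x : α | ∀ᶠ n : ℕ in atTop, g n ≤ σ * (f n x : ℝ)} := by
  have : {x : α | ∀ᶠ n : ℕ in atTop, g n ≤ σ * (f n x : ℝ)} =
      ⋃ M : ℕ, ⋂ n : ℕ, {x : α | M ≤ n → g n ≤ σ * (f n x : ℝ)} := by
    ext x
    simp only [Set.mem_ofPred_eq, Set.mem_iUnion, Set.mem_iInter, eventually_atTop]
  rw [this]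
  refine MeasurableSet.iUnion fun M => MeasurableSet.iInter fun n => ?_
  by_cases hn : M ≤ n
  · simp only [hn, true_implies]
    have hm : Measurable (fun x : α => σ * (f n x : ℝ)) :=
      ((measurable_from_top (f := fun z : ℤ => (z : ℝ))).comp (hf n)).const_mul σ
    exact measurableSet_le measurable_const hm
  · simp [hn]

theorem meas_lin {α : Type*} [MeasurableSpace α] (f : ℕ → α → ℤ) (hf : ∀ n, Measurable (f n))
    (σ : ℝ) : MeasurableSet {x : α | ∃ c : ℝ, 0 < c ∧ ∀ᶠ n : ℕ in atTop,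
      c * n ≤ σ * (f n x : ℝ)} := by
  have : {x : α | ∃ c : ℝ, 0 < c ∧ ∀ᶠ n : ℕ in atTop, c * n ≤ σ * (f n x : ℝ)} =
      ⋃ k : ℕ, {x : α | ∀ᶠ n : ℕ in atTop, (1 / ((k : ℝ) + 1)) * n ≤ σ * (f n x : ℝ)} := by
    ext x
    simp only [Set.mem_ofPred_eq, Set.mem_iUnion]
    constructor
    · rintro ⟨c, hc, hM⟩
      obtain ⟨k, hk⟩ := exists_nat_one_div_lt hc
      refine ⟨k, hM.mono fun n hn => le_trans ?_ hn⟩
      gcongr
    · rintro ⟨k, hM⟩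
      exact ⟨1 / ((k : ℝ) + 1), by positivity, hM⟩
  rw [this]
  exact MeasurableSet.iUnion fun k => meas_pathset f hf (fun n => (1 / ((k : ℝ) + 1)) * n) σ

/-- both statements for the law of the steps, upward orientation -/
theorem law_up {ν : Measure (ℕ → Step d)} (h : Law ν) (hd : 4 ≤ d) (i : Fin d) :
    (∀ β : ℝ, 2 / ((d : ℝ) - 1) < β →
      0 < ν {s | ∃ c : ℝ, 0 < c ∧ ∀ᶠ n : ℕ in atTop, c * n ≤ 1 * (pos s n i : ℝ)} →
      0 < ν {s | ∀ᶠ n : ℕ in atTop, (n : ℝ) ^ β ≤ -1 * (pos s n i : ℝ)} → False) ∧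
    (∀ β₁ β₂ : ℝ, 0 < β₁ → β₁ ≤ 1 → 0 < β₂ → β₂ ≤ 1 → 2 / β₁ + 1 / β₂ < ((d : ℝ) - 1) / 2 →
      0 < ν {s | ∀ᶠ n : ℕ in atTop, (n : ℝ) ^ β₁ ≤ 1 * (pos s n i : ℝ)} →
      0 < ν {s | ∀ᶠ n : ℕ in atTop, (n : ℝ) ^ β₂ ≤ -1 * (pos s n i : ℝ)} → False) := by
  obtain ⟨j, hij, hj⟩ := exists_lateralG hd i
  have hd' : (3 : ℝ) ≤ (d : ℝ) - 1 := by
    have : (4 : ℝ) ≤ d := by exact_mod_cast hd
    linarith
  have hcast : ((d - 1 : ℕ) : ℝ) = (d : ℝ) - 1 := by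
    rw [Nat.cast_sub (by omega)]; simp
  constructor
  · intro β hβ h1 h2
    set β' : ℝ := min β 1 with hβ'
    have hβ'2 : 2 / ((d : ℝ) - 1) < β' := by
      refine lt_min hβ ?_
      rw [div_lt_one (by linarith)]
      linarith
    have hβ'0 : 0 < β' := lt_trans (by positivity) hβ'2
    have hβ'q : 2 < β' * ((d - 1 : ℕ) : ℝ) := by
      rw [hcast]
      rwa [div_lt_iff₀ (by linarith)] at hβ'2
    refine mainG h i j hij hj hβ'0 (min_le_right _ _) hβ'q ?_ ?_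
    · simpa only [one_mul] using h1
    · refine lt_of_lt_of_le h2 (measure_mono fun s hs => ?_)
      simp only [Set.mem_ofPred_eq] at hs ⊢
      filter_upwards [hs, eventually_ge_atTop 1] with n hn hn1
      have h3 : (n : ℝ) ^ β' ≤ (n : ℝ) ^ β :=
        Real.rpow_le_rpow_of_exponent_le (by exact_mod_cast hn1) (min_le_left _ _)
      linarith
  · intro β₁ β₂ hβ₁ hβ₁1 hβ₂ hβ₂1 hq h1 h2
    refine main3 h i j hij hj hβ₁ hβ₁1 hβ₂ hβ₂1 (by rw [hcast]; exact hq) ?_ ?_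
    · simpa only [one_mul] using h1
    · refine lt_of_lt_of_le h2 (measure_mono fun s hs => ?_)
      simp only [Set.mem_ofPred_eq] at hs ⊢
      filter_upwards [hs] with n hn
      linarith

/-- both statements for the law of the steps, both orientations -/
theorem law_both {ν : Measure (ℕ → Step d)} (h : Law ν) (hd : 4 ≤ d) (i : Fin d) {σ : ℝ}
    (hσ : σ = 1 ∨ σ = -1) :
    (∀ β : ℝ, 2 / ((d : ℝ) - 1) < β →
      0 < ν {s | ∃ c : ℝ, 0 < c ∧ ∀ᶠ n : ℕ in atTop, c * n ≤ σ * (pos s n i : ℝ)} →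
      0 < ν {s | ∀ᶠ n : ℕ in atTop, (n : ℝ) ^ β ≤ -σ * (pos s n i : ℝ)} → False) ∧
    (∀ β₁ β₂ : ℝ, 0 < β₁ → β₁ ≤ 1 → 0 < β₂ → β₂ ≤ 1 → 2 / β₁ + 1 / β₂ < ((d : ℝ) - 1) / 2 →
      0 < ν {s | ∀ᶠ n : ℕ in atTop, (n : ℝ) ^ β₁ ≤ σ * (pos s n i : ℝ)} →
      0 < ν {s | ∀ᶠ n : ℕ in atTop, (n : ℝ) ^ β₂ ≤ -σ * (pos s n i : ℝ)} → False) := by
  rcases hσ with rfl | rfl
  · exact law_up h hd i
  · have h' := law_up (Vale.Agent.Lib.P147H.Law.reflect h i) hd i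
    have e1 : ∀ (g : ℕ → ℝ) (a : ℝ), (ν.map (rhoS i))
        {s | ∀ᶠ n : ℕ in atTop, g n ≤ a * (pos s n i : ℝ)} =
        ν {s | ∀ᶠ n : ℕ in atTop, g n ≤ -a * (pos s n i : ℝ)} := by
      intro g a
      rw [Measure.map_apply (measurable_rhoS i)
        (meas_pathset (fun n s => pos s n i) (fun n => measurable_pos3 n i) g a)]
      congr 1
      ext s
      simp only [Set.mem_preimage, Set.mem_ofPred_eq, pos_rhoS_apply]
      push_cast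
      simp only [mul_neg, neg_mul]
    have e2 : ∀ a : ℝ, (ν.map (rhoS i))
        {s | ∃ c : ℝ, 0 < c ∧ ∀ᶠ n : ℕ in atTop, c * n ≤ a * (pos s n i : ℝ)} =
        ν {s | ∃ c : ℝ, 0 < c ∧ ∀ᶠ n : ℕ in atTop, c * n ≤ -a * (pos s n i : ℝ)} := by
      intro a
      rw [Measure.map_apply (measurable_rhoS i)
        (meas_lin (fun n s => pos s n i) (fun n => measurable_pos3 n i) a)]
      congr 1
      ext s
      simp only [Set.mem_preimage, Set.mem_ofPred_eq, pos_rhoS_apply]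
      push_cast
      simp only [mul_neg, neg_mul]
    simp only [e1, e2] at h'
    exact h'

theorem final3 (hd : 4 ≤ d) {Ω : Type*} [MeasurableSpace Ω] (P : Measure Ω)
    (μ : Measure (Step d → ℝ))
    (env : (Fin d → ℤ) → Ω → Step d → ℝ) (X : ℕ → Ω → Fin d → ℤ) (hX : IsRWRE P μ env X)
    (hμ : ∀ᵐ p ∂μ, (∀ e, 0 ≤ p e) ∧ ∑ e, p e = 1)
    (hpos : ∀ e, 0 < ∫ p, p e ∂μ) (i : Fin d) {σ : ℝ} (hσ : σ = 1 ∨ σ = -1) :
    (∀ β : ℝ, 2 / ((d : ℝ) - 1) < β →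
      0 < P {ω | ∃ c : ℝ, 0 < c ∧ ∀ᶠ n : ℕ in atTop, c * n ≤ σ * (X n ω i : ℝ)} →
      P {ω | ∀ᶠ n : ℕ in atTop, (n : ℝ) ^ β ≤ -σ * (X n ω i : ℝ)} = 0) ∧
    (∀ β₁ β₂ : ℝ, 0 < β₁ → β₁ ≤ 1 → 0 < β₂ → β₂ ≤ 1 → 2 / β₁ + 1 / β₂ < ((d : ℝ) - 1) / 2 →
      P {ω | ∀ᶠ n : ℕ in atTop, (n : ℝ) ^ β₁ ≤ σ * (X n ω i : ℝ)} = 0 ∨
      P {ω | ∀ᶠ n : ℕ in atTop, (n : ℝ) ^ β₂ ≤ -σ * (X n ω i : ℝ)} = 0) := by
  obtain ⟨ν, hν, hE⟩ := model P μ env X hX hμ hpos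
  have hL := law_both hν hd i hσ
  have hmeas : ∀ n, Measurable (fun x : ℕ → Fin d → ℤ => x n i) := fun n =>
    (measurable_pi_apply i).comp (measurable_pi_apply n)
  have e1 : ∀ (g : ℕ → ℝ) (a : ℝ), P {ω | ∀ᶠ n : ℕ in atTop, g n ≤ a * (X n ω i : ℝ)} =
      ν {s | ∀ᶠ n : ℕ in atTop, g n ≤ a * (pos s n i : ℝ)} := by
    intro g a
    exact hE _ (meas_pathset (fun n (x : ℕ → Fin d → ℤ) => x n i) hmeas g a)
  have e2 : ∀ a : ℝ, P {ω | ∃ c : ℝ, 0 < c ∧ ∀ᶠ n : ℕ in atTop, c * n ≤ a * (X n ω i : ℝ)} =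
      ν {s | ∃ c : ℝ, 0 < c ∧ ∀ᶠ n : ℕ in atTop, c * n ≤ a * (pos s n i : ℝ)} := by
    intro a
    exact hE _ (meas_lin (fun n (x : ℕ → Fin d → ℤ) => x n i) hmeas a)
  simp only [e1, e2]
  constructor
  · intro β hβ h1
    by_contra hcon
    exact hL.1 β hβ h1 (pos_iff_ne_zero.2 hcon)
  · intro β₁ β₂ hβ₁ hβ₁1 hβ₂ hβ₂1 hq
    by_contra hcon
    push Not at hcon
    exact hL.2 β₁ β₂ hβ₁ hβ₁1 hβ₂ hβ₂1 hq (pos_iff_ne_zero.2 hcon.1) (pos_iff_ne_zero.2 hcon.2)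

end Vale.Agent.Lib.P147H
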