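import Vale.Agent.Lib.P147G.GreenG
import Vale.Agent.Lib.P147G.StartG
import Vale.Agent.Lib.P147G.MarksG
import Vale.Agent.Lib.P147G.MainG
import Vale.Agent.Lib.P147H.Defs

/-! P147, fourth version: the expected number of visits of a level, by approximate monotonicity. -/

open MeasureTheory ProbabilityTheory Filter
open scoped ENNReal

namespace Vale.Agent.Lib.P147H

open Vale.Agent.Lib.P147 Vale.Agent.Lib.P147G

variable {d : ℕ}

/-- beginnings of walks in `DownP`, up to the first visit of the level `- m` -/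
def VisB (i : Fin d) (ψ : ℕ → ℝ) (m : ℕ) : Set (List (Step d)) :=
  {γ | γ ∈ MARKS_G i m ∧ ∀ k ≤ γ.length, DownPQ i ψ (γ.take k)}

theorem vis_cover {i : Fin d} {ψ : ℕ → ℝ} (hψ : Tendsto ψ atTop atTop) (m : ℕ) :
    DownP i ψ ⊆ ⋃ γ ∈ VisB i ψ m, cyl γ := by
  intro s hs
  have h1 : s ∈ {s : ℕ → Step d | ∃ t, pos s t i = -(m : ℤ)} := DownP_hit hψ hs m
  have h2 := MARKS_hitG m h1
  simp only [Set.mem_iUnion] at h2 ⊢
  obtain ⟨γ, hγ, hsγ⟩ := h2
  refine ⟨γ, ⟨hγ, fun k hk => ?_⟩, hsγ⟩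
  have h3 := hs k
  have h4 := pre_of_mem_cyl hsγ hk
  rw [← h4]
  unfold DownPQ
  rw [pre_length]
  exact h3

theorem vis_piece {ν : Measure (ℕ → Step d)} (h : Law ν) {i : Fin d} {b β : ℝ} (hb : 0 ≤ b)
    (hβ : 0 < β) (hβ1 : β ≤ 1) (m lam n : ℕ) {γ : List (Step d)}
    (hγ : γ ∈ VisB i (fun n => 1 * (n : ℝ) ^ β - b) m) :
    ν (cyl γ) * ν {s | s ∈ DownP i (fun n => 1 * (n : ℝ) ^ β - b) ∧ pos s n i = -(lam : ℤ)} ≤
      ν (cyl γ ∩ {s | s ∈ DownP i (fun n => 1 * (n : ℝ) ^ β - 2 * b) ∧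
        pos s (γ.length + n) i = -((lam + m : ℕ) : ℤ)}) := by
  set ψ : ℕ → ℝ := fun n => 1 * (n : ℝ) ^ β - b with hψ
  obtain ⟨⟨hγ1, hγ2⟩, hγ3⟩ := hγ
  have hA : MeasurableSet {s : ℕ → Step d | pos s n i = -(lam : ℤ)} :=
    (green_measurable_posi i n) (measurableSet_singleton _)
  have e1 : {s : ℕ → Step d | s ∈ DownP i ψ ∧ pos s n i = -(lam : ℤ)} =
      {s : ℕ → Step d | pos s n i = -(lam : ℤ)} ∩ Ev (DownPQ i ψ) := by
    rw [← DownP_eq]
    ext s
    simp only [Set.mem_inter_iff]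
    exact and_comm
  rw [e1, ← ext_mul h γ (DownPQ i ψ) ?_ _ hA]
  · refine measure_mono ?_
    rintro s ⟨hs, hs1, hs2⟩
    rw [← DownP_eq] at hs2
    set s' := shift γ.length s with hs'
    have hlen : ((γ.length : ℕ) : ℝ) ^ β ≤ m + b := by
      have h3 := (hγ3 γ.length le_rfl).2
      rw [List.take_length, hγ1] at h3
      simp only [hψ] at h3
      push_cast at h3
      linarith
    have hpos : ∀ k : ℕ, pos s (γ.length + k) i = -(m : ℤ) + pos s' k i := by
      intro k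
      rw [pos_add, Pi.add_apply, pos_of_mem_cyl_length hs, hγ1]
    refine ⟨hs, fun k => ?_, ?_⟩
    · rcases le_or_gt k γ.length with hk | hk
      · have h3 := hγ3 k hk
        have h4 : pre s k = γ.take k := pre_of_mem_cyl hs hk
        unfold DownPQ at h3
        rw [← h4, pre_length] at h3
        refine ⟨h3.1, ?_⟩
        have h5 := h3.2
        simp only [hψ] at h5
        simp only [pos]
        linarith
      · obtain ⟨r, rfl⟩ := Nat.exists_eq_add_of_le hk.le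
        have h3 := hs2 r
        rw [hpos r]
        refine ⟨by have := h3.1; omega, ?_⟩
        have h4 := h3.2
        simp only [hψ] at h4
        have h5 : (((γ.length + r : ℕ) : ℝ)) ^ β ≤ ((γ.length : ℕ) : ℝ) ^ β + (r : ℝ) ^ β := by
          push_cast
          exact Real.rpow_add_le_add_rpow (by positivity) (by positivity) hβ.le hβ1
        push_cast at h5 ⊢
        linarith
    · rw [hpos n]
      have h3 : pos s' n i = -(lam : ℤ) := hs1
      rw [h3]
      push_cast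
      ring
  · intro η hη x hx y hy hxy
    obtain ⟨k, hk, rfl⟩ := hx
    obtain ⟨k', hk', rfl⟩ := hy
    have h3 := congrFun hxy i
    rw [Pi.add_apply, hγ1] at h3
    have h4 := hγ2 k hk
    have h5 := (hη k' hk'.le).1
    omega

theorem vis_mono {ν : Measure (ℕ → Step d)} (h : Law ν) (i : Fin d) {b β : ℝ} (hb : 0 ≤ b)
    (hβ : 0 < β) (hβ1 : β ≤ 1) (m lam : ℕ) :
    ν (DownP i (fun n => 1 * (n : ℝ) ^ β - b)) * VisG ν i (fun n => 1 * (n : ℝ) ^ β - b) lam ≤
      VisG ν i (fun n => 1 * (n : ℝ) ^ β - 2 * b) (lam + m) := by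
  set ψ : ℕ → ℝ := fun n => 1 * (n : ℝ) ^ β - b with hψ
  set ψ' : ℕ → ℝ := fun n => 1 * (n : ℝ) ^ β - 2 * b with hψ'
  have h0 : ν (DownP i ψ) ≤ ∑' γ : VisB i ψ m, ν (cyl (γ : List (Step d))) := by
    refine (measure_mono (vis_cover (psi_tendsto hβ b) m)).trans ?_
    exact measure_biUnion_le ν (Set.to_countable _) _
  calc ν (DownP i ψ) * VisG ν i ψ lam
      ≤ (∑' γ : VisB i ψ m, ν (cyl (γ : List (Step d)))) * VisG ν i ψ lam := by gcongr
    _ = ∑' γ : VisB i ψ m, ∑' n : ℕ, ν (cyl (γ : List (Step d))) *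
          ν {s | s ∈ DownP i ψ ∧ pos s n i = -(lam : ℤ)} := by
        rw [← ENNReal.tsum_mul_right]
        refine tsum_congr fun γ => ?_
        unfold VisG
        rw [ENNReal.tsum_mul_left]
    _ ≤ ∑' γ : VisB i ψ m, ∑' n : ℕ, ν (cyl (γ : List (Step d)) ∩ {s | s ∈ DownP i ψ' ∧
          pos s n i = -((lam + m : ℕ) : ℤ)}) := by
        refine ENNReal.tsum_le_tsum fun γ => ?_
        calc ∑' n : ℕ, ν (cyl (γ : List (Step d))) *
              ν {s | s ∈ DownP i ψ ∧ pos s n i = -(lam : ℤ)}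
            ≤ ∑' n : ℕ, ν (cyl (γ : List (Step d)) ∩ {s | s ∈ DownP i ψ' ∧
              pos s ((γ : List (Step d)).length + n) i = -((lam + m : ℕ) : ℤ)}) :=
              ENNReal.tsum_le_tsum fun n => vis_piece h hb hβ hβ1 m lam n γ.2
          _ ≤ _ := ENNReal.tsum_comp_le_tsum_of_injective
              (f := fun n : ℕ => (γ : List (Step d)).length + n)
              (fun a b hab => Nat.add_left_cancel hab)
              (fun n => ν (cyl (γ : List (Step d)) ∩ {s | s ∈ DownP i ψ' ∧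
                pos s n i = -((lam + m : ℕ) : ℤ)}))
    _ = ∑' n : ℕ, ∑' γ : VisB i ψ m, ν (cyl (γ : List (Step d)) ∩ {s | s ∈ DownP i ψ' ∧
          pos s n i = -((lam + m : ℕ) : ℤ)}) := ENNReal.tsum_comm
    _ ≤ VisG ν i ψ' (lam + m) := by
        unfold VisG
        refine ENNReal.tsum_le_tsum fun n => ?_
        have hmeas : MeasurableSet {s : ℕ → Step d | s ∈ DownP i ψ' ∧
            pos s n i = -((lam + m : ℕ) : ℤ)} :=
          (measurableSet_DownP i _).inter
            ((green_measurable_posi i n) (measurableSet_singleton _))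
        rw [← measure_iUnion]
        · exact measure_mono (Set.iUnion_subset fun γ => Set.inter_subset_right)
        · intro γ γ' hne
          refine (MARKS_G_disjoint γ.2.1 γ'.2.1 (fun hh => hne (Subtype.ext hh))).mono ?_ ?_
          · exact Set.inter_subset_left
          · exact Set.inter_subset_left
        · exact fun γ => (measurableSet_cyl _).inter hmeas

theorem vis_bound {ν : Measure (ℕ → Step d)} (h : Law ν) (i : Fin d) {b β : ℝ} (hb : 0 ≤ b)
    (hβ : 0 < β) (hβ1 : β ≤ 1) (hD : 0 < ν (DownP i (fun n => 1 * (n : ℝ) ^ β - b))) :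
    ∃ K : ℝ, 0 ≤ K ∧ ∀ lam : ℕ, 1 ≤ lam →
      VisG ν i (fun n => 1 * (n : ℝ) ^ β - b) lam ≤
        ENNReal.ofReal (K * (lam : ℝ) ^ (1 / β - 1)) := by
  set ψ : ℕ → ℝ := fun n => 1 * (n : ℝ) ^ β - b with hψ
  set δ : ℝ := (ν (DownP i ψ)).toReal with hδ
  have hfin : ν (DownP i ψ) ≠ ⊤ := h.ne_top _
  have hδ0 : 0 < δ := ENNReal.toReal_pos hD.ne' hfin
  have hδe : ν (DownP i ψ) = ENNReal.ofReal δ := (ENNReal.ofReal_toReal hfin).symm
  refine ⟨((2 + 2 * b) ^ (1 / β) + 1) / δ, by positivity, fun lam hlam => ?_⟩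
  have hx1 : (1 : ℝ) ≤ lam := by exact_mod_cast hlam
  have hx0 : (0 : ℝ) < lam := by linarith
  have h1 : (lam : ℝ≥0∞) * (ENNReal.ofReal δ * VisG ν i ψ lam) ≤
      ENNReal.ofReal ((((2 * lam : ℕ) : ℝ) + 2 * b) ^ (1 / β) + 1) := by
    have h2 := sum_VisG h i (c := 1) (b := 2 * b) (β := β) one_pos (by positivity) hβ (2 * lam)
    rw [div_one] at h2
    refine le_trans ?_ h2
    calc (lam : ℝ≥0∞) * (ENNReal.ofReal δ * VisG ν i ψ lam)
        = ∑ _m ∈ Finset.range lam, ENNReal.ofReal δ * VisG ν i ψ lam := by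
          rw [Finset.sum_const, Finset.card_range, nsmul_eq_mul]
      _ ≤ ∑ m ∈ Finset.range lam, VisG ν i (fun n => 1 * (n : ℝ) ^ β - 2 * b) (lam + m) := by
          refine Finset.sum_le_sum fun m _ => ?_
          rw [← hδe]
          exact vis_mono h i hb hβ hβ1 m lam
      _ ≤ ∑ m ∈ Finset.range lam, VisG ν i (fun n => 1 * (n : ℝ) ^ β - 2 * b) m +
          ∑ m ∈ Finset.range lam, VisG ν i (fun n => 1 * (n : ℝ) ^ β - 2 * b) (lam + m) :=
          le_add_self
      _ = ∑ m ∈ Finset.range (2 * lam), VisG ν i (fun n => 1 * (n : ℝ) ^ β - 2 * b) m := by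
          rw [show 2 * lam = lam + lam by omega, Finset.sum_range_add]
  have h3 : (((2 * lam : ℕ) : ℝ) + 2 * b) ^ (1 / β) + 1 ≤
      ((2 + 2 * b) ^ (1 / β) + 1) * (lam : ℝ) ^ (1 / β) := by
    have h4 : ((2 * lam : ℕ) : ℝ) + 2 * b ≤ (2 + 2 * b) * lam := by
      push_cast
      nlinarith
    have h5 := Real.rpow_le_rpow (by positivity) h4 (show (0 : ℝ) ≤ 1 / β by positivity)
    rw [Real.mul_rpow (by positivity) (by positivity)] at h5
    have h6 : (1 : ℝ) ≤ (lam : ℝ) ^ (1 / β) := Real.one_le_rpow hx1 (by positivity)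
    linarith
  have h7 : ENNReal.ofReal ((lam : ℝ) * δ) * VisG ν i ψ lam ≤
      ENNReal.ofReal (((2 + 2 * b) ^ (1 / β) + 1) * (lam : ℝ) ^ (1 / β)) := by
    rw [ENNReal.ofReal_mul hx0.le, ENNReal.ofReal_natCast, mul_assoc]
    exact h1.trans (ENNReal.ofReal_le_ofReal h3)
  have h8 : (0 : ℝ) < lam * δ := by positivity
  have h9 : VisG ν i ψ lam ≤
      ENNReal.ofReal (((2 + 2 * b) ^ (1 / β) + 1) * (lam : ℝ) ^ (1 / β)) /
        ENNReal.ofReal ((lam : ℝ) * δ) := by
    rw [ENNReal.le_div_iff_mul_le (Or.inl (ENNReal.ofReal_pos.2 h8).ne') (Or.inl ENNReal.ofReal_ne_top),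
      mul_comm]
    exact h7
  refine h9.trans (le_of_eq ?_)
  rw [← ENNReal.ofReal_div_of_pos h8]
  congr 1
  rw [Real.rpow_sub hx0, Real.rpow_one]
  field_simp

end Vale.Agent.Lib.P147H
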