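import Vale.Agent.Lib.P147H.Final3
import Vale.Agent.Lib.P147H.Main4
import Vale.Agent.Lib.P147H.Tips2

/-! P147, fourth version: final statement. -/

open MeasureTheory ProbabilityTheory Filter
open scoped ENNReal

namespace Vale.Agent.Lib.P147H

open Vale.Agent.Lib.P147 Vale.Agent.Lib.P147G

variable {d : ℕ}

theorem law4 {ν : Measure (ℕ → Step d)} (h : Law ν) (hd : 4 ≤ d) (i : Fin d) {β₁ β₂ : ℝ}
    (hβ₁ : 0 < β₁) (hβ₁1 : β₁ ≤ 1) (hβ₂ : 0 < β₂) (hβ₂1 : β₂ ≤ 1)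
    (hq : 1 / β₁ + 1 / β₂ < ((d : ℝ) + 1) / 2)
    (h1 : 0 < ν {s | ∀ᶠ n : ℕ in atTop, (n : ℝ) ^ β₁ ≤ 1 * (pos s n i : ℝ)})
    (h2 : 0 < ν {s | ∀ᶠ n : ℕ in atTop, (n : ℝ) ^ β₂ ≤ -1 * (pos s n i : ℝ)}) : False := by
  obtain ⟨j, hij, hj⟩ := exists_lateralG hd i
  have hcast : ((d - 1 : ℕ) : ℝ) = (d : ℝ) - 1 := by
    rw [Nat.cast_sub (by omega)]; simp
  refine main4_of h i j hij hj hβ₁ hβ₁1 hβ₂ hβ₂1 (a := 1) one_pos ?_ ?_ ?_ ?_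
  · rw [hcast]; linarith
  · intro b κ hb hU hκ
    exact tips2 h i hβ₁ hβ₁1 hb hU hκ
  · simpa only [one_mul] using h1
  · refine lt_of_lt_of_le h2 (measure_mono fun s hs => ?_)
    simp only [Set.mem_ofPred_eq] at hs ⊢
    filter_upwards [hs] with n hn
    linarith

theorem final4 (hd : 4 ≤ d) {Ω : Type*} [MeasurableSpace Ω] (P : Measure Ω)
    (μ : Measure (Step d → ℝ))
    (env : (Fin d → ℤ) → Ω → Step d → ℝ) (X : ℕ → Ω → Fin d → ℤ) (hX : IsRWRE P μ env X)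
    (hμ : ∀ᵐ p ∂μ, (∀ e, 0 ≤ p e) ∧ ∑ e, p e = 1)
    (hpos : ∀ e, 0 < ∫ p, p e ∂μ) (i : Fin d) {β₁ β₂ : ℝ}
    (hβ₁ : 0 < β₁) (hβ₁1 : β₁ ≤ 1) (hβ₂ : 0 < β₂) (hβ₂1 : β₂ ≤ 1)
    (hq : 1 / β₁ + 1 / β₂ < ((d : ℝ) + 1) / 2) :
    P {ω | ∀ᶠ n : ℕ in atTop, (n : ℝ) ^ β₁ ≤ 1 * (X n ω i : ℝ)} = 0 ∨
    P {ω | ∀ᶠ n : ℕ in atTop, (n : ℝ) ^ β₂ ≤ -1 * (X n ω i : ℝ)} = 0 := by
  obtain ⟨ν, hν, hE⟩ := model P μ env X hX hμ hpos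
  have hmeas : ∀ n, Measurable (fun x : ℕ → Fin d → ℤ => x n i) := fun n =>
    (measurable_pi_apply i).comp (measurable_pi_apply n)
  have e1 : ∀ (g : ℕ → ℝ) (a : ℝ), P {ω | ∀ᶠ n : ℕ in atTop, g n ≤ a * (X n ω i : ℝ)} =
      ν {s | ∀ᶠ n : ℕ in atTop, g n ≤ a * (pos s n i : ℝ)} := by
    intro g a
    exact hE _ (meas_pathset (fun n (x : ℕ → Fin d → ℤ) => x n i) hmeas g a)
  rw [e1, e1]
  by_contra hcon
  push Not at hcon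
  exact law4 hν hd i hβ₁ hβ₁1 hβ₂ hβ₂1 hq (pos_iff_ne_zero.2 hcon.1) (pos_iff_ne_zero.2 hcon.2)

/-- comparison of growth rates -/
theorem rate_mono {f : ℕ → ℝ} {β θ : ℝ} (hβ : 0 < β) (hθ1 : θ < 1)
    (hf : ∃ c : ℝ, 0 < c ∧ ∀ᶠ n : ℕ in atTop, c * (n : ℝ) ^ β ≤ f n) :
    ∀ᶠ n : ℕ in atTop, (n : ℝ) ^ (β * θ) ≤ f n := by
  obtain ⟨c, hc, hf⟩ := hf
  have h1 : Tendsto (fun n : ℕ => (n : ℝ) ^ (β * (1 - θ))) atTop atTop :=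
    (tendsto_rpow_atTop (mul_pos hβ (by linarith))).comp tendsto_natCast_atTop_atTop
  filter_upwards [hf, h1.eventually_ge_atTop (1 / c), eventually_ge_atTop 1] with n h2 h3 h4
  have hn : (0 : ℝ) < n := by exact_mod_cast h4
  refine le_trans ?_ h2
  have h5 : (n : ℝ) ^ β = (n : ℝ) ^ (β * θ) * (n : ℝ) ^ (β * (1 - θ)) := by
    rw [← Real.rpow_add hn]
    congr 1
    ring
  have h6 : 1 ≤ c * (n : ℝ) ^ (β * (1 - θ)) := by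
    rw [div_le_iff₀ hc] at h3
    linarith
  have h7 : 0 ≤ (n : ℝ) ^ (β * θ) := by positivity
  rw [h5]
  nlinarith

theorem final4c (hd : 4 ≤ d) {Ω : Type*} [MeasurableSpace Ω] (P : Measure Ω)
    (μ : Measure (Step d → ℝ))
    (env : (Fin d → ℤ) → Ω → Step d → ℝ) (X : ℕ → Ω → Fin d → ℤ) (hX : IsRWRE P μ env X)
    (hμ : ∀ᵐ p ∂μ, (∀ e, 0 ≤ p e) ∧ ∑ e, p e = 1)
    (hpos : ∀ e, 0 < ∫ p, p e ∂μ) (i : Fin d) {β₁ β₂ : ℝ}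
    (hβ₁ : 0 < β₁) (hβ₁1 : β₁ ≤ 1) (hβ₂ : 0 < β₂) (hβ₂1 : β₂ ≤ 1)
    (hq : 1 / β₁ + 1 / β₂ < ((d : ℝ) + 1) / 2) :
    P {ω | ∃ c : ℝ, 0 < c ∧ ∀ᶠ n : ℕ in atTop, c * (n : ℝ) ^ β₁ ≤ (X n ω i : ℝ)} = 0 ∨
    P {ω | ∃ c : ℝ, 0 < c ∧ ∀ᶠ n : ℕ in atTop, (X n ω i : ℝ) ≤ -(c * (n : ℝ) ^ β₂)} = 0 := by
  set S : ℝ := 1 / β₁ + 1 / β₂ with hS
  set D : ℝ := ((d : ℝ) + 1) / 2 with hD
  have hS0 : 0 < S := by positivity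
  have hD0 : 0 < D := lt_trans hS0 hq
  set θ : ℝ := (S / D + 1) / 2 with hθ
  have hSD : S / D < 1 := (div_lt_one hD0).2 hq
  have hSD0 : 0 < S / D := by positivity
  have hθ0 : 0 < θ := by rw [hθ]; linarith
  have hθ1 : θ < 1 := by rw [hθ]; linarith
  have hq' : 1 / (β₁ * θ) + 1 / (β₂ * θ) < D := by
    have e1 : 1 / (β₁ * θ) + 1 / (β₂ * θ) = S / θ := by
      rw [hS]
      field_simp
    rw [e1, div_lt_iff₀ hθ0]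
    have e2 : D * θ = (S + D) / 2 := by
      rw [hθ]
      field_simp
    rw [e2]
    linarith
  rcases final4 hd P μ env X hX hμ hpos i (mul_pos hβ₁ hθ0) (by nlinarith) (mul_pos hβ₂ hθ0)
    (by nlinarith) hq' with h | h
  · left
    refine measure_mono_null ?_ h
    intro ω hω
    simp only [Set.mem_ofPred_eq, one_mul] at hω ⊢
    exact rate_mono hβ₁ hθ1 hω
  · right
    refine measure_mono_null ?_ h
    intro ω hω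
    simp only [Set.mem_ofPred_eq] at hω ⊢
    obtain ⟨c, hc, hω⟩ := hω
    refine rate_mono hβ₂ hθ1 ⟨c, hc, ?_⟩
    filter_upwards [hω] with n hn
    linarith

end Vale.Agent.Lib.P147H
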