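import Vale.Agent.Lib.P147H.Green3

/-! P147, fourth version, module GREEN4. -/

open MeasureTheory ProbabilityTheory Filter
open scoped ENNReal

namespace Vale.Agent.Lib.P147H

open Vale.Agent.Lib.P147 Vale.Agent.Lib.P147G

variable {d : ℕ}

theorem green4 {ν : Measure (ℕ → Step d)} (h : Law ν) (i : Fin d) {q : ℕ} (j : Fin q → Fin d)
    (hij : ∀ a, j a ≠ i) {C : ℝ} (hC : 0 ≤ C) (hS : SpreadG ν i j C)
    {b β κ : ℝ} (hb : 0 ≤ b) (hβ : 0 < β) (hκ : 1 ≤ κ) (p l₀ : ℕ)
    (hexp : κ - 1 + 1 / β < (p : ℝ) * q / (2 * ((p : ℝ) + 1))) {ε : ℝ} (hε : 0 < ε) :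
    ∃ (Λ₁ : ℕ) (w : ℕ → ℝ≥0∞) (B : ℝ), 2 ≤ Λ₁ ∧ 0 ≤ B ∧
      (∀ (R : ℕ) (v : Fin d → ℤ) (lam : ℕ), Λ₁ ≤ lam → v i = -(lam : ℤ) →
        ∑ z ∈ BoxG j R, ν (GoodG i j (fun n => 1 * (n : ℝ) ^ β - b) p l₀ ∩
          {s | ∃ n, pos s n = v - z}) ≤ (R : ℝ≥0∞) ^ q * w lam) ∧
      (∀ (R : ℕ) (v : Fin d → ℤ) (lam : ℕ), lam < Λ₁ → v i = -(lam : ℤ) →
        ∑ z ∈ BoxG j R, ν (GoodG i j (fun n => 1 * (n : ℝ) ^ β - b) p l₀ ∩
          {s | ∃ n, pos s n = v - z}) ≤ ENNReal.ofReal B) ∧
      ∑' lam : ℕ, (if Λ₁ ≤ lam then w lam * ENNReal.ofReal ((lam : ℝ) ^ (κ - 1)) else 0) ≤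
        ENNReal.ofReal ε := by
  set A : ℕ := 2 ^ (p + 1) with hA
  have hA2 : 2 ≤ A := by
    rw [hA, pow_succ]
    have : 1 ≤ 2 ^ p := Nat.one_le_two_pow
    omega
  have hA1 : (1 : ℝ) ≤ A := by exact_mod_cast (by omega : 1 ≤ A)
  have hA0 : (0 : ℝ) < A := by linarith
  have hAl : ∀ l : ℕ, 2 ^ ((p + 1) * l) = A ^ l := fun l => by rw [hA, pow_mul]
  set w : ℝ := (Real.sqrt ((2 : ℝ) ^ p)) ^ q with hw
  set a : ℝ := (A : ℝ) ^ (1 / β) with ha
  set e : ℝ := (A : ℝ) ^ (κ - 1) with he
  have hw0 : 0 < w := by positivity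
  have ha1 : 1 ≤ a := Real.one_le_rpow hA1 (by positivity)
  have ha0 : 0 < a := by linarith
  have he1 : 1 ≤ e := Real.one_le_rpow hA1 (by linarith)
  have he0 : 0 < e := by linarith
  have haw : a * e < w := by
    have h1 : w = (2 : ℝ) ^ ((p : ℝ) * q / 2) := by
      rw [hw, Real.sqrt_eq_rpow, ← Real.rpow_natCast, ← Real.rpow_natCast, ← Real.rpow_mul
        (by norm_num), ← Real.rpow_mul (by norm_num)]
      congr 1
      ring
    have h2 : a * e = (2 : ℝ) ^ (((p : ℝ) + 1) * (κ - 1 + 1 / β)) := by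
      rw [ha, he, ← Real.rpow_add hA0, hA]
      push_cast
      rw [← Real.rpow_natCast, ← Real.rpow_mul (by norm_num)]
      congr 1
      push_cast
      ring
    rw [h1, h2]
    apply Real.rpow_lt_rpow_of_exponent_lt (by norm_num)
    have hp1 : (0 : ℝ) < (p : ℝ) + 1 := by positivity
    rw [lt_div_iff₀ (by positivity)] at hexp
    rw [lt_div_iff₀ (by norm_num)]
    linarith
  set ρ : ℝ := a * e / w with hρ
  have hρ0 : 0 < ρ := by positivity
  have hρ1 : ρ < 1 := by rw [hρ, div_lt_one hw0]; exact haw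
  have hpow : ∀ l : ℕ, (Real.sqrt ((2 ^ (p * l) : ℕ) : ℝ)) ^ q = w ^ l := by
    intro l
    push_cast
    have h1 : Real.sqrt ((2 : ℝ) ^ (p * l)) = (Real.sqrt ((2 : ℝ) ^ p)) ^ l := by
      rw [pow_mul]
      induction l with
      | zero => simp
      | succ l ih => rw [pow_succ, Real.sqrt_mul (by positivity), ih, pow_succ]
    rw [h1, hw, ← pow_mul, ← pow_mul, mul_comm]
  set D : ℝ := C * e * (((A + b) / 1) ^ (1 / β) + 1) with hD
  have hD0 : 0 ≤ D := by positivity
  set D' : ℝ := D / (1 - ρ) with hD'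
  have hD'0 : 0 ≤ D' := div_nonneg hD0 (by linarith)
  set ψ : ℕ → ℝ := fun n => 1 * (n : ℝ) ^ β - b with hψ
  obtain ⟨l₁, hl₁, hl₁1, hl₁ρ⟩ : ∃ l₁ : ℕ, l₀ ≤ l₁ ∧ 1 ≤ l₁ ∧ D' * ρ ^ l₁ ≤ ε := by
    have h1 : Tendsto (fun l : ℕ => D' * ρ ^ l) atTop (nhds (D' * 0)) :=
      (tendsto_pow_atTop_nhds_zero_of_lt_one hρ0.le hρ1).const_mul D'
    rw [mul_zero] at h1
    have h2 := h1.eventually (gt_mem_nhds hε)
    obtain ⟨l₁, h3, h4⟩ := (h2.and (eventually_ge_atTop (max l₀ 1))).exists
    exact ⟨l₁, (le_max_left _ _).trans h4, (le_max_right _ _).trans h4, h3.le⟩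
  refine ⟨A ^ l₁, fun lam =>
      ENNReal.ofReal (C / (Real.sqrt ((2 ^ (p * (Nat.log A lam)) : ℕ) : ℝ)) ^ q) *
        VisG ν i ψ lam, (((A ^ l₁ : ℕ) : ℝ) + b) ^ (1 / β) + 1, ?_, by positivity, ?_, ?_, ?_⟩
  · calc 2 ≤ A := hA2
      _ = A ^ 1 := (pow_one A).symm
      _ ≤ A ^ l₁ := Nat.pow_le_pow_right (by omega) hl₁1
  · intro R v lam hlam hv
    simp only
    have h0 : lam ≠ 0 := by
      rintro rfl
      have : 0 < A ^ l₁ := by positivity
      omega
    rw [← mul_assoc]
    refine boxG_bound2 i j hij hS ψ p l₀ R v lam hv _ (hl₁.trans ?_) ?_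
    · exact Nat.le_log_of_pow_le (by omega) hlam
    · rw [hAl]
      exact Nat.pow_log_le_self A h0
  · intro R v lam hlam hv
    exact (boxG_bound i j hij ψ p l₀ R v lam hv).trans (green3_vis h i hb hβ hlam)
  · set g : ℕ → ℝ≥0∞ := fun lam => if A ^ l₁ ≤ lam then
        (ENNReal.ofReal (C / (Real.sqrt ((2 ^ (p * (Nat.log A lam)) : ℕ) : ℝ)) ^ q) *
          VisG ν i ψ lam) * ENNReal.ofReal ((lam : ℝ) ^ (κ - 1)) else 0 with hg
    have hind : ∀ K : ℕ, ∑ lam ∈ Finset.range (A ^ (l₁ + K)), g lam ≤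
        ENNReal.ofReal (D' * (ρ ^ l₁ - ρ ^ (l₁ + K))) := by
      intro K
      induction K with
      | zero =>
        simp only [add_zero, sub_self, mul_zero, ENNReal.ofReal_zero]
        rw [nonpos_iff_eq_zero]
        refine Finset.sum_eq_zero fun lam hlam => ?_
        rw [hg]
        simp only
        rw [if_neg]
        have := Finset.mem_range.mp hlam
        omega
      | succ K ih =>
        set k := l₁ + K with hk
        have hk1 : l₁ + (K + 1) = k + 1 := by omega
        rw [hk1]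
        have hle : A ^ k ≤ A ^ (k + 1) := Nat.pow_le_pow_right (by omega) (Nat.le_succ k)
        rw [← Finset.sum_range_add_sum_Ico _ hle]
        have h2 : ∑ lam ∈ Finset.Ico (A ^ k) (A ^ (k + 1)), g lam ≤
            ENNReal.ofReal (D * ρ ^ k) := by
          have h3 : ∀ lam ∈ Finset.Ico (A ^ k) (A ^ (k + 1)), g lam ≤
              (ENNReal.ofReal (C / w ^ k) * ENNReal.ofReal (e ^ (k + 1))) * VisG ν i ψ lam := by
            intro lam hlam
            rw [Finset.mem_Ico] at hlam
            have h4 : A ^ l₁ ≤ lam := by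
              have : A ^ l₁ ≤ A ^ k :=
                Nat.pow_le_pow_right (by omega) (Nat.le_add_right _ _)
              omega
            have h0 : lam ≠ 0 := by
              rintro rfl
              have : 0 < A ^ l₁ := by positivity
              omega
            have h5 : Nat.log A lam = k :=
              (Nat.log_eq_iff (Or.inr ⟨by omega, h0⟩)).mpr hlam
            have h6 : ((lam : ℝ) ^ (κ - 1)) ≤ e ^ (k + 1) := by
              have h7 : e ^ (k + 1) = ((A : ℝ) ^ (k + 1)) ^ (κ - 1) := by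
                rw [he, ← Real.rpow_natCast, ← Real.rpow_natCast, ← Real.rpow_mul hA0.le,
                  ← Real.rpow_mul hA0.le, mul_comm]
              rw [h7]
              apply Real.rpow_le_rpow (by positivity) _ (by linarith)
              exact_mod_cast hlam.2.le
            rw [hg]
            simp only
            rw [if_pos h4, h5, hpow, mul_assoc, mul_comm (VisG ν i ψ lam), ← mul_assoc]
            gcongr
          refine (Finset.sum_le_sum h3).trans ?_
          rw [← Finset.mul_sum]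
          have h6 : ∑ lam ∈ Finset.Ico (A ^ k) (A ^ (k + 1)), VisG ν i ψ lam ≤
              ENNReal.ofReal ((((((A ^ (k + 1) : ℕ) : ℝ)) + b) / 1) ^ (1 / β) + 1) := by
            refine le_trans ?_ (sum_VisG h i one_pos hb hβ _)
            refine Finset.sum_le_sum_of_subset ?_
            intro x hx
            rw [Finset.mem_Ico] at hx
            exact Finset.mem_range.mpr hx.2
          refine (mul_le_mul_right h6 _).trans ?_
          rw [← ENNReal.ofReal_mul (by positivity), ← ENNReal.ofReal_mul (by positivity)]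
          apply ENNReal.ofReal_le_ofReal
          have h8 : (((((A ^ (k + 1) : ℕ) : ℝ)) + b) / 1) ^ (1 / β) + 1 ≤
              a ^ k * (((A + b) / 1) ^ (1 / β) + 1) := by
            have h9 : (1 : ℝ) ≤ (A : ℝ) ^ k := one_le_pow₀ hA1
            have h9' : (1 : ℝ) ≤ a ^ k := one_le_pow₀ ha1
            rw [mul_add, mul_one]
            refine add_le_add ?_ h9'
            have h10 : a ^ k = ((A : ℝ) ^ k) ^ (1 / β) := by
              rw [ha, ← Real.rpow_natCast, ← Real.rpow_natCast, ← Real.rpow_mul (by positivity),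
                ← Real.rpow_mul (by positivity), mul_comm]
            rw [h10, ← Real.mul_rpow (by positivity) (by positivity)]
            apply Real.rpow_le_rpow (by positivity) _ (by positivity)
            rw [← mul_div_assoc]
            refine div_le_div_of_nonneg_right ?_ (by norm_num)
            push_cast
            rw [pow_succ]
            nlinarith
          calc C / w ^ k * e ^ (k + 1) *
              ((((((A ^ (k + 1) : ℕ) : ℝ)) + b) / 1) ^ (1 / β) + 1)
              ≤ C / w ^ k * e ^ (k + 1) * (a ^ k * (((A + b) / 1) ^ (1 / β) + 1)) :=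
                mul_le_mul_of_nonneg_left h8 (by positivity)
            _ = D * ρ ^ k := by
                rw [hD, hρ, div_pow, mul_pow, pow_succ]
                field_simp
        refine (add_le_add ih h2).trans ?_
        rw [← ENNReal.ofReal_add]
        · apply ENNReal.ofReal_le_ofReal
          have h10 : D * ρ ^ k = D' * (ρ ^ k - ρ ^ (k + 1)) := by
            rw [hD', pow_succ]
            have : (1 - ρ) ≠ 0 := by linarith
            field_simp
          rw [h10]
          apply le_of_eq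
          ring
        · have h11 : ρ ^ k ≤ ρ ^ l₁ :=
            pow_le_pow_of_le_one hρ0.le hρ1.le (Nat.le_add_right _ _)
          have : 0 ≤ ρ ^ l₁ - ρ ^ k := by linarith
          positivity
        · positivity
    refine ENNReal.tsum_le_of_sum_range_le fun n => ?_
    have h12 : Finset.range n ⊆ Finset.range (A ^ (l₁ + n)) := by
      intro x hx
      rw [Finset.mem_range] at hx ⊢
      calc x < n := hx
        _ < A ^ n := Nat.lt_pow_self (by omega)
        _ ≤ A ^ (l₁ + n) := Nat.pow_le_pow_right (by omega) (Nat.le_add_left _ _)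
    refine (Finset.sum_le_sum_of_subset h12).trans ((hind n).trans ?_)
    apply ENNReal.ofReal_le_ofReal
    have : 0 ≤ D' * ρ ^ (l₁ + n) := by positivity
    nlinarith

end Vale.Agent.Lib.P147H
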