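import Vale.Agent.Lib.P147H.Defs

/-! P147 version 3, module LONG, first part: weights of disjoint families, `long0`. -/

open MeasureTheory ProbabilityTheory Filter
open scoped ENNReal

namespace Vale.Agent.Lib.P147H

open Vale.Agent.Lib.P147 Vale.Agent.Lib.P147G

variable {d : ℕ}

theorem LONG_hit_disjoint {i : Fin d} {L : ℤ} {γ γ' : List (Step d)} (h : Hit i L γ)
    (h' : Hit i L γ') (hne : γ ≠ γ') : Disjoint (cyl γ) (cyl γ') := by
  have key : ∀ {a b : List (Step d)}, Hit i L a → Hit i L b → ∀ s, s ∈ cyl a → s ∈ cyl b →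
      b.length ≤ a.length := by
    intro a b ha hb s hsa hsb
    by_contra hlt
    push Not at hlt
    have h1 := hb.2 a.length hlt
    rw [← pos_of_mem_cyl hsb hlt.le, pos_of_mem_cyl_length hsa, ha.1] at h1
    exact lt_irrefl _ h1
  rw [Set.disjoint_left]
  intro s h1 h2
  have e : γ.length = γ'.length := le_antisymm (key h' h s h2 h1) (key h h' s h1 h2)
  have h1' := (mem_cyl_iff s γ).1 h1
  have h2' := (mem_cyl_iff s γ').1 h2
  exact hne (by rw [← h1', ← h2', e])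

theorem LONG_Wt_le {ν : Measure (ℕ → Step d)} {i : Fin d} {L : ℤ} {P : List (Step d) → Prop}
    {E : Set (ℕ → Step d)} (hP : ∀ γ, P γ → Hit i L γ) (hE : ∀ γ, P γ → cyl γ ⊆ E) :
    Wt ν P ≤ ν E := by
  classical
  have h1 : Wt ν P = ∑' γ : {γ : List (Step d) // P γ}, ν (cyl γ.1) := by
    unfold Wt
    have := tsum_subtype {γ : List (Step d) | P γ} (fun γ => ν (cyl γ))
    refine Eq.trans ?_ this.symm
    refine tsum_congr fun γ => ?_
    by_cases hγ : P γ
    · simp [Set.indicator, hγ]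
    · simp [Set.indicator, hγ]
  rw [h1, ← measure_iUnion]
  · exact measure_mono (Set.iUnion_subset fun γ => hE γ.1 γ.2)
  · intro a b hab
    exact LONG_hit_disjoint (hP a.1 a.2) (hP b.1 b.2) (fun hc => hab (Subtype.ext hc))
  · intro γ
    exact measurableSet_cyl _

/-- a crossing of `L` levels with more than `t` steps stays `t` steps in the slab `[0, L)` -/
theorem long0 {ν : Measure (ℕ → Step d)} (_h : Law ν) (i : Fin d) (L t : ℕ) :
    Wt ν (fun γ => Cr i L γ ∧ t < γ.length) ≤ ν (Slab i L t) := by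
  refine LONG_Wt_le (i := i) (L := (L : ℤ)) (fun γ hγ => hγ.1.1) ?_
  rintro γ ⟨⟨hhit, hnn⟩, ht⟩ s hs k hk
  have hk' : k < γ.length := lt_of_le_of_lt hk ht
  rw [pos_of_mem_cyl hs hk'.le]
  exact ⟨hnn k hk'.le, hhit.2 k hk'⟩

theorem LONG_slab_mono (i : Fin d) {m m' : ℕ} (hm : m ≤ m') (t : ℕ) :
    Slab i m t ⊆ Slab i m' t := by
  intro s hs k hk
  refine ⟨(hs k hk).1, lt_of_lt_of_le (hs k hk).2 ?_⟩
  exact_mod_cast hm

theorem LONG_Wt_union (ν : Measure (ℕ → Step d)) {ι : Type*} (S : Finset ι)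
    (P : ι → List (Step d) → Prop) :
    Wt ν (fun γ => ∃ l ∈ S, P l γ) ≤ ∑ l ∈ S, Wt ν (P l) := by
  classical
  unfold Wt
  rw [← Summable.tsum_finsetSum (fun l _ => ENNReal.summable)]
  refine ENNReal.tsum_le_tsum fun γ => ?_
  by_cases hγ : ∃ l ∈ S, P l γ
  · rw [if_pos hγ]
    obtain ⟨l, hl, hPl⟩ := hγ
    calc ν (cyl γ) = (if P l γ then ν (cyl γ) else 0) := by rw [if_pos hPl]
      _ ≤ _ := Finset.single_le_sum (f := fun l => if P l γ then ν (cyl γ) else 0)
        (fun _ _ => zero_le) hl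
  · rw [if_neg hγ]
    exact zero_le

theorem LONG_Wt_mono (ν : Measure (ℕ → Step d)) {P Q : List (Step d) → Prop}
    (h : ∀ γ, P γ → Q γ) : Wt ν P ≤ Wt ν Q := by
  unfold Wt
  refine ENNReal.tsum_le_tsum fun γ => ?_
  by_cases hγ : P γ
  · rw [if_pos hγ, if_pos (h γ hγ)]
  · rw [if_neg hγ]
    exact zero_le

theorem LONG_Wt_Cr_le {ν : Measure (ℕ → Step d)} (h : Law ν) (i : Fin d) (N : ℕ)
    (P : List (Step d) → Prop) : Wt ν (fun γ => Cr i N γ ∧ P γ) ≤ 1 := by
  rw [← h.prob]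
  exact LONG_Wt_le (i := i) (L := (N : ℤ)) (fun γ hγ => hγ.1.1) (fun γ _ => Set.subset_univ _)

end Vale.Agent.Lib.P147H
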