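import Vale.Agent.Lib.P147H.Long0
import Vale.Agent.Lib.P147H.CutSum

/-! P147 version 3, module LONG2: paths which stay long in a slab after a cut are unlikely, without
the loss of a factor `lam` (only the first cut of the window is used). -/

open MeasureTheory ProbabilityTheory Filter
open scoped ENNReal

namespace Vale.Agent.Lib.P147H

open Vale.Agent.Lib.P147 Vale.Agent.Lib.P147G

variable {d : ℕ}

/-- the first cut in a window starting at level `a` is at level `l`, remainder in `Q` -/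
def Long2_E (i : Fin d) (L a l : ℕ) (Q : List (Step d) → Prop) (γ : List (Step d)) : Prop :=
  Cr i L γ ∧ ∃ γ₁ γ₂, γ = γ₁ ++ [(i, true)] ++ γ₂ ∧
    Cr i l γ₁ ∧ (∀ l', a ≤ l' → l' < l → ¬ Cut i γ₁ l') ∧ Cr i (L - l - 1) γ₂ ∧ Q γ₂

theorem Long2_exists {i : Fin d} {L a l t₀ t : ℕ} {γ : List (Step d)} (hcr : Cr i L γ)
    (hal : a ≤ l) (hcut : CutAt i γ l t₀) (hlen : t₀ + t + 1 < γ.length) :
    ∃ l', a ≤ l' ∧ l' ≤ l ∧ Long2_E i L a l' (fun γ₂ => t < γ₂.length) γ := by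
  classical
  have hex : ∃ l', a ≤ l' ∧ Cut i γ l' := ⟨l, hal, t₀, hcut⟩
  have hspec := Nat.find_spec hex
  have hle : Nat.find hex ≤ l := Nat.find_min' hex ⟨hal, t₀, hcut⟩
  have hmin : ∀ l', a ≤ l' → l' < Nat.find hex → ¬ Cut i γ l' := fun l' h1 h2 h3 =>
    Nat.find_min hex h2 ⟨h1, h3⟩
  generalize Nat.find hex = l' at hspec hle hmin
  obtain ⟨ha, t₁, hcut1⟩ := hspec
  have htt : t₁ ≤ t₀ := by
    by_contra hcon
    push Not at hcon
    have h1 := hcut1.2.1.2 t₀ (by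
      rw [List.length_take]
      have := hcut1.1
      omega)
    rw [List.take_take, min_eq_left hcon.le, hcut.2.1.1] at h1
    omega
  obtain ⟨a1, a2, a3, a4⟩ := cut_split hcr hcut1
  refine ⟨l', ha, hle, hcr, γ.take t₁, γ.drop (t₁ + 1), a4, a2, ?_, a3, ?_⟩
  · intro l'' h1 h2 h3
    refine hmin l'' h1 h2 ?_
    rw [a4]
    exact (cat_lt a2 a3 h2).2 h3
  · show t < (γ.drop (t₁ + 1)).length
    rw [List.length_drop]
    omega

theorem Long2_weight {ν : Measure (ℕ → Step d)} (h : Law ν) (i : Fin d) {L l : ℕ} (a : ℕ)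
    (hl : l < L) (Q : List (Step d) → Prop) :
    Wt ν (Long2_E i L a l Q) =
      Wt ν (fun γ => Cr i l γ ∧ ∀ l', a ≤ l' → l' < l → ¬ Cut i γ l') * ν (cyl [(i, true)]) *
        Wt ν (fun γ => Cr i (L - l - 1) γ ∧ Q γ) := by
  rw [cat_weight h i l (L - l - 1) (fun γ => ∀ l', a ≤ l' → l' < l → ¬ Cut i γ l') Q]
  have hL : l + (L - l - 1) + 1 = L := by omega
  rw [hL]
  rfl

theorem Long2_disj {i : Fin d} {L a l l' : ℕ} {Q Q' : List (Step d) → Prop} {γ : List (Step d)}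
    (hal : a ≤ l) (h1 : Long2_E i L a l Q γ) (h2 : Long2_E i L a l' Q' γ) : ¬ l < l' := by
  intro hlt
  obtain ⟨-, γ₁, γ₂, rfl, b1, b2, b3, -⟩ := h1
  obtain ⟨-, γ₁', γ₂', e, c1, c2, c3, -⟩ := h2
  have hc : Cut i (γ₁ ++ [(i, true)] ++ γ₂) l := ⟨_, cat_mid b1 b3⟩
  rw [e] at hc
  exact c2 l hal hlt ((cat_lt c1 c3 hlt).1 hc)

theorem long2 {ν : Measure (ℕ → Step d)} (h : Law ν) (i : Fin d) {δ : ℝ≥0∞} (hδ : 0 < δ)
    (hcr : ∀ m, δ ≤ cr ν i m) (L lam t : ℕ) (hlam : 1 ≤ lam) (hL : 2 * lam ≤ L) :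
    Wt ν (fun γ => Cr i L γ ∧ ∃ l t₀, L - 2 * lam ≤ l ∧ l < L - lam ∧ CutAt i γ l t₀ ∧
      t₀ + t + 1 < γ.length) ≤ δ⁻¹ * ν (Slab i (2 * lam) t) := by
  have hδ1 : δ ≤ 1 := by
    refine (hcr 0).trans ?_
    rw [cr_eq]
    exact Wt_Cr_le h i 0 _
  have hδt : δ ≠ ⊤ := ne_top_of_le_ne_top ENNReal.one_ne_top hδ1
  set a : ℕ := L - 2 * lam with ha
  have key : ∀ l ∈ Finset.Ico a (L - lam),
      Wt ν (Long2_E i L a l (fun γ₂ => t < γ₂.length)) ≤
        δ⁻¹ * ν (Slab i (2 * lam) t) * Wt ν (Long2_E i L a l (fun _ => True)) := by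
    intro l hl
    rw [Finset.mem_Ico] at hl
    have hlL : l < L := by omega
    rw [Long2_weight h i a hlL, Long2_weight h i a hlL, ← cr_eq]
    have h4 : Wt ν (fun γ => Cr i (L - l - 1) γ ∧ t < γ.length) ≤ ν (Slab i (2 * lam) t) :=
      le_trans (long0 h i (L - l - 1) t) (measure_mono (LONG_slab_mono i (by omega) t))
    set W := Wt ν (fun γ => Cr i l γ ∧ ∀ l', a ≤ l' → l' < l → ¬ Cut i γ l') *
      ν (cyl [(i, true)]) with hW
    calc W * Wt ν (fun γ => Cr i (L - l - 1) γ ∧ t < γ.length)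
        ≤ W * ν (Slab i (2 * lam) t) := by gcongr
      _ = δ⁻¹ * ν (Slab i (2 * lam) t) * (W * δ) := by
          rw [show δ⁻¹ * ν (Slab i (2 * lam) t) * (W * δ) =
            (δ⁻¹ * δ) * (W * ν (Slab i (2 * lam) t)) by ring,
            ENNReal.inv_mul_cancel hδ.ne' hδt, one_mul]
      _ ≤ δ⁻¹ * ν (Slab i (2 * lam) t) * (W * cr ν i (L - l - 1)) := by
          gcongr
          exact hcr _
  calc Wt ν (fun γ => Cr i L γ ∧ ∃ l t₀, a ≤ l ∧ l < L - lam ∧ CutAt i γ l t₀ ∧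
        t₀ + t + 1 < γ.length)
      ≤ Wt ν (fun γ => ∃ l ∈ Finset.Ico a (L - lam),
          Long2_E i L a l (fun γ₂ => t < γ₂.length) γ) := by
        refine Wt_mono ν ?_
        rintro γ ⟨hc, l, t₀, h1, h2, h3, h4⟩
        obtain ⟨l', b1, b2, b3⟩ := Long2_exists hc h1 h3 h4
        exact ⟨l', Finset.mem_Ico.2 ⟨b1, by omega⟩, b3⟩
    _ ≤ ∑ l ∈ Finset.Ico a (L - lam),
          Wt ν (fun γ => Long2_E i L a l (fun γ₂ => t < γ₂.length) γ) :=
        LONG_Wt_union ν _ (fun l γ => Long2_E i L a l (fun γ₂ => t < γ₂.length) γ)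
    _ ≤ ∑ l ∈ Finset.Ico a (L - lam),
          δ⁻¹ * ν (Slab i (2 * lam) t) * Wt ν (Long2_E i L a l (fun _ => True)) :=
        Finset.sum_le_sum key
    _ = δ⁻¹ * ν (Slab i (2 * lam) t) *
          ∑ l ∈ Finset.Ico a (L - lam), Wt ν (Long2_E i L a l (fun _ => True)) := by
        rw [Finset.mul_sum]
    _ ≤ δ⁻¹ * ν (Slab i (2 * lam) t) * 1 := by
        gcongr
        refine le_trans (sum_Wt_le ν _ _ (fun γ => Cr i L γ ∧ True) ?_ ?_) (Wt_Cr_le h i L _)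
        · intro l _ γ hE
          exact ⟨hE.1, trivial⟩
        · intro l hl l' hl' γ hE hE'
          rw [Finset.mem_Ico] at hl hl'
          have h1 := Long2_disj hl.1 hE hE'
          have h2 := Long2_disj hl'.1 hE' hE
          omega
    _ = δ⁻¹ * ν (Slab i (2 * lam) t) := mul_one _

end Vale.Agent.Lib.P147H
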