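import Vale.Agent.Lib.P147.Start
import Vale.Agent.Lib.P147.Turn
import Vale.Agent.Lib.P147H.Defs

/-! P147, third version: positive probability of uniform polynomial escape upwards, never below the
starting level, and the lower bound for the weight of the crossings. -/

open MeasureTheory ProbabilityTheory Filter
open scoped ENNReal

namespace Vale.Agent.Lib.P147H

open Vale.Agent.Lib.P147 Vale.Agent.Lib.P147G

variable {d : ℕ}

/-- `UpP` is a closed event -/
def StartUp_Q (i : Fin d) (ψ : ℕ → ℝ) (m : List (Step d)) : Prop :=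
  0 ≤ endp m i ∧ ψ m.length ≤ (endp m i : ℝ)

theorem StartUp_UpP_eq (i : Fin d) (ψ : ℕ → ℝ) : UpP i ψ = Ev (StartUp_Q i ψ) := by
  ext s
  simp only [UpP, Ev, StartUp_Q, pos, pre_length]

theorem start_upH {ν : Measure (ℕ → Step d)} (h : Law ν) (i : Fin d) {β : ℝ} (hβ : 0 < β)
    (hβ1 : β ≤ 1)
    (hA : 0 < ν {s | ∀ᶠ n : ℕ in atTop, (n : ℝ) ^ β ≤ (pos s n i : ℝ)}) :
    ∃ b : ℝ, 0 ≤ b ∧ 0 < ν (UpP i (fun n => (n : ℝ) ^ β - b)) := by
  by_contra hcon
  push Not at hcon
  have hsub : {s : ℕ → Step d | ∀ᶠ n : ℕ in atTop, (n : ℝ) ^ β ≤ (pos s n i : ℝ)} ⊆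
      ⋃ M : ℕ, ⋃ γ : List (Step d),
        cyl γ ∩ shift γ.length ⁻¹' (UpP i (fun n => (n : ℝ) ^ β - M)) := by
    intro s hev
    obtain ⟨M, hM⟩ := eventually_atTop.1 hev
    -- a time of minimal level
    obtain ⟨t, ht⟩ : ∃ t, ∀ n, pos s t i ≤ pos s n i := by
      obtain ⟨t, -, ht⟩ := Finset.exists_min_image (Finset.range (M + 1)) (fun n => pos s n i)
        ⟨0, by simp⟩
      refine ⟨t, fun n => ?_⟩
      rcases le_or_gt n M with hn | hn
      · exact ht n (Finset.mem_range.2 (by omega))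
      · have h1 := hM n hn.le
        have h2 : 0 ≤ pos s n i := by
          have : (0 : ℝ) ≤ (pos s n i : ℝ) := le_trans (by positivity) h1
          exact_mod_cast this
        have h3 := ht 0 (by simp)
        simp only [pos_zero, Pi.zero_apply] at h3
        linarith
    obtain ⟨M', hM'⟩ := exists_nat_gt ((M : ℝ) + 1 + |(pos s t i : ℝ)|)
    refine Set.mem_iUnion.2 ⟨M', Set.mem_iUnion.2 ⟨pre s t, pre_mem_cyl s t, ?_⟩⟩
    rw [Set.mem_preimage, pre_length]
    intro n
    have hadd : pos s (t + n) i = pos s t i + pos (shift t s) n i := by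
      rw [pos_add, Pi.add_apply]
    have hle : 0 ≤ pos (shift t s) n i := by linarith [ht (t + n)]
    refine ⟨hle, ?_⟩
    have habs := le_abs_self (pos s t i : ℝ)
    have habs3 := neg_abs_le (pos s t i : ℝ)
    have habs2 := abs_nonneg (pos s t i : ℝ)
    show (n : ℝ) ^ β - M' ≤ (pos (shift t s) n i : ℝ)
    rcases le_total M (t + n) with hn | hn
    · have h1 := hM (t + n) hn
      rw [hadd] at h1
      push_cast at h1
      have h2 : (n : ℝ) ^ β ≤ ((t : ℝ) + n) ^ β :=
        Real.rpow_le_rpow (by positivity) (by linarith [(Nat.cast_nonneg t : (0:ℝ) ≤ t)]) hβ.le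
      have h4 : (0 : ℝ) ≤ M := by positivity
      linarith
    · have h1 : (n : ℝ) ≤ M := by
        have : n ≤ M := by omega
        exact_mod_cast this
      have h2 : (0 : ℝ) ≤ (pos (shift t s) n i : ℝ) := by exact_mod_cast hle
      have h3 : (n : ℝ) ^ β ≤ (M : ℝ) + 1 := by
        have h5 : (n : ℝ) ^ β ≤ ((M : ℝ) + 1) ^ β :=
          Real.rpow_le_rpow (by positivity) (by linarith) hβ.le
        have h6 : ((M : ℝ) + 1) ^ β ≤ ((M : ℝ) + 1) ^ (1 : ℝ) :=
          Real.rpow_le_rpow_of_exponent_le (by linarith [(Nat.cast_nonneg M : (0:ℝ) ≤ M)]) hβ1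
        rw [Real.rpow_one] at h6
        linarith
      linarith
  have hzero : ν (⋃ M : ℕ, ⋃ γ : List (Step d),
        cyl γ ∩ shift γ.length ⁻¹' (UpP i (fun n => (n : ℝ) ^ β - M))) = 0 := by
    rw [measure_iUnion_null_iff]
    intro M
    rw [measure_iUnion_null_iff]
    intro γ
    have h1 := hcon M (by positivity)
    rw [StartUp_UpP_eq] at h1 ⊢
    exact le_antisymm ((ext_le h γ _).trans h1) zero_le
  exact absurd (measure_mono_null hsub hzero) hA.ne'

/-- a walk in `UpP` with `ψ → ∞` makes a crossing of every level -/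
theorem StartUp_hit {i : Fin d} {ψ : ℕ → ℝ} (hψ : Tendsto ψ atTop atTop) {s : ℕ → Step d}
    (hs : s ∈ UpP i ψ) (m : ℕ) : ∃ t, Cr i m (pre s t) := by
  classical
  have hex : ∃ n, (m : ℤ) ≤ pos s n i := by
    obtain ⟨n, hn⟩ := (hψ.eventually_ge_atTop (m : ℝ)).exists
    refine ⟨n, ?_⟩
    have h1 := (hs n).2
    have : (((m : ℤ) : ℤ) : ℝ) ≤ ((pos s n i : ℤ) : ℝ) := by push_cast; linarith
    exact_mod_cast this
  refine ⟨Nat.find hex, ⟨le_antisymm ?_ (Nat.find_spec hex), fun k hk => ?_⟩, fun k hk => ?_⟩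
  · rcases h : Nat.find hex with _ | n
    · simp
    · have h2 := Nat.find_min hex (show n < Nat.find hex by omega)
      show pos s (n + 1) i ≤ m
      rw [pos_succ, Pi.add_apply]
      have h4 := vec_le_one (s n) i
      push Not at h2
      linarith
  · rw [pre_length] at hk
    rw [pre_take s hk.le]
    have h2 := Nat.find_min hex hk
    push Not at h2
    exact h2
  · rw [pre_length] at hk
    rw [pre_take s hk]
    exact (hs k).1

theorem cr_lower {ν : Measure (ℕ → Step d)} (h : Law ν) (i : Fin d) {ψ : ℕ → ℝ}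
    (hψ : Tendsto ψ atTop atTop) (m : ℕ) : ν (UpP i ψ) ≤ cr ν i m := by
  classical
  have hsub : UpP i ψ ⊆ ⋃ γ : List (Step d), if Cr i m γ then cyl γ else ∅ := by
    intro s hs
    obtain ⟨t, ht⟩ := StartUp_hit hψ hs m
    refine Set.mem_iUnion.2 ⟨pre s t, ?_⟩
    rw [if_pos ht]
    exact pre_mem_cyl s t
  calc ν (UpP i ψ) ≤ ν (⋃ γ : List (Step d), if Cr i m γ then cyl γ else ∅) := measure_mono hsub
    _ ≤ ∑' γ : List (Step d), ν (if Cr i m γ then cyl γ else ∅) := measure_iUnion_le _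
    _ = cr ν i m := by
        rw [cr, Wt]
        refine tsum_congr fun γ => ?_
        by_cases hc : Cr i m γ
        · rw [if_pos hc, if_pos hc]
        · rw [if_neg hc, if_neg hc, measure_empty]

end Vale.Agent.Lib.P147H
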