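import Vale.Agent.Lib.P147H.Defs

/-! P147, third version: pathwise part of the tip estimate.  A crossing whose last dyadic windows of
levels all contain a cut visited late has a thin tip. -/

namespace Vale.Agent.Lib.P147H

open Vale.Agent.Lib.P147 Vale.Agent.Lib.P147G

variable {d : ℕ}

/-- before a cut at level `l` the levels are at most `l` -/
theorem TipPath_le_of_cut {i : Fin d} {γ : List (Step d)} {l t k : ℕ} (h : CutAt i γ l t)
    (hk : k ≤ t) : endp (γ.take k) i ≤ (l : ℤ) := by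
  obtain ⟨_, ⟨h1, h2⟩, _, _⟩ := h
  have hmin : (γ.take t).take k = γ.take k := by
    rw [List.take_take, min_eq_left hk]
  rcases Nat.lt_or_ge k (γ.take t).length with hlt | hge
  · have := h2 k hlt
    rw [hmin] at this
    exact this.le
  · have h3 : (γ.take t).take k = γ.take t := List.take_of_length_le hge
    rw [← hmin, h3, h1]

/-- the number of late high points is at most the remaining length after a low cut -/
theorem TipPath_card_of_cut {i : Fin d} {L lam : ℕ} {γ : List (Step d)} {l t : ℕ}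
    (h : CutAt i γ l t) (hl : l + lam < L) :
    ((Finset.range (γ.length + 1)).filter
      (fun k => (L : ℤ) - lam ≤ endp (γ.take k) i)).card ≤ γ.length - t := by
  have hsub : (Finset.range (γ.length + 1)).filter
      (fun k => (L : ℤ) - lam ≤ endp (γ.take k) i) ⊆ Finset.Ioc t γ.length := by
    intro k hk
    rw [Finset.mem_filter, Finset.mem_range] at hk
    rw [Finset.mem_Ioc]
    refine ⟨?_, by omega⟩
    by_contra hcon
    have := TipPath_le_of_cut h (not_lt.mp hcon)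
    omega
  calc _ ≤ (Finset.Ioc t γ.length).card := Finset.card_le_card hsub
    _ = γ.length - t := Nat.card_Ioc t γ.length

/-- the number of late high points is at most the length plus one -/
theorem TipPath_card_le {i : Fin d} {L lam : ℕ} {γ : List (Step d)} :
    ((Finset.range (γ.length + 1)).filter
      (fun k => (L : ℤ) - lam ≤ endp (γ.take k) i)).card ≤ γ.length + 1 := by
  calc _ ≤ (Finset.range (γ.length + 1)).card := Finset.card_filter_le _ _
    _ = γ.length + 1 := Finset.card_range _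

/-- pathwise criterion for a thin tip -/
theorem tip_path {i : Fin d} {L j0 : ℕ} {γ : List (Step d)} {M0 κ : ℝ} (hM0 : 0 ≤ M0)
    (hκ : 0 ≤ κ) (hcr : Cr i L γ) (hlen : (γ.length : ℝ) ≤ M0 * (L : ℝ) ^ κ)
    (hcut : ∀ j : ℕ, j0 ≤ j → 2 ^ (j + 1) ≤ L → ∃ l t : ℕ, l + 2 ^ j < L ∧ CutAt i γ l t ∧
      (γ.length : ℝ) ≤ t + M0 * ((2 : ℝ) ^ j) ^ κ + 1) :
    Tip i L ((M0 + 1) * (4 * (2 : ℝ) ^ j0) ^ κ) κ γ := by
  refine ⟨hcr, fun lam hlam => ?_⟩
  have hlamR : (1 : ℝ) ≤ lam := by exact_mod_cast hlam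
  have hp0 : (1 : ℝ) ≤ (2 : ℝ) ^ j0 := one_le_pow₀ (by norm_num)
  have hbase : (1 : ℝ) ≤ 4 * (2 : ℝ) ^ j0 * lam := by nlinarith
  have hone : (1 : ℝ) ≤ (4 * (2 : ℝ) ^ j0 * lam) ^ κ := Real.one_le_rpow hbase hκ
  have hsplit : (M0 + 1) * (4 * (2 : ℝ) ^ j0) ^ κ * (lam : ℝ) ^ κ =
      (M0 + 1) * (4 * (2 : ℝ) ^ j0 * lam) ^ κ := by
    rw [Real.mul_rpow (x := 4 * (2 : ℝ) ^ j0) (y := (lam : ℝ)) (by positivity) (by positivity)]
    ring
  rw [hsplit]
  -- a bound of the form `M0 * a ^ κ + 1` with `a` below the base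
  have hkey : ∀ a : ℝ, 0 ≤ a → a ≤ 4 * (2 : ℝ) ^ j0 * lam →
      M0 * a ^ κ + 1 ≤ (M0 + 1) * (4 * (2 : ℝ) ^ j0 * lam) ^ κ := by
    intro a ha hle
    have h1 : a ^ κ ≤ (4 * (2 : ℝ) ^ j0 * lam) ^ κ := Real.rpow_le_rpow ha hle hκ
    have h2 := mul_le_mul_of_nonneg_left h1 hM0
    linarith
  -- the window
  obtain ⟨j, hj0, hjlam, hjup⟩ : ∃ j : ℕ, j0 ≤ j ∧ lam ≤ 2 ^ j ∧ 2 ^ j ≤ 2 * 2 ^ j0 * lam := by
    refine ⟨j0 + Nat.clog 2 lam, Nat.le_add_right _ _, ?_, ?_⟩
    · calc lam ≤ 2 ^ Nat.clog 2 lam := Nat.le_pow_clog (by norm_num) lam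
        _ ≤ 2 ^ (j0 + Nat.clog 2 lam) := Nat.pow_le_pow_right (by norm_num) (by omega)
    · have h2 : 2 ^ Nat.clog 2 lam ≤ 2 * lam := by
        rcases Nat.lt_or_ge 1 lam with h | h
        · have h3 := Nat.pow_pred_clog_lt_self (b := 2) (by norm_num) h
          have h4 : 0 < Nat.clog 2 lam := Nat.clog_pos (by norm_num) h
          obtain ⟨c, hc⟩ : ∃ c, Nat.clog 2 lam = c + 1 := ⟨Nat.clog 2 lam - 1, by omega⟩
          rw [hc] at h3 ⊢
          simp only [Nat.pred_succ] at h3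
          rw [pow_succ]
          omega
        · have : lam = 1 := by omega
          subst this
          simp
      calc 2 ^ (j0 + Nat.clog 2 lam) = 2 ^ j0 * 2 ^ Nat.clog 2 lam := pow_add _ _ _
        _ ≤ 2 ^ j0 * (2 * lam) := Nat.mul_le_mul_left _ h2
        _ = 2 * 2 ^ j0 * lam := by ring
  have hjupR : (2 : ℝ) ^ j ≤ 2 * (2 : ℝ) ^ j0 * lam := by exact_mod_cast hjup
  rcases Nat.lt_or_ge L (2 ^ (j + 1)) with hcase | hcase
  · -- few levels altogether
    have hLR : (L : ℝ) ≤ 4 * (2 : ℝ) ^ j0 * lam := by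
      have h1 : (L : ℝ) ≤ (2 : ℝ) ^ (j + 1) := by exact_mod_cast hcase.le
      rw [pow_succ] at h1
      linarith
    have hc : ((((Finset.range (γ.length + 1)).filter
        (fun k => (L : ℤ) - lam ≤ endp (γ.take k) i)).card : ℕ) : ℝ) ≤ (γ.length : ℝ) + 1 := by
      exact_mod_cast TipPath_card_le
    have := hkey (L : ℝ) (Nat.cast_nonneg _) hLR
    linarith
  · obtain ⟨l, t, hl, hc, hlate⟩ := hcut j hj0 hcase
    have hcard := TipPath_card_of_cut (L := L) (lam := lam) hc (by omega)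
    have ht : t ≤ γ.length := hc.1.le
    have hcardR : ((((Finset.range (γ.length + 1)).filter
        (fun k => (L : ℤ) - lam ≤ endp (γ.take k) i)).card : ℕ) : ℝ) ≤
        (γ.length : ℝ) - t := by
      have : ((((Finset.range (γ.length + 1)).filter
        (fun k => (L : ℤ) - lam ≤ endp (γ.take k) i)).card : ℕ) : ℝ) ≤
        ((γ.length - t : ℕ) : ℝ) := by exact_mod_cast hcard
      rwa [Nat.cast_sub ht] at this
    have := hkey ((2 : ℝ) ^ j) (by positivity) (by nlinarith)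
    linarith

end Vale.Agent.Lib.P147H
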